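import Mathlib

/-!
# P171: the analytic core of the argument (pure real analysis)
-/

namespace Vale.Agent.P171

open Filter Topology

/-- completing the square -/
theorem lin_sub_sq_le (b s τ : ℝ) (hτ : 0 < τ) : b * s - s ^ 2 / (2 * τ) ≤ b ^ 2 * τ / 2 := by
  have h : b ^ 2 * τ / 2 - (b * s - s ^ 2 / (2 * τ)) = (b * τ - s) ^ 2 / (2 * τ) := by
    field_simp
    ring
  have h2 : 0 ≤ (b * τ - s) ^ 2 / (2 * τ) := by positivity
  linarith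

theorem exists_delta_of_hasDerivAt {G : ℝ → ℝ} {r : ℝ} (hder : HasDerivAt G r 0) {η : ℝ}
    (hη : 0 < η) : ∃ δ > 0, ∀ s, |s| < δ → |G s - G 0 - r * s| ≤ η * |s| := by
  have h := hasDerivAt_iff_isLittleO.mp hder
  have h2 := h.def hη
  rw [Metric.eventually_nhds_iff] at h2
  obtain ⟨δ, hδ, hb⟩ := h2
  refine ⟨δ, hδ, fun s hs => ?_⟩
  have h3 := hb (y := s) (by simpa [Real.dist_eq] using hs)
  simpa [Real.norm_eq_abs, mul_comm] using h3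

theorem exists_slope {r a' : ℝ} (h : r ^ 2 / 2 < a') :
    ∃ om : ℝ, 0 < om ∧ (|r| + om) ^ 2 / 2 < a' := by
  have hg : 0 < a' - r ^ 2 / 2 := by linarith
  refine ⟨min 1 ((a' - r ^ 2 / 2) / (2 * |r| + 2)), lt_min one_pos (by positivity), ?_⟩
  obtain ⟨om, hom⟩ : ∃ om, om = min 1 ((a' - r ^ 2 / 2) / (2 * |r| + 2)) := ⟨_, rfl⟩
  rw [← hom]
  have hpos : 0 < om := by rw [hom]; exact lt_min one_pos (by positivity)
  have h1 : om ≤ 1 := by rw [hom]; exact min_le_left _ _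
  have h2 : om * (2 * |r| + 2) ≤ a' - r ^ 2 / 2 := by
    rw [← le_div_iff₀ (by positivity), hom]
    exact min_le_right _ _
  have h3 : |r| ^ 2 = r ^ 2 := sq_abs r
  have h4 := abs_nonneg r
  have h5 : om ^ 2 ≤ om := by nlinarith
  have e : (|r| + om) ^ 2 / 2 = |r| ^ 2 / 2 + (2 * |r| * om + om ^ 2) / 2 := by ring
  rw [e, h3]
  have h6 : 2 * |r| * om + om ^ 2 ≤ om * (2 * |r| + 2) := by nlinarith
  linarith

theorem exists_linear_bound {G : ℝ → ℝ} {r om : ℝ} (hder : HasDerivAt G r 0) (hom : 0 < om) :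
    ∃ u0 : ℝ, 0 < u0 ∧ ∀ u, 0 ≤ u → u ≤ u0 → G u ≤ G 0 + (|r| + om) * u := by
  obtain ⟨δ, hδ, hlin⟩ := exists_delta_of_hasDerivAt hder hom
  refine ⟨δ / 2, by positivity, fun u h0 h1 => ?_⟩
  have h2 := hlin u (by rw [abs_of_nonneg h0]; linarith)
  rw [abs_of_nonneg h0] at h2
  have h3 := (abs_le.mp h2).2
  have h4 : r * u ≤ |r| * u := mul_le_mul_of_nonneg_right (le_abs_self r) h0
  linarith

theorem check_small {G : ℝ → ℝ} {r1 u0 i s τ A : ℝ}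
    (hlin : ∀ u, 0 ≤ u → u ≤ u0 → G u ≤ G 0 + r1 * u) (hi0 : 0 < i) (hi2 : i ≤ u0 / 2)
    (hs : 0 ≤ s) (hsu : s < u0 / 2) (hτ : 0 < τ) (hA : 0 < A) :
    A * G (i + s) - s ^ 2 / (2 * τ) ≤ A * (G 0 + r1 * i) + A ^ 2 * r1 ^ 2 * τ / 2 := by
  have g1 := hlin (i + s) (by positivity) (by linarith)
  have g2 : A * G (i + s) ≤ A * (G 0 + r1 * (i + s)) := mul_le_mul_of_nonneg_left g1 hA.le
  have g3 := lin_sub_sq_le (A * r1) s τ hτ
  have e : (A * r1) ^ 2 * τ / 2 = A ^ 2 * r1 ^ 2 * τ / 2 := by ring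
  rw [e] at g3
  have e' : A * (G 0 + r1 * (i + s)) = A * (G 0 + r1 * i) + A * r1 * s := by ring
  rw [e'] at g2
  linarith

theorem check_large {G : ℝ → ℝ} {C₁ C₂ u0 i s τ t A : ℝ} (hG0 : ∀ u, 0 ≤ G u)
    (hC₁ : 0 ≤ C₁) (hC₂ : 0 ≤ C₂) (hquad : ∀ u, 0 ≤ u → G u ≤ C₁ + C₂ * u ^ 2)
    (hu0 : 0 < u0) (hi0 : 0 < i) (hi1 : i ≤ 1 / 2) (hsu : u0 / 2 ≤ s) (hτ : 0 < τ)
    (hτle : τ ≤ 2 * t) (hA8 : A ≤ 8)
    (htK : t * (2 * (2 * (8 * (4 * C₁ / u0 ^ 2 + C₂ * (2 / u0 + 1) ^ 2)) + 1)) ≤ 1) :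
    A * G (i + s) - s ^ 2 / (2 * τ) ≤ 0 := by
  obtain ⟨K, hKdef⟩ : ∃ K, K = 8 * (4 * C₁ / u0 ^ 2 + C₂ * (2 / u0 + 1) ^ 2) := ⟨_, rfl⟩
  rw [← hKdef] at htK
  have hK : 0 ≤ K := by rw [hKdef]; positivity
  have hspos : 0 < s := by linarith
  have g1 := hquad (i + s) (by positivity)
  have g2 : A * G (i + s) ≤ 8 * (C₁ + C₂ * (i + s) ^ 2) := by
    calc A * G (i + s) ≤ 8 * G (i + s) := mul_le_mul_of_nonneg_right hA8 (hG0 _)
      _ ≤ 8 * (C₁ + C₂ * (i + s) ^ 2) := mul_le_mul_of_nonneg_left g1 (by norm_num)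
  have hq : 1 ≤ 2 / u0 * s := by
    rw [div_mul_eq_mul_div, le_div_iff₀ hu0]
    linarith
  have g3 : C₁ ≤ 4 * C₁ / u0 ^ 2 * s ^ 2 := by
    have h5 : (1 : ℝ) ≤ (2 / u0 * s) ^ 2 := one_le_pow₀ hq
    have h6 : 4 * C₁ / u0 ^ 2 * s ^ 2 = C₁ * (2 / u0 * s) ^ 2 := by
      field_simp
      ring
    rw [h6]
    exact le_mul_of_one_le_right hC₁ h5
  have g4 : (i + s) ^ 2 ≤ (2 / u0 + 1) ^ 2 * s ^ 2 := by
    have h5 : i + s ≤ (2 / u0 + 1) * s := by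
      have : (2 / u0 + 1) * s = 2 / u0 * s + s := by ring
      rw [this]
      linarith
    calc (i + s) ^ 2 ≤ ((2 / u0 + 1) * s) ^ 2 := pow_le_pow_left₀ (by positivity) h5 2
      _ = (2 / u0 + 1) ^ 2 * s ^ 2 := by ring
  have g5 : 8 * (C₁ + C₂ * (i + s) ^ 2) ≤ K * s ^ 2 := by
    have h7 : C₂ * (i + s) ^ 2 ≤ C₂ * ((2 / u0 + 1) ^ 2 * s ^ 2) :=
      mul_le_mul_of_nonneg_left g4 hC₂
    have e : K * s ^ 2 = 8 * (4 * C₁ / u0 ^ 2 * s ^ 2 + C₂ * ((2 / u0 + 1) ^ 2 * s ^ 2)) := by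
      rw [hKdef]; ring
    rw [e]
    linarith
  have g6 : K * s ^ 2 ≤ s ^ 2 / (2 * τ) := by
    rw [le_div_iff₀ (by positivity)]
    have h8 : K * (2 * τ) ≤ 1 := by
      have a1 : K * (2 * τ) ≤ K * (2 * (2 * t)) :=
        mul_le_mul_of_nonneg_left (by linarith) hK
      have a2 : 0 < t := by linarith
      have a3 : K * (2 * (2 * t)) ≤ t * (2 * (2 * K + 1)) := by nlinarith
      linarith
    have h9 : 0 ≤ s ^ 2 := by positivity
    calc K * s ^ 2 * (2 * τ) = (K * (2 * τ)) * s ^ 2 := by ring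
      _ ≤ 1 * s ^ 2 := mul_le_mul_of_nonneg_right h8 h9
      _ = s ^ 2 := one_mul _
  linarith

theorem log_bound {x : ℝ} (hx : 0 < x) : Real.log (2 * x) / x ^ 3 ≤ 2 * (1 / x) ^ 2 := by
  have l1 : Real.log (2 * x) ≤ 2 * x := by
    have := Real.log_le_sub_one_of_pos (by positivity : 0 < 2 * x)
    linarith
  rw [div_le_iff₀ (by positivity)]
  have e : 2 * (1 / x) ^ 2 * x ^ 3 = 2 * x := by
    field_simp
  rw [e]
  exact l1

/-- the inequality obtained at a fixed large scale -/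
theorem analytic_step {G : ℝ → ℝ} {r1 C C₁ C₂ u0 t x θ : ℝ} (hG0 : ∀ u, 0 ≤ G u)
    (hC₁ : 0 ≤ C₁) (hC₂ : 0 ≤ C₂) (hquad : ∀ u, 0 ≤ u → G u ≤ C₁ + C₂ * u ^ 2)
    (hr1 : 0 < r1) (hu0 : 0 < u0) (hlin : ∀ u, 0 ≤ u → u ≤ u0 → G u ≤ G 0 + r1 * u)
    (hC : 0 ≤ C) (ht : 0 < t)
    (htK : t * (2 * (2 * (8 * (4 * C₁ / u0 ^ 2 + C₂ * (2 / u0 + 1) ^ 2)) + 1)) ≤ 1)
    (hx : max 2 (2 / u0) ≤ x) (hθ0 : 0 < θ) (hθ : θ < t / (t + C)) :
    ∀ s : ℝ, 0 ≤ s → (1 + 2 / x) ^ 3 * G (1 / x + s) - s ^ 2 / (2 * (t * (1 + θ) + C * θ)) ≤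
      (1 + 2 * (1 / x)) ^ 3 * (G 0 + r1 * (1 / x)) +
        (1 + 2 * (1 / x)) ^ 6 * r1 ^ 2 * (t * (1 + θ) + C * θ) / 2 := by
  have hel2 : 2 ≤ x := (le_max_left _ _).trans hx
  have helu : 2 / u0 ≤ x := (le_max_right _ _).trans hx
  have helk : 0 < x := by linarith
  obtain ⟨i, hidef⟩ : ∃ i, i = 1 / x := ⟨_, rfl⟩
  have hi0 : 0 < i := by rw [hidef]; positivity
  have hi1 : i ≤ 1 / 2 := by
    rw [hidef]
    exact one_div_le_one_div_of_le (by norm_num) hel2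
  have hi2 : i ≤ u0 / 2 := by
    rw [hidef, div_le_iff₀ helk]
    have := (div_le_iff₀ hu0).mp helu
    linarith
  have e2 : 2 / x = 2 * i := by rw [hidef]; ring
  obtain ⟨τ, hτdef⟩ : ∃ τ, τ = t * (1 + θ) + C * θ := ⟨_, rfl⟩
  have hτpos : 0 < τ := by rw [hτdef]; positivity
  have hτle : τ ≤ 2 * t := by
    have := (lt_div_iff₀ (by positivity : 0 < t + C)).mp hθ
    rw [hτdef]
    linarith
  obtain ⟨A, hAdef⟩ : ∃ A, A = (1 + 2 * i) ^ 3 := ⟨_, rfl⟩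
  have hA0 : 0 < A := by rw [hAdef]; positivity
  have hA8 : A ≤ 8 := by
    rw [hAdef]
    have : 1 + 2 * i ≤ 2 := by linarith
    calc (1 + 2 * i) ^ 3 ≤ 2 ^ 3 := pow_le_pow_left₀ (by positivity) this 3
      _ = 8 := by norm_num
  have hA6 : (1 + 2 * i) ^ 6 = A ^ 2 := by rw [hAdef]; ring
  have hM0 : 0 ≤ A * (G 0 + r1 * i) + A ^ 2 * r1 ^ 2 * τ / 2 := by
    have := hG0 0
    positivity
  intro s hs
  rw [e2, ← hidef, ← hτdef, hA6, ← hAdef]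
  by_cases hsu : s < u0 / 2
  · exact check_small hlin hi0 hi2 hs hsu hτpos hA0
  · push Not at hsu
    exact (check_large hG0 hC₁ hC₂ hquad hu0 hi0 hi1 hsu hτpos hτle hA8 htK).trans hM0

/-- If `G` is differentiable at `0` with derivative `r`, grows at most quadratically, and satisfies
the comparison inequalities `hkac` along scales `el k → ∞` with errors `de k, th k → 0`, then
`a' ≤ r^2/2`. -/
theorem analytic_core {G : ℝ → ℝ} {r a' b' C C₁ C₂ tmax : ℝ} (hG0 : ∀ u, 0 ≤ G u)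
    (hC₁ : 0 ≤ C₁) (hC₂ : 0 ≤ C₂) (hquad : ∀ u, 0 ≤ u → G u ≤ C₁ + C₂ * u ^ 2)
    (hder : HasDerivAt G r 0) (htmax : 0 < tmax) (hC : 0 ≤ C)
    {el de th : ℕ → ℝ} (hel : Tendsto el atTop atTop) (hde : Tendsto de atTop (𝓝 0))
    (hth : Tendsto th atTop (𝓝 0)) (hthpos : ∀ k, 0 < th k) (helpos : ∀ k, 0 < el k)
    (hkac : ∀ k : ℕ, 1 ≤ k → ∀ t : ℝ, 0 ≤ t → t ≤ tmax → ∀ M : ℝ,
      (∀ s : ℝ, 0 ≤ s → (1 + 2 / el k) ^ 3 * G (1 / el k + s) -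
        s ^ 2 / (2 * (t * (1 + th k) + C * th k)) ≤ M) →
      G 0 + a' * t - b' * de k ≤ Real.log (2 * el k) / el k ^ 3 + M) :
    a' ≤ r ^ 2 / 2 := by
  by_contra hcon
  push Not at hcon
  obtain ⟨om, hom, hr1⟩ := exists_slope hcon
  obtain ⟨u0, hu0, hlin⟩ := exists_linear_bound hder hom
  obtain ⟨r1, hr1def⟩ : ∃ r1, r1 = |r| + om := ⟨_, rfl⟩
  rw [← hr1def] at hr1 hlin
  have hr1pos : 0 < r1 := by rw [hr1def]; positivity
  obtain ⟨K, hKdef⟩ : ∃ K, K = 8 * (4 * C₁ / u0 ^ 2 + C₂ * (2 / u0 + 1) ^ 2) := ⟨_, rfl⟩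
  have hK : 0 ≤ K := by rw [hKdef]; positivity
  obtain ⟨t, htdef⟩ : ∃ t, t = min tmax (1 / (2 * (2 * K + 1))) := ⟨_, rfl⟩
  have ht : 0 < t := by rw [htdef]; exact lt_min htmax (by positivity)
  have httmax : t ≤ tmax := by rw [htdef]; exact min_le_left _ _
  have htK : t * (2 * (2 * K + 1)) ≤ 1 := by
    rw [← le_div_iff₀ (by positivity), htdef]
    exact min_le_right _ _
  rw [hKdef] at htK
  have hev1 : ∀ᶠ k in atTop, max 2 (2 / u0) ≤ el k := hel.eventually_ge_atTop _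
  have hev2 : ∀ᶠ k in atTop, th k < t / (t + C) :=
    hth.eventually_lt_const (by positivity)
  have hev3 : ∀ᶠ k : ℕ in atTop, 1 ≤ k := eventually_ge_atTop 1
  have hmain : ∀ᶠ k in atTop, G 0 + a' * t - b' * de k ≤
      2 * (1 / el k) ^ 2 + ((1 + 2 * (1 / el k)) ^ 3 * (G 0 + r1 * (1 / el k)) +
        (1 + 2 * (1 / el k)) ^ 6 * r1 ^ 2 * (t * (1 + th k) + C * th k) / 2) := by
    filter_upwards [hev1, hev2, hev3] with k h1 h2 h3
    have key := hkac k h3 t ht.le httmax _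
      (analytic_step hG0 hC₁ hC₂ hquad hr1pos hu0 hlin hC ht htK h1 (hthpos k) h2)
    have hlog := log_bound (helpos k)
    linarith
  have hi : Tendsto (fun k => 1 / el k) atTop (𝓝 0) := by
    have h0 : Tendsto (fun k => (el k)⁻¹) atTop (𝓝 0) := tendsto_inv_atTop_zero.comp hel
    simpa [one_div] using h0
  have hΦ : Continuous (fun p : ℝ × ℝ => 2 * p.1 ^ 2 + ((1 + 2 * p.1) ^ 3 * (G 0 + r1 * p.1) +
      (1 + 2 * p.1) ^ 6 * r1 ^ 2 * (t * (1 + p.2) + C * p.2) / 2)) := by fun_prop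
  have hR := (hΦ.tendsto (0, 0)).comp (hi.prodMk_nhds hth)
  have hL : Tendsto (fun k => G 0 + a' * t - b' * de k) atTop (𝓝 (G 0 + a' * t - b' * 0)) :=
    tendsto_const_nhds.sub (hde.const_mul b')
  have hfin := le_of_tendsto_of_tendsto hL hR hmain
  norm_num at hfin
  have h9 : a' * t ≤ r1 ^ 2 / 2 * t := by linarith
  have h10 := le_of_mul_le_mul_right h9 ht
  linarith

/-- one-sided difference quotients control the derivative -/
theorem deriv_mem_of_subgradient {G : ℝ → ℝ} {r ρ ε : ℝ} (hder : HasDerivAt G r 0)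
    (h : ∀ s : ℝ, G 0 + ρ * s - ε * |s| ≤ G s) : |r - ρ| ≤ ε := by
  apply le_of_forall_pos_le_add
  intro η hη
  obtain ⟨δ, hδ, hb⟩ := exists_delta_of_hasDerivAt hder hη
  have hs : |δ / 2| < δ := by rw [abs_of_pos (by positivity)]; linarith
  have hs' : |-(δ / 2)| < δ := by rw [abs_neg]; exact hs
  have a1 := hb (δ / 2) hs
  have a2 := hb (-(δ / 2)) hs'
  have b1 := h (δ / 2)
  have b2 := h (-(δ / 2))
  rw [abs_neg] at a2 b2
  rw [abs_of_pos (by positivity : 0 < δ / 2)] at a1 a2 b1 b2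
  have c1 := (abs_le.mp a1).2
  have c2 := (abs_le.mp a2).2
  rw [abs_le]
  constructor
  · have : (ρ - r - ε - η) * (δ / 2) ≤ 0 := by linarith
    have h3 : ρ - r - ε - η ≤ 0 := by
      by_contra hc
      push Not at hc
      have := mul_pos hc (by positivity : 0 < δ / 2)
      linarith
    linarith
  · have : (r - ρ - ε - η) * (δ / 2) ≤ 0 := by linarith
    have h3 : r - ρ - ε - η ≤ 0 := by
      by_contra hc
      push Not at hc
      have := mul_pos hc (by positivity : 0 < δ / 2)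
      linarith
    linarith

end Vale.Agent.P171
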