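import Vale.Agent.P171.Family

/-!
# P171: from the `ℝ≥0∞`-valued configuration integrals to the statement-level objects
-/

namespace Vale.Agent.P171

open MeasureTheory Set Filter Topology
open scoped ENNReal

theorem boxN_eq (L : ℝ) (N : ℕ) : boxN L N = Set.univ.pi fun _ : Fin N => box L := by
  ext x
  simp [boxN, Set.mem_pi]

theorem volume_box_ne_top (L : ℝ) : volume (box L) ≠ ∞ := by
  have hsub : box L ⊆ box (max L 0) := by
    intro x hx i
    exact ⟨(hx i).1, (hx i).2.trans (le_max_left _ _)⟩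
  have h := measure_mono (μ := volume) hsub
  rw [volume_box (le_max_right L 0)] at h
  exact ne_top_of_le_ne_top ENNReal.ofReal_ne_top h

theorem measurable_energy {φ : ℝ → ℝ} (hφ : Measurable φ) (N : ℕ) :
    Measurable (fun x : Fin N → E3 => energy φ x) := by
  have h := measurable_pairSum_ofFn (ψ := fun a b => φ (dist a b)) (hφ.comp measurable_dist) N
  simp_rw [pairSum_ofFn] at h
  exact h

theorem energy_ge {φ : ℝ → ℝ} {B : ℝ} (hφ : Good φ B) {N : ℕ} (x : Fin N → E3) :
    -(B * (N : ℝ)) ≤ energy φ x := by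
  have h := hφ.stab (List.ofFn x)
  rw [pairSum_ofFn, List.length_ofFn] at h
  exact h

theorem integrableOn_boltzmann {φ : ℝ → ℝ} {B : ℝ} (hφ : Good φ B) (L : ℝ) (N : ℕ) :
    IntegrableOn (fun x : Fin N → E3 => Real.exp (-(1 * energy φ x))) (boxN L N) := by
  have hm : Measurable (fun x : Fin N → E3 => Real.exp (-(1 * energy φ x))) :=
    Real.measurable_exp.comp ((measurable_energy hφ.meas N).const_mul 1).neg
  refine Measure.integrableOn_of_bounded (M := Real.exp (B * (N : ℝ))) ?_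
    hm.aestronglyMeasurable ?_
  · rw [boxN_eq, volume_pi_const]
    exact ENNReal.pow_ne_top (volume_box_ne_top L)
  · refine Filter.Eventually.of_forall fun x => ?_
    rw [Real.norm_eq_abs, abs_of_pos (Real.exp_pos _)]
    apply Real.exp_le_exp.mpr
    have := energy_ge hφ x
    linarith

theorem cTerm_wt_ne_top {φ : ℝ → ℝ} {B : ℝ} (hφ : Good φ B) (L μ : ℝ) (N : ℕ) :
    cTerm (box L) (wt φ μ) N ≠ ∞ :=
  ne_top_of_le_ne_top (Xi_box_ne_top hφ L μ) (cTerm_le_cI _ _ _)

theorem pow_mul_Zcan_eq {φ : ℝ → ℝ} {B : ℝ} (hφ : Good φ B) (L : ℝ) {z : ℝ} (hz : 0 < z) (N : ℕ) :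
    z ^ N * Zcan φ 1 L N = (cTerm (box L) (wt φ (Real.log z)) N).toReal := by
  unfold Zcan cTerm
  rw [← boxN_eq]
  have hg : ∀ x : Fin N → E3, wt φ (Real.log z) (List.ofFn x) =
      ENNReal.ofReal (z ^ N * Real.exp (-(1 * energy φ x))) := by
    intro x
    unfold wt
    rw [pairSum_ofFn, List.length_ofFn, sub_eq_add_neg, Real.exp_add, mul_comm (Real.log z),
      Real.exp_nat_mul, Real.exp_log hz, one_mul]
  simp_rw [hg]
  have hm : Measurable (fun x : Fin N → E3 => z ^ N * Real.exp (-(1 * energy φ x))) :=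
    (Real.measurable_exp.comp ((measurable_energy hφ.meas N).const_mul 1).neg).const_mul _
  rw [ENNReal.toReal_mul, ← integral_eq_lintegral_of_nonneg_ae
    (Filter.Eventually.of_forall fun x => by positivity) hm.aestronglyMeasurable,
    integral_const_mul, ENNReal.toReal_inv, ENNReal.toReal_natCast]
  ring

theorem summable_grand {φ : ℝ → ℝ} {B : ℝ} (hφ : Good φ B) (L : ℝ) {z : ℝ} (hz : 0 < z) :
    Summable fun N : ℕ => z ^ N * Zcan φ 1 L N := by
  simp_rw [pow_mul_Zcan_eq hφ L hz]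
  exact ENNReal.summable_toReal (Xi_box_ne_top hφ L (Real.log z))

theorem grand_eq {φ : ℝ → ℝ} {B : ℝ} (hφ : Good φ B) (L : ℝ) {z : ℝ} (hz : 0 < z) :
    grand φ 1 L z = (Xi φ (box L) (Real.log z)).toReal := by
  unfold grand Xi cI
  simp_rw [pow_mul_Zcan_eq hφ L hz]
  rw [ENNReal.tsum_toReal_eq fun N => cTerm_wt_ne_top hφ L (Real.log z) N]

theorem isPressure_of_good {φ : ℝ → ℝ} {B : ℝ} (hφ : Good φ B) :
    IsPressure φ 1 fun z => press φ (Real.log z) := by
  intro z hz
  have h := tendsto_press hφ (Real.log z)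
  simp_rw [grand_eq hφ _ hz]
  exact h

theorem stable_of_good {φ : ℝ → ℝ} {B : ℝ} (hφ : Good φ B) : Stable φ :=
  ⟨B, fun _ x _ => energy_ge hφ x⟩

theorem tempered_of_good {φ : ℝ → ℝ} {B : ℝ} (hφ : Good φ B) : Tempered φ := by
  refine ⟨1, 1, 2, one_pos, one_pos, two_pos, fun r hr => ?_⟩
  have h1 := hφ.attr r hr
  have h2 : 0 ≤ r ^ (-(3 : ℝ) - 1) := Real.rpow_nonneg (by linarith) _
  linarith

theorem locallyBounded_phiC {c : ℕ → ℝ} (hc : Adm c) : LocallyBoundedOnPos (phiC c) :=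
  fun _ _ _ _ => ⟨Acore + cmax, fun r _ => abs_phiC_le hc r⟩

/-- non-differentiability in `μ` gives non-differentiability in `z = e^μ` -/
theorem not_differentiableAt_exp {P : ℝ → ℝ} {μ : ℝ} (h : ¬ DifferentiableAt ℝ P μ) :
    ¬ DifferentiableAt ℝ (fun z => P (Real.log z)) (Real.exp μ) := by
  intro hd
  apply h
  have h2 : DifferentiableAt ℝ ((fun z => P (Real.log z)) ∘ Real.exp) μ :=
    hd.comp μ Real.differentiableAt_exp
  have e : ((fun z => P (Real.log z)) ∘ Real.exp) = P := by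
    funext t
    simp
  rwa [e] at h2

end Vale.Agent.P171
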