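import Vale.Agent.P171.Defs

/-!
# P171: configuration integrals (with values in `ℝ≥0∞`)
-/

namespace Vale.Agent.P171

open MeasureTheory Set
open scoped ENNReal

/-- the `N`-particle term `(1/N!) ∫_{Λ^N} F` -/
noncomputable def cTerm (Λ : Set E3) (F : List E3 → ℝ≥0∞) (N : ℕ) : ℝ≥0∞ :=
  ((N.factorial : ℝ≥0∞))⁻¹ * ∫⁻ x in (Set.univ.pi fun _ : Fin N => Λ), F (List.ofFn x)

/-- the configuration integral `∑_N (1/N!) ∫_{Λ^N} F` -/
noncomputable def cI (Λ : Set E3) (F : List E3 → ℝ≥0∞) : ℝ≥0∞ := ∑' N : ℕ, cTerm Λ F N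

/-- measurability of a function of configurations -/
def CMeas (F : List E3 → ℝ≥0∞) : Prop :=
  ∀ N : ℕ, Measurable (fun x : Fin N → E3 => F (List.ofFn x))

/-- invariance under permutations -/
def PermInv (F : List E3 → ℝ≥0∞) : Prop := ∀ l l' : List E3, l.Perm l' → F l = F l'

theorem cTerm_le_cI (Λ : Set E3) (F : List E3 → ℝ≥0∞) (N : ℕ) : cTerm Λ F N ≤ cI Λ F :=
  ENNReal.le_tsum N

theorem volume_pi_const (Λ : Set E3) (N : ℕ) :
    volume (Set.univ.pi fun _ : Fin N => Λ) = volume Λ ^ N := by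
  rw [volume_pi, Measure.pi_pi]
  simp

theorem cTerm_zero (Λ : Set E3) (F : List E3 → ℝ≥0∞) : cTerm Λ F 0 = F [] := by
  unfold cTerm
  simp only [List.ofFn_zero, setLIntegral_const, volume_pi_const]
  simp

theorem cTerm_mono {Λ : Set E3} (hΛ : MeasurableSet Λ) {F G : List E3 → ℝ≥0∞}
    (h : ∀ l : List E3, (∀ x ∈ l, x ∈ Λ) → F l ≤ G l) (N : ℕ) : cTerm Λ F N ≤ cTerm Λ G N := by
  unfold cTerm
  refine mul_le_mul_right ?_ _
  apply setLIntegral_mono' (MeasurableSet.univ_pi fun _ => hΛ)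
  intro x hx
  apply h
  rw [List.forall_mem_ofFn_iff]
  intro i
  exact hx i (Set.mem_univ i)

theorem cI_mono {Λ : Set E3} (hΛ : MeasurableSet Λ) {F G : List E3 → ℝ≥0∞}
    (h : ∀ l : List E3, (∀ x ∈ l, x ∈ Λ) → F l ≤ G l) : cI Λ F ≤ cI Λ G :=
  ENNReal.tsum_le_tsum fun N => cTerm_mono hΛ h N

theorem cTerm_mono_set {Λ Λ' : Set E3} (h : Λ ⊆ Λ') (F : List E3 → ℝ≥0∞) (N : ℕ) :
    cTerm Λ F N ≤ cTerm Λ' F N := by
  unfold cTerm
  refine mul_le_mul_right ?_ _
  exact lintegral_mono_set (Set.pi_mono fun _ _ => h)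

theorem cI_mono_set {Λ Λ' : Set E3} (h : Λ ⊆ Λ') (F : List E3 → ℝ≥0∞) : cI Λ F ≤ cI Λ' F :=
  ENNReal.tsum_le_tsum fun N => cTerm_mono_set h F N

theorem cI_const_mul (Λ : Set E3) {F : List E3 → ℝ≥0∞} (hF : CMeas F) (a : ℝ≥0∞) :
    cI Λ (fun l => a * F l) = a * cI Λ F := by
  unfold cI
  rw [← ENNReal.tsum_mul_left]
  refine tsum_congr fun N => ?_
  unfold cTerm
  rw [lintegral_const_mul a (hF N), mul_left_comm]

theorem cI_mul_const (Λ : Set E3) {F : List E3 → ℝ≥0∞} (hF : CMeas F) (a : ℝ≥0∞) :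
    cI Λ (fun l => F l * a) = cI Λ F * a := by
  simp_rw [mul_comm _ a]
  exact cI_const_mul Λ hF a

theorem cI_finset_sum (Λ : Set E3) {ι : Type*} (s : Finset ι) {F : ι → List E3 → ℝ≥0∞}
    (hF : ∀ o ∈ s, CMeas (F o)) : cI Λ (fun l => ∑ o ∈ s, F o l) = ∑ o ∈ s, cI Λ (F o) := by
  unfold cI
  rw [← Summable.tsum_finsetSum fun _ _ => ENNReal.summable]
  refine tsum_congr fun N => ?_
  unfold cTerm
  rw [lintegral_finsetSum s fun o ho => hF o ho N, Finset.mul_sum]

/-- translation invariance -/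
theorem cTerm_translate (Λ : Set E3) (v : E3) (F : List E3 → ℝ≥0∞) (N : ℕ) :
    cTerm ((fun x => v + x) '' Λ) F N = cTerm Λ (fun l => F (l.map fun x => v + x)) N := by
  unfold cTerm
  congr 1
  have hmp : MeasurePreserving (fun x : Fin N → E3 => (fun _ => v) + x) volume volume :=
    measurePreserving_add_left volume (fun _ : Fin N => v)
  have hemb : MeasurableEmbedding (fun x : Fin N → E3 => (fun _ => v) + x) :=
    measurableEmbedding_addLeft (fun _ : Fin N => v)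
  have himg : (Set.univ.pi fun _ : Fin N => (fun x => v + x) '' Λ) =
      (fun x : Fin N → E3 => (fun _ => v) + x) '' (Set.univ.pi fun _ : Fin N => Λ) := by
    ext y
    constructor
    · intro hy
      have hy' : ∀ i, ∃ x ∈ Λ, v + x = y i := fun i => hy i (Set.mem_univ i)
      choose x hx1 hx2 using hy'
      exact ⟨x, fun i _ => hx1 i, funext fun i => hx2 i⟩
    · rintro ⟨x, hx, rfl⟩ i _
      exact ⟨x i, hx i (Set.mem_univ i), rfl⟩
  rw [himg, ← hmp.setLIntegral_comp_emb hemb]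
  refine lintegral_congr fun x => ?_
  beta_reduce
  rw [List.map_ofFn]
  rfl

theorem cI_translate (Λ : Set E3) (v : E3) (F : List E3 → ℝ≥0∞) :
    cI ((fun x => v + x) '' Λ) F = cI Λ (fun l => F (l.map fun x => v + x)) :=
  tsum_congr fun N => cTerm_translate Λ v F N

/-- functions of the number of particles -/
theorem cTerm_length (Λ : Set E3) (g : ℕ → ℝ≥0∞) (N : ℕ) :
    cTerm Λ (fun l => g l.length) N = ((N.factorial : ℝ≥0∞))⁻¹ * (g N * volume Λ ^ N) := by
  unfold cTerm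
  simp only [List.length_ofFn, setLIntegral_const, volume_pi_const]

/-- a factor depending only on the number of particles can be pulled out of each term -/
theorem cTerm_length_mul (Λ : Set E3) (g : ℕ → ℝ≥0∞) (F : List E3 → ℝ≥0∞) (hF : CMeas F) (N : ℕ) :
    cTerm Λ (fun l => g l.length * F l) N = g N * cTerm Λ F N := by
  unfold cTerm
  simp only [List.length_ofFn]
  rw [lintegral_const_mul (g N) (hF N), mul_left_comm]

/-- the ideal gas: `∑_N z^N |Λ|^N / N! = e^{z |Λ|}` -/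
theorem cI_pow_length (Λ : Set E3) (hΛ : volume Λ ≠ ∞) (z : ℝ) (hz : 0 ≤ z) :
    cI Λ (fun l => ENNReal.ofReal (z ^ l.length)) =
      ENNReal.ofReal (Real.exp (z * (volume Λ).toReal)) := by
  unfold cI
  have hexp : Real.exp (z * (volume Λ).toReal) =
      ∑' N : ℕ, (z * (volume Λ).toReal) ^ N / (N.factorial : ℝ) := by
    rw [Real.exp_eq_exp_ℝ, NormedSpace.exp_eq_tsum_div]
  have hV : 0 ≤ (volume Λ).toReal := ENNReal.toReal_nonneg
  rw [hexp, ENNReal.ofReal_tsum_of_nonneg (fun N => by positivity)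
    (Real.summable_pow_div_factorial _)]
  refine tsum_congr fun N => ?_
  rw [cTerm_length Λ (fun n => ENNReal.ofReal (z ^ n)) N]
  have hfac : (0 : ℝ) < (N.factorial : ℝ) := by positivity
  rw [div_eq_inv_mul, ENNReal.ofReal_mul (by positivity), ENNReal.ofReal_inv_of_pos hfac,
    ENNReal.ofReal_natCast, mul_pow, ENNReal.ofReal_mul (by positivity),
    ENNReal.ofReal_pow hV, ENNReal.ofReal_toReal hΛ]

end Vale.Agent.P171
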