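import Vale.Agent.P171.ConfigUnion

/-!
# P171: configuration integrals over finite families of disjoint regions
-/

namespace Vale.Agent.P171

open MeasureTheory Set
open scoped ENNReal

/-- the configuration integral over the empty region -/
theorem cI_empty (F : List E3 → ℝ≥0∞) : cI (∅ : Set E3) F = F [] := by
  unfold cI
  rw [tsum_eq_single 0, cTerm_zero]
  intro N hN
  obtain ⟨n, rfl⟩ := Nat.exists_eq_succ_of_ne_zero hN
  unfold cTerm
  have : (Set.univ.pi fun _ : Fin (n + 1) => (∅ : Set E3)) = ∅ :=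
    Set.univ_pi_eq_empty (i := 0) rfl
  rw [this]
  simp

theorem measurableSet_biUnion_finset {ι : Type*} (s : Finset ι) (D : ι → Set E3)
    (hD : ∀ a ∈ s, MeasurableSet (D a)) : MeasurableSet (⋃ a ∈ s, D a) :=
  Finset.measurableSet_biUnion s hD

/-- product bound over a finite family of pairwise disjoint regions, for a weight which is
submultiplicative across the regions -/
theorem cI_biUnion_le {ι : Type*} [DecidableEq ι] (s : Finset ι) (D : ι → Set E3)
    (hD : ∀ a ∈ s, MeasurableSet (D a))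
    (hdis : ∀ a ∈ s, ∀ b ∈ s, a ≠ b → Disjoint (D a) (D b))
    {F : List E3 → ℝ≥0∞} (hF : CMeas F) (hp : PermInv F) (h0 : F [] ≤ 1)
    (h : ∀ a ∈ s, ∀ l₁ l₂ : List E3, (∀ x ∈ l₁, x ∈ D a) →
      (∀ x ∈ l₂, ∃ b ∈ s, b ≠ a ∧ x ∈ D b) → F (l₁ ++ l₂) ≤ F l₁ * F l₂) :
    cI (⋃ a ∈ s, D a) F ≤ ∏ a ∈ s, cI (D a) F := by
  induction s using Finset.induction_on with
  | empty => simpa [cI_empty] using h0
  | insert a s ha ih =>
    rw [Finset.set_biUnion_insert, Finset.prod_insert ha]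
    have hDs : ∀ b ∈ s, MeasurableSet (D b) := fun b hb => hD b (Finset.mem_insert_of_mem hb)
    have hdisj : Disjoint (D a) (⋃ b ∈ s, D b) := by
      rw [Set.disjoint_iUnion₂_right]
      intro b hb
      exact hdis a (Finset.mem_insert_self a s) b (Finset.mem_insert_of_mem hb)
        (fun hab => ha (hab ▸ hb))
    refine (cI_union_le (hD a (Finset.mem_insert_self a s)) (measurableSet_biUnion_finset s D hDs)
      hdisj hF hp hF hF ?_).trans ?_
    · intro l₁ l₂ hl₁ hl₂
      refine h a (Finset.mem_insert_self a s) l₁ l₂ hl₁ fun x hx => ?_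
      obtain ⟨b, hb, hxb⟩ := Set.mem_iUnion₂.1 (hl₂ x hx)
      exact ⟨b, Finset.mem_insert_of_mem hb, fun hab => ha (hab ▸ hb), hxb⟩
    · gcongr
      refine ih hDs (fun b hb c hc => hdis b (Finset.mem_insert_of_mem hb) c
        (Finset.mem_insert_of_mem hc)) ?_
      intro b hb l₁ l₂ hl₁ hl₂
      refine h b (Finset.mem_insert_of_mem hb) l₁ l₂ hl₁ fun x hx => ?_
      obtain ⟨c, hc, hcb, hxc⟩ := hl₂ x hx
      exact ⟨c, Finset.mem_insert_of_mem hc, hcb, hxc⟩

/-- product bound from below, for a weight which is supermultiplicative across the regions -/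
theorem cI_biUnion_ge {ι : Type*} [DecidableEq ι] (s : Finset ι) (D : ι → Set E3)
    (hD : ∀ a ∈ s, MeasurableSet (D a))
    (hdis : ∀ a ∈ s, ∀ b ∈ s, a ≠ b → Disjoint (D a) (D b))
    {F : List E3 → ℝ≥0∞} (hF : CMeas F) (hp : PermInv F) (h0 : 1 ≤ F [])
    (h : ∀ a ∈ s, ∀ l₁ l₂ : List E3, (∀ x ∈ l₁, x ∈ D a) →
      (∀ x ∈ l₂, ∃ b ∈ s, b ≠ a ∧ x ∈ D b) → F l₁ * F l₂ ≤ F (l₁ ++ l₂)) :
    ∏ a ∈ s, cI (D a) F ≤ cI (⋃ a ∈ s, D a) F := by
  induction s using Finset.induction_on with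
  | empty => simpa [cI_empty] using h0
  | insert a s ha ih =>
    rw [Finset.set_biUnion_insert, Finset.prod_insert ha]
    have hDs : ∀ b ∈ s, MeasurableSet (D b) := fun b hb => hD b (Finset.mem_insert_of_mem hb)
    have hdisj : Disjoint (D a) (⋃ b ∈ s, D b) := by
      rw [Set.disjoint_iUnion₂_right]
      intro b hb
      exact hdis a (Finset.mem_insert_self a s) b (Finset.mem_insert_of_mem hb)
        (fun hab => ha (hab ▸ hb))
    refine le_trans ?_ (cI_union_ge (hD a (Finset.mem_insert_self a s))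
      (measurableSet_biUnion_finset s D hDs) hdisj hF hp hF hF ?_)
    · gcongr
      refine ih hDs (fun b hb c hc => hdis b (Finset.mem_insert_of_mem hb) c
        (Finset.mem_insert_of_mem hc)) ?_
      intro b hb l₁ l₂ hl₁ hl₂
      refine h b (Finset.mem_insert_of_mem hb) l₁ l₂ hl₁ fun x hx => ?_
      obtain ⟨c, hc, hcb, hxc⟩ := hl₂ x hx
      exact ⟨c, Finset.mem_insert_of_mem hc, hcb, hxc⟩
    · intro l₁ l₂ hl₁ hl₂
      refine h a (Finset.mem_insert_self a s) l₁ l₂ hl₁ fun x hx => ?_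
      obtain ⟨b, hb, hxb⟩ := Set.mem_iUnion₂.1 (hl₂ x hx)
      exact ⟨b, Finset.mem_insert_of_mem hb, fun hab => ha (hab ▸ hb), hxb⟩

end Vale.Agent.P171
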