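import Vale.Agent.P171.Config

/-!
# P171: factorisation of configuration integrals over two disjoint regions
-/

namespace Vale.Agent.P171

open MeasureTheory Set
open scoped ENNReal

/-- a list-valued map which is measurable of constant length -/
def LMeas {α : Type*} [MeasurableSpace α] (g : α → List E3) : Prop :=
  ∃ (n : ℕ) (h : α → Fin n → E3), Measurable h ∧ ∀ a, g a = List.ofFn (h a)

theorem LMeas.ofFn {α : Type*} [MeasurableSpace α] {n : ℕ} {h : α → Fin n → E3}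
    (hh : Measurable h) : LMeas (fun a => List.ofFn (h a)) :=
  ⟨n, h, hh, fun _ => rfl⟩

theorem LMeas.cons {α : Type*} [MeasurableSpace α] {f : α → E3} (hf : Measurable f)
    {g : α → List E3} (hg : LMeas g) : LMeas (fun a => f a :: g a) := by
  obtain ⟨n, h, hh, hgh⟩ := hg
  refine ⟨n + 1, fun a => Fin.cons (f a) (h a), ?_, fun a => ?_⟩
  · rw [measurable_pi_iff]
    intro i
    refine Fin.cases ?_ (fun j => ?_) i
    · simpa using hf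
    · simpa [Function.comp_def] using (measurable_pi_apply j).comp hh
  · simp only [List.ofFn_cons, hgh]

theorem LMeas.append {α : Type*} [MeasurableSpace α] {g₁ g₂ : α → List E3} (h₁ : LMeas g₁)
    (h₂ : LMeas g₂) : LMeas (fun a => g₁ a ++ g₂ a) := by
  obtain ⟨n₁, f₁, hf₁, hg₁⟩ := h₁
  obtain ⟨n₂, f₂, hf₂, hg₂⟩ := h₂
  refine ⟨n₁ + n₂, fun a => Fin.append (f₁ a) (f₂ a), ?_, fun a => ?_⟩
  · rw [measurable_pi_iff]
    intro i
    refine Fin.addCases (fun j => ?_) (fun j => ?_) i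
    · simpa [Function.comp_def] using (measurable_pi_apply j).comp hf₁
    · simpa [Function.comp_def] using (measurable_pi_apply j).comp hf₂
  · simp only [List.ofFn_fin_append, hg₁, hg₂]

theorem LMeas.const {α : Type*} [MeasurableSpace α] (l : List E3) : LMeas (fun _ : α => l) :=
  ⟨l.length, fun _ => l.get, measurable_const, fun _ => (List.ofFn_get l).symm⟩

theorem CMeas.comp {α : Type*} [MeasurableSpace α] {F : List E3 → ℝ≥0∞} (hF : CMeas F)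
    {g : α → List E3} (hg : LMeas g) : Measurable (fun a => F (g a)) := by
  obtain ⟨n, h, hh, hgh⟩ := hg
  simp_rw [hgh]
  exact (hF n).comp hh

/-- the product measure `μ^n` -/
noncomputable abbrev PM (μ : Measure E3) (n : ℕ) : Measure (Fin n → E3) :=
  Measure.pi fun _ : Fin n => μ

theorem lintegral_PM_zero (μ : Measure E3) [SigmaFinite μ] (G : List E3 → ℝ≥0∞) :
    ∫⁻ x, G (List.ofFn x) ∂PM μ 0 = G [] := by
  simp [PM]

theorem lintegral_PM_succ (μ : Measure E3) [SigmaFinite μ] {G : List E3 → ℝ≥0∞} (hG : CMeas G)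
    (n : ℕ) :
    ∫⁻ x, G (List.ofFn x) ∂PM μ (n + 1) = ∫⁻ a, ∫⁻ x, G (a :: List.ofFn x) ∂PM μ n ∂μ := by
  have hmp := measurePreserving_piFinSuccAbove (fun _ : Fin (n + 1) => μ) 0
  have hm : Measurable (fun p : E3 × (Fin n → E3) => G (p.1 :: List.ofFn p.2)) :=
    hG.comp (LMeas.cons measurable_fst (LMeas.ofFn measurable_snd))
  rw [← lintegral_prod _ hm.aemeasurable]
  rw [← hmp.lintegral_comp hm]
  refine lintegral_congr fun x => ?_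
  rw [List.ofFn_succ]
  rfl

/-- the mixed integral for general measures -/
noncomputable def mixM (μ₁ μ₂ : Measure E3) (F : List E3 → ℝ≥0∞) (k j : ℕ) : ℝ≥0∞ :=
  ∫⁻ x, ∫⁻ y, F (List.ofFn x ++ List.ofFn y) ∂PM μ₂ j ∂PM μ₁ k

theorem CMeas.cons {F : List E3 → ℝ≥0∞} (hF : CMeas F) (a : E3) : CMeas (fun l => F (a :: l)) :=
  fun _ => hF.comp (LMeas.cons measurable_const (LMeas.ofFn measurable_id))

theorem PermInv.cons {F : List E3 → ℝ≥0∞} (hp : PermInv F) (a : E3) :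
    PermInv (fun l => F (a :: l)) :=
  fun _ _ h => hp _ _ (h.cons a)

theorem mixM_succ_left (μ₁ μ₂ : Measure E3) [SigmaFinite μ₁] [SigmaFinite μ₂]
    {F : List E3 → ℝ≥0∞} (hF : CMeas F) (k j : ℕ) :
    mixM μ₁ μ₂ F (k + 1) j = ∫⁻ a, mixM μ₁ μ₂ (fun l => F (a :: l)) k j ∂μ₁ := by
  unfold mixM
  have hG : CMeas (fun l => ∫⁻ y, F (l ++ List.ofFn y) ∂PM μ₂ j) := by
    intro n
    have : Measurable (fun p : (Fin n → E3) × (Fin j → E3) =>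
        F (List.ofFn p.1 ++ List.ofFn p.2)) :=
      hF.comp (LMeas.append (LMeas.ofFn measurable_fst) (LMeas.ofFn measurable_snd))
    exact this.lintegral_prod_right'
  rw [lintegral_PM_succ μ₁ hG k]
  rfl

theorem mixM_succ_right (μ₁ μ₂ : Measure E3) [SigmaFinite μ₁] [SigmaFinite μ₂]
    {F : List E3 → ℝ≥0∞} (hF : CMeas F) (hp : PermInv F) (k j : ℕ) :
    mixM μ₁ μ₂ F k (j + 1) = ∫⁻ a, mixM μ₁ μ₂ (fun l => F (a :: l)) k j ∂μ₂ := by
  unfold mixM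
  have h1 : ∀ x : Fin k → E3, ∫⁻ y, F (List.ofFn x ++ List.ofFn y) ∂PM μ₂ (j + 1) =
      ∫⁻ a, ∫⁻ y, F (a :: (List.ofFn x ++ List.ofFn y)) ∂PM μ₂ j ∂μ₂ := by
    intro x
    have hG : CMeas (fun l => F (List.ofFn x ++ l)) :=
      fun _ => hF.comp (LMeas.append (LMeas.const _) (LMeas.ofFn measurable_id))
    rw [lintegral_PM_succ μ₂ hG j]
    refine lintegral_congr fun a => lintegral_congr fun y => ?_
    exact hp _ _ List.perm_middle
  simp_rw [h1]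
  rw [lintegral_lintegral_swap]
  have : Measurable (fun p : ((Fin k → E3) × E3) × (Fin j → E3) =>
      F (p.1.2 :: (List.ofFn p.1.1 ++ List.ofFn p.2))) :=
    hF.comp (LMeas.cons (measurable_snd.comp measurable_fst)
      (LMeas.append (LMeas.ofFn (measurable_fst.comp measurable_fst)) (LMeas.ofFn measurable_snd)))
  exact this.lintegral_prod_right'.aemeasurable

theorem lintegral_PM_add (μ₁ μ₂ : Measure E3) [SigmaFinite μ₁] [SigmaFinite μ₂] (N : ℕ) :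
    ∀ {F : List E3 → ℝ≥0∞}, CMeas F → PermInv F →
    ∫⁻ x, F (List.ofFn x) ∂PM (μ₁ + μ₂) N =
      ∑ k ∈ Finset.range (N + 1), (N.choose k : ℝ≥0∞) * mixM μ₁ μ₂ F k (N - k) := by
  induction N with
  | zero =>
    intro F _ _
    simp [mixM, PM]
  | succ n ih =>
    intro F hF hp
    rw [lintegral_PM_succ _ hF, Finset.sum_choose_succ_mul, lintegral_add_measure, add_comm]
    have hmeas : ∀ (k j : ℕ), Measurable (fun a => mixM μ₁ μ₂ (fun l => F (a :: l)) k j) := by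
      intro k j
      unfold mixM
      have : Measurable (fun p : (E3 × (Fin k → E3)) × (Fin j → E3) =>
          F (p.1.1 :: (List.ofFn p.1.2 ++ List.ofFn p.2))) :=
        hF.comp (LMeas.cons (measurable_fst.comp measurable_fst)
          (LMeas.append (LMeas.ofFn (measurable_snd.comp measurable_fst))
            (LMeas.ofFn measurable_snd)))
      exact this.lintegral_prod_right'.lintegral_prod_right'
    congr 1
    · simp_rw [ih (hF.cons _) (hp.cons _)]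
      rw [lintegral_finsetSum _ (fun k _ => (hmeas k _).const_mul _)]
      refine Finset.sum_congr rfl fun k hk => ?_
      rw [lintegral_const_mul _ (hmeas k _)]
      have : n + 1 - k = (n - k) + 1 := by
        have := Finset.mem_range.1 hk
        omega
      rw [this, mixM_succ_right μ₁ μ₂ hF hp]
    · simp_rw [ih (hF.cons _) (hp.cons _)]
      rw [lintegral_finsetSum _ (fun k _ => (hmeas k _).const_mul _)]
      refine Finset.sum_congr rfl fun k _ => ?_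
      rw [lintegral_const_mul _ (hmeas k _), mixM_succ_left μ₁ μ₂ hF]

theorem tsum_tsum_eq_tsum_range (g : ℕ → ℕ → ℝ≥0∞) :
    ∑' k, ∑' j, g k j = ∑' N, ∑ k ∈ Finset.range (N + 1), g k (N - k) := by
  rw [← ENNReal.tsum_prod, ← Finset.HasAntidiagonal.sigmaAntidiagonalEquivProd.tsum_eq,
    ENNReal.tsum_sigma']
  refine tsum_congr fun N => ?_
  rw [tsum_fintype]
  rw [← Finset.Nat.sum_antidiagonal_eq_sum_range_succ (fun k j => g k j) N]
  exact Finset.sum_coe_sort (Finset.HasAntidiagonal.antidiagonal N) (fun ij => g ij.1 ij.2)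

theorem inv_fact_mul_choose (N k : ℕ) (hk : k ≤ N) :
    ((N.factorial : ℝ≥0∞))⁻¹ * (N.choose k : ℝ≥0∞) =
      ((k.factorial : ℝ≥0∞))⁻¹ * (((N - k).factorial : ℝ≥0∞))⁻¹ := by
  have h := Nat.choose_mul_factorial_mul_factorial hk
  have h' : (N.choose k : ℝ≥0∞) * k.factorial * (N - k).factorial = N.factorial := by
    exact_mod_cast h
  have hk0 : (k.factorial : ℝ≥0∞) ≠ 0 := by exact_mod_cast k.factorial_ne_zero
  have hkt : (k.factorial : ℝ≥0∞) ≠ ∞ := ENNReal.natCast_ne_top _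
  have hc0 : (N.choose k : ℝ≥0∞) ≠ 0 := by exact_mod_cast (Nat.choose_pos hk).ne'
  have hct : (N.choose k : ℝ≥0∞) ≠ ∞ := ENNReal.natCast_ne_top _
  rw [← h', ENNReal.mul_inv (Or.inl (mul_ne_zero hc0 hk0)) (Or.inl (ENNReal.mul_ne_top hct hkt)),
    ENNReal.mul_inv (Or.inl hc0) (Or.inl hct)]
  calc ((N.choose k : ℝ≥0∞))⁻¹ * (k.factorial : ℝ≥0∞)⁻¹ * ((N - k).factorial : ℝ≥0∞)⁻¹ *
        (N.choose k : ℝ≥0∞)
      = (((N.choose k : ℝ≥0∞))⁻¹ * (N.choose k : ℝ≥0∞)) *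
          ((k.factorial : ℝ≥0∞)⁻¹ * ((N - k).factorial : ℝ≥0∞)⁻¹) := by ring
    _ = _ := by rw [ENNReal.inv_mul_cancel hc0 hct, one_mul]

theorem setLIntegral_pi_eq (Λ : Set E3) (N : ℕ) (f : (Fin N → E3) → ℝ≥0∞) :
    ∫⁻ x in (Set.univ.pi fun _ : Fin N => Λ), f x = ∫⁻ x, f x ∂PM (volume.restrict Λ) N := by
  rw [volume_pi, Measure.restrict_pi_pi]

/-- the mixed term: `k` particles in `Λ₁` and `j` particles in `Λ₂` -/
noncomputable def mixTerm (Λ₁ Λ₂ : Set E3) (F : List E3 → ℝ≥0∞) (k j : ℕ) : ℝ≥0∞ :=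
  ∫⁻ x in (Set.univ.pi fun _ : Fin k => Λ₁), ∫⁻ y in (Set.univ.pi fun _ : Fin j => Λ₂),
    F (List.ofFn x ++ List.ofFn y)

theorem mixTerm_eq_mixM (Λ₁ Λ₂ : Set E3) (F : List E3 → ℝ≥0∞) (k j : ℕ) :
    mixTerm Λ₁ Λ₂ F k j = mixM (volume.restrict Λ₁) (volume.restrict Λ₂) F k j := by
  unfold mixTerm mixM
  rw [setLIntegral_pi_eq]
  simp_rw [setLIntegral_pi_eq]

/-- binomial formula for the integral of a symmetric function over `(Λ₁ ∪ Λ₂)^N` -/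
theorem lintegral_union_pow {Λ₁ Λ₂ : Set E3} (h₁ : MeasurableSet Λ₁) (h₂ : MeasurableSet Λ₂)
    (hd : Disjoint Λ₁ Λ₂) {F : List E3 → ℝ≥0∞} (hF : CMeas F) (hp : PermInv F) (N : ℕ) :
    ∫⁻ x in (Set.univ.pi fun _ : Fin N => Λ₁ ∪ Λ₂), F (List.ofFn x) =
      ∑ k ∈ Finset.range (N + 1), (N.choose k : ℝ≥0∞) * mixTerm Λ₁ Λ₂ F k (N - k) := by
  rw [setLIntegral_pi_eq, Measure.restrict_union hd h₂, lintegral_PM_add _ _ N hF hp]
  simp_rw [mixTerm_eq_mixM]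

/-- factorisation of the configuration integral -/
theorem cI_union {Λ₁ Λ₂ : Set E3} (h₁ : MeasurableSet Λ₁) (h₂ : MeasurableSet Λ₂)
    (hd : Disjoint Λ₁ Λ₂) {F : List E3 → ℝ≥0∞} (hF : CMeas F) (hp : PermInv F) :
    cI (Λ₁ ∪ Λ₂) F = cI Λ₁ (fun l₁ => cI Λ₂ (fun l₂ => F (l₁ ++ l₂))) := by
  have hR : ∀ k : ℕ, cTerm Λ₁ (fun l₁ => cI Λ₂ (fun l₂ => F (l₁ ++ l₂))) k =
      ∑' j : ℕ, ((k.factorial : ℝ≥0∞))⁻¹ * ((j.factorial : ℝ≥0∞))⁻¹ * mixTerm Λ₁ Λ₂ F k j := by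
    intro k
    unfold cTerm cI cTerm mixTerm
    have hm : ∀ j : ℕ, Measurable (fun x : Fin k → E3 =>
        ∫⁻ y in (Set.univ.pi fun _ : Fin j => Λ₂), F (List.ofFn x ++ List.ofFn y)) := by
      intro j
      have : Measurable (fun p : (Fin k → E3) × (Fin j → E3) =>
          F (List.ofFn p.1 ++ List.ofFn p.2)) :=
        hF.comp (LMeas.append (LMeas.ofFn measurable_fst) (LMeas.ofFn measurable_snd))
      exact this.lintegral_prod_right'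
    rw [lintegral_tsum (fun j => ((hm j).const_mul _).aemeasurable), ← ENNReal.tsum_mul_left]
    refine tsum_congr fun j => ?_
    rw [lintegral_const_mul _ (hm j), mul_assoc]
  have hL : ∀ N : ℕ, cTerm (Λ₁ ∪ Λ₂) F N = ∑ k ∈ Finset.range (N + 1),
      ((k.factorial : ℝ≥0∞))⁻¹ * (((N - k).factorial : ℝ≥0∞))⁻¹ * mixTerm Λ₁ Λ₂ F k (N - k) := by
    intro N
    unfold cTerm
    rw [lintegral_union_pow h₁ h₂ hd hF hp, Finset.mul_sum]
    refine Finset.sum_congr rfl fun k hk => ?_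
    rw [← mul_assoc, inv_fact_mul_choose N k (Nat.lt_succ_iff.1 (Finset.mem_range.1 hk))]
  calc cI (Λ₁ ∪ Λ₂) F = ∑' N : ℕ, cTerm (Λ₁ ∪ Λ₂) F N := rfl
    _ = ∑' N : ℕ, ∑ k ∈ Finset.range (N + 1),
        ((k.factorial : ℝ≥0∞))⁻¹ * (((N - k).factorial : ℝ≥0∞))⁻¹ * mixTerm Λ₁ Λ₂ F k (N - k) :=
      tsum_congr hL
    _ = ∑' k : ℕ, ∑' j : ℕ,
        ((k.factorial : ℝ≥0∞))⁻¹ * ((j.factorial : ℝ≥0∞))⁻¹ * mixTerm Λ₁ Λ₂ F k j :=
      (tsum_tsum_eq_tsum_range fun k j =>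
        ((k.factorial : ℝ≥0∞))⁻¹ * ((j.factorial : ℝ≥0∞))⁻¹ * mixTerm Λ₁ Λ₂ F k j).symm
    _ = ∑' k : ℕ, cTerm Λ₁ (fun l₁ => cI Λ₂ (fun l₂ => F (l₁ ++ l₂))) k :=
      tsum_congr fun k => (hR k).symm
    _ = cI Λ₁ (fun l₁ => cI Λ₂ (fun l₂ => F (l₁ ++ l₂))) := rfl

theorem cI_union_le {Λ₁ Λ₂ : Set E3} (h₁ : MeasurableSet Λ₁) (h₂ : MeasurableSet Λ₂)
    (hd : Disjoint Λ₁ Λ₂) {F G₁ G₂ : List E3 → ℝ≥0∞} (hF : CMeas F) (hp : PermInv F)
    (hG₁ : CMeas G₁) (hG₂ : CMeas G₂)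
    (h : ∀ l₁ l₂ : List E3, (∀ x ∈ l₁, x ∈ Λ₁) → (∀ x ∈ l₂, x ∈ Λ₂) →
      F (l₁ ++ l₂) ≤ G₁ l₁ * G₂ l₂) :
    cI (Λ₁ ∪ Λ₂) F ≤ cI Λ₁ G₁ * cI Λ₂ G₂ := by
  rw [cI_union h₁ h₂ hd hF hp]
  calc cI Λ₁ (fun l₁ => cI Λ₂ (fun l₂ => F (l₁ ++ l₂)))
      ≤ cI Λ₁ (fun l₁ => G₁ l₁ * cI Λ₂ G₂) := by
        apply cI_mono h₁
        intro l₁ hl₁
        rw [← cI_const_mul Λ₂ hG₂]
        exact cI_mono h₂ fun l₂ hl₂ => h l₁ l₂ hl₁ hl₂
    _ = cI Λ₁ G₁ * cI Λ₂ G₂ := cI_mul_const Λ₁ hG₁ _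

theorem cI_union_ge {Λ₁ Λ₂ : Set E3} (h₁ : MeasurableSet Λ₁) (h₂ : MeasurableSet Λ₂)
    (hd : Disjoint Λ₁ Λ₂) {F G₁ G₂ : List E3 → ℝ≥0∞} (hF : CMeas F) (hp : PermInv F)
    (hG₁ : CMeas G₁) (hG₂ : CMeas G₂)
    (h : ∀ l₁ l₂ : List E3, (∀ x ∈ l₁, x ∈ Λ₁) → (∀ x ∈ l₂, x ∈ Λ₂) →
      G₁ l₁ * G₂ l₂ ≤ F (l₁ ++ l₂)) :
    cI Λ₁ G₁ * cI Λ₂ G₂ ≤ cI (Λ₁ ∪ Λ₂) F := by
  rw [cI_union h₁ h₂ hd hF hp]
  calc cI Λ₁ G₁ * cI Λ₂ G₂ = cI Λ₁ (fun l₁ => G₁ l₁ * cI Λ₂ G₂) := (cI_mul_const Λ₁ hG₁ _).symm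
    _ ≤ cI Λ₁ (fun l₁ => cI Λ₂ (fun l₂ => F (l₁ ++ l₂))) := by
        apply cI_mono h₁
        intro l₁ hl₁
        rw [← cI_const_mul Λ₂ hG₂]
        exact cI_mono h₂ fun l₂ hl₂ => h l₁ l₂ hl₁ hl₂

end Vale.Agent.P171
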