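import Mathlib

/-!
# P171: statement-level definitions

Classical particles in `ℝ^3` interacting through a radial pair potential `φ`.
-/

namespace Vale.Agent.P171

open MeasureTheory Set Filter Topology

/-- Euclidean three-space. -/
abbrev E3 : Type := EuclideanSpace ℝ (Fin 3)

/-- The energy `U_N(x_1,…,x_N) = ∑_{i<j} φ(|x_i - x_j|)`. -/
noncomputable def energy (φ : ℝ → ℝ) {N : ℕ} (x : Fin N → E3) : ℝ :=
  ∑ i : Fin N, ∑ j : Fin N, if i < j then φ (dist (x i) (x j)) else 0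

/-- Stability: `U_N ≥ - B N` for all configurations of distinct points. -/
def Stable (φ : ℝ → ℝ) : Prop :=
  ∃ B : ℝ, ∀ (N : ℕ) (x : Fin N → E3), Function.Injective x → -(B * N) ≤ energy φ x

/-- Temperedness: `φ(r) ≤ C r^{-3-ε}` for `r ≥ R₀`. -/
def Tempered (φ : ℝ → ℝ) : Prop :=
  ∃ C ε R₀ : ℝ, 0 < C ∧ 0 < ε ∧ 0 < R₀ ∧ ∀ r : ℝ, R₀ ≤ r → φ r ≤ C * r ^ (-(3 : ℝ) - ε)

/-- `φ` is bounded on every compact subinterval of `(0,∞)`. -/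
def LocallyBoundedOnPos (φ : ℝ → ℝ) : Prop :=
  ∀ a b : ℝ, 0 < a → a ≤ b → ∃ M : ℝ, ∀ r ∈ Icc a b, |φ r| ≤ M

/-- The cube `Λ_L = [0,L]^3`. -/
def box (L : ℝ) : Set E3 := {x | ∀ i, x i ∈ Icc (0 : ℝ) L}

/-- The configurations of `N` particles in `Λ_L`. -/
def boxN (L : ℝ) (N : ℕ) : Set (Fin N → E3) := {x | ∀ i, x i ∈ box L}

/-- The canonical partition function `Z_{L,N}(β) = (1/N!) ∫_{Λ_L^N} e^{-β U_N}`. -/
noncomputable def Zcan (φ : ℝ → ℝ) (β L : ℝ) (N : ℕ) : ℝ :=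
  (1 / (N.factorial : ℝ)) * ∫ x in boxN L N, Real.exp (-(β * energy φ x))

/-- The grand canonical partition function `∑_N z^N Z_{L,N}(β)`. -/
noncomputable def grand (φ : ℝ → ℝ) (β L z : ℝ) : ℝ := ∑' N : ℕ, z ^ N * Zcan φ β L N

/-- `Pi` is the function `z ↦ Π(β,z) = lim_{L→∞} L^{-3} log ∑_N z^N Z_{L,N}(β)` on `z > 0`. -/
def IsPressure (φ : ℝ → ℝ) (β : ℝ) (Pi : ℝ → ℝ) : Prop :=
  ∀ z : ℝ, 0 < z → Tendsto (fun L : ℝ => Real.log (grand φ β L z) / L ^ 3) atTop (𝓝 (Pi z))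

end Vale.Agent.P171
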