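import Mathlib

/-!
# P171: the variational principle of Ekeland
-/

namespace Vale.Agent.P171

open Filter Topology

/-- **Ekeland's variational principle** (weak form). -/
theorem ekeland {α : Type*} [MetricSpace α] [CompleteSpace α] {F : α → ℝ}
    (hF : LowerSemicontinuous F) {m : ℝ} (hm : ∀ x, m ≤ F x) {ε : ℝ} (hε : 0 < ε) (x₀ : α) :
    ∃ x, F x + ε * dist x₀ x ≤ F x₀ ∧ ∀ y, F x ≤ F y + ε * dist x y := by
  classical
  obtain ⟨S, hS⟩ : ∃ S : α → Set α, ∀ x y, y ∈ S x ↔ F y + ε * dist x y ≤ F x :=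
    ⟨fun x => {y | F y + ε * dist x y ≤ F x}, fun _ _ => Iff.rfl⟩
  have hrefl : ∀ x, x ∈ S x := fun x => by rw [hS]; simp
  have htrans : ∀ x y z, y ∈ S x → z ∈ S y → z ∈ S x := by
    intro x y z hy hz
    rw [hS] at hy hz ⊢
    have h1 := dist_triangle x y z
    have h2 : ε * dist x z ≤ ε * (dist x y + dist y z) := mul_le_mul_of_nonneg_left h1 hε.le
    linarith
  have hle : ∀ x y, y ∈ S x → F y ≤ F x := by
    intro x y hy
    rw [hS] at hy
    have : 0 ≤ ε * dist x y := by positivity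
    linarith
  have hnext : ∀ (n : ℕ) (x : α), ∃ y ∈ S x, ∀ z ∈ S x, F y ≤ F z + (1 / 2 : ℝ) ^ n := by
    intro n x
    have hne : (F '' S x).Nonempty := ⟨F x, x, hrefl x, rfl⟩
    have hbdd : BddBelow (F '' S x) := ⟨m, by rintro _ ⟨y, -, rfl⟩; exact hm y⟩
    have hlt : sInf (F '' S x) < sInf (F '' S x) + (1 / 2 : ℝ) ^ n := by
      have : (0 : ℝ) < (1 / 2) ^ n := by positivity
      linarith
    obtain ⟨_, ⟨y, hy, rfl⟩, hylt⟩ := exists_lt_of_csInf_lt hne hlt
    refine ⟨y, hy, fun z hz => ?_⟩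
    have := csInf_le hbdd ⟨z, hz, rfl⟩
    linarith
  choose next hnext1 hnext2 using hnext
  obtain ⟨x, hx0, hxs⟩ : ∃ x : ℕ → α, x 0 = x₀ ∧ ∀ n, x (n + 1) = next n (x n) :=
    ⟨fun n => Nat.rec x₀ (fun k xk => next k xk) n, rfl, fun _ => rfl⟩
  have hstep : ∀ n, x (n + 1) ∈ S (x n) := fun n => by rw [hxs]; exact hnext1 n (x n)
  have hmono : ∀ n k, n ≤ k → x k ∈ S (x n) := by
    intro n k hnk
    induction k, hnk using Nat.le_induction with
    | base => exact hrefl _
    | succ k _ ih => exact htrans _ _ _ ih (hstep k)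
  have hanti : Antitone (fun n => F (x n)) := fun n k hnk => hle _ _ (hmono n k hnk)
  have hbdd : BddBelow (Set.range (fun n => F (x n))) := ⟨m, by rintro _ ⟨n, rfl⟩; exact hm _⟩
  have hlim := tendsto_atTop_ciInf hanti hbdd
  obtain ⟨l, hl⟩ : ∃ l, l = ⨅ n, F (x n) := ⟨_, rfl⟩
  rw [← hl] at hlim
  have hlle : ∀ n, l ≤ F (x n) := fun n => by rw [hl]; exact ciInf_le hbdd n
  have hdist : ∀ N n, N ≤ n → dist (x N) (x n) ≤ (F (x N) - l) / ε := by
    intro N n hNn
    have h1 := hmono N n hNn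
    rw [hS] at h1
    rw [le_div_iff₀ hε]
    have := hlle n
    linarith
  have hcauchy : CauchySeq x := by
    apply cauchySeq_of_le_tendsto_0 (fun N => 2 * (F (x N) - l) / ε)
    · intro n k N hn hk
      have h1 := hdist N n hn
      have h2 := hdist N k hk
      have h3 := dist_triangle_left (x n) (x k) (x N)
      have e : 2 * (F (x N) - l) / ε = (F (x N) - l) / ε + (F (x N) - l) / ε := by ring
      rw [e]
      linarith
    · have h1 := ((hlim.sub_const l).const_mul 2).div_const ε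
      simpa using h1
  obtain ⟨xs, hxs_lim⟩ := cauchySeq_tendsto_of_complete hcauchy
  have hmem : ∀ n, xs ∈ S (x n) := by
    intro n
    rw [hS]
    by_contra hcon
    push Not at hcon
    have hG : LowerSemicontinuous (fun y => F y + ε * dist (x n) y) :=
      hF.add (continuous_const.mul (continuous_const.dist continuous_id)).lowerSemicontinuous
    have hev := hG xs _ hcon
    have hev2 := hxs_lim.eventually hev
    obtain ⟨k, hk1, hk2⟩ := (hev2.and (eventually_ge_atTop n)).exists
    have h1 := hmono n k hk2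
    rw [hS] at h1
    linarith
  refine ⟨xs, ?_, fun y => ?_⟩
  · have := hmem 0
    rwa [hS, hx0] at this
  · by_contra hcon
    push Not at hcon
    have hy : y ∈ S xs := by rw [hS]; exact hcon.le
    have hall : ∀ n : ℕ, F xs ≤ F y + (1 / 2 : ℝ) ^ n := by
      intro n
      have h1 : y ∈ S (x n) := htrans _ _ _ (hmem n) hy
      have h2 := hnext2 n (x n) y h1
      rw [← hxs] at h2
      have h3 := hle _ _ (hmem (n + 1))
      linarith
    have hlim2 : Tendsto (fun n : ℕ => F y + (1 / 2 : ℝ) ^ n) atTop (𝓝 (F y + 0)) :=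
      tendsto_const_nhds.add (tendsto_pow_atTop_nhds_zero_of_lt_one (by norm_num) (by norm_num))
    have h4 : F xs ≤ F y + 0 := ge_of_tendsto' hlim2 hall
    have h5 : 0 ≤ ε * dist xs y := by positivity
    linarith

end Vale.Agent.P171
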