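import Vale.Agent.P171.Pointwise
import Vale.Agent.P171.Pressure

/-!
# P171: the family `phiC c` consists of good potentials; first bounds on the pressure
-/

namespace Vale.Agent.P171

open MeasureTheory Set Filter Topology
open scoped ENNReal

theorem good_phiC {c : ℕ → ℝ} (hc : Adm c) : Good (phiC c) cmax :=
  ⟨measurable_phiC hc, stable_phiC hc, fun _ hr => phiC_nonpos hc hr⟩

/-- monotonicity in the strengths -/
theorem press_phiC_mono {c d : ℕ → ℝ} (hc : Adm c) (hd : Adm d) (h : ∀ k, c k ≤ d k) (μ : ℝ) :
    press (phiC c) μ ≤ press (phiC d) μ := by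
  apply press_anti (good_phiC hd) (good_phiC hc)
  intro r
  unfold phiC
  linarith [vpot_mono hc hd h r]

/-- the purely repulsive potential: ideal gas bound -/
theorem press_zero_le (μ : ℝ) : press (phiC fun _ => 0) μ ≤ Real.exp μ := by
  have hnn : ∀ r : ℝ, 0 ≤ phiC (fun _ => 0) r := by
    intro r
    unfold phiC vpot
    simp only [zero_mul, tsum_zero, sub_zero]
    split_ifs
    · norm_num [Acore]
    · exact le_rfl
  have hg : Good (phiC fun _ => 0) 0 := by
    refine ⟨measurable_phiC Adm.zero, fun l => ?_, fun _ hr => phiC_nonpos Adm.zero hr⟩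
    have := pairSum_nonneg (ψ := fun x y => phiC (fun _ => 0) (dist x y)) (l := l)
      (fun x _ y _ => hnn (dist x y))
    simpa using this
  simpa using press_le_exp hg μ

end Vale.Agent.P171
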