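import Vale.Agent.P171.Main
import Vale.Agent.P171.Bridge

/-!
# P171: the final statement
-/

namespace Vale.Agent.P171

open MeasureTheory Set Filter Topology

/-- There is a Borel, locally bounded, stable and tempered radial pair potential on `ℝ^3` for which
(at `β = 1`) all the partition functions are given by convergent integrals and series, the limit
defining `Π(β,z)` exists for every `z > 0`, and `z ↦ Π(β,z)` is not differentiable at some point. -/
theorem final : ∃ φ : ℝ → ℝ, Measurable φ ∧ LocallyBoundedOnPos φ ∧ Stable φ ∧ Tempered φ ∧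
    (∀ L z : ℝ, 0 < L → 0 < z →
      (∀ N : ℕ, IntegrableOn (fun x : Fin N → E3 => Real.exp (-(1 * energy φ x))) (boxN L N)) ∧
      Summable fun N : ℕ => z ^ N * Zcan φ 1 L N) ∧
    ∃ Pi : ℝ → ℝ, IsPressure φ 1 Pi ∧ ∃ z : ℝ, 0 < z ∧ ¬ DifferentiableAt ℝ Pi z := by
  obtain ⟨c, μ, hc, hnd⟩ := exists_not_differentiable
  have hg := good_phiC hc
  refine ⟨phiC c, hg.meas, locallyBounded_phiC hc, stable_of_good hg, tempered_of_good hg, ?_,
    fun z => press (phiC c) (Real.log z), isPressure_of_good hg, Real.exp μ, Real.exp_pos μ,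
    not_differentiableAt_exp hnd⟩
  intro L z _ hz
  exact ⟨fun N => integrableOn_boltzmann hg L N, summable_grand hg L hz⟩

end Vale.Agent.P171
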