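import Vale.Agent.P171.GeomDefs

/-!
# P171: volumes, measurability, cells
-/

namespace Vale.Agent.P171

open MeasureTheory Set
open scoped ENNReal

theorem gamma_five_half : Real.Gamma (((Fintype.card (Fin 3) : ℕ) : ℝ) / 2 + 1)
    = 3 / 4 * Real.sqrt Real.pi := by
  have e : (((Fintype.card (Fin 3) : ℕ) : ℝ) / 2 + 1) = (1 / 2 + 1) + 1 := by
    simp only [Fintype.card_fin]
    norm_num
  rw [e, Real.Gamma_add_one (by norm_num), Real.Gamma_add_one (by norm_num),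
    Real.Gamma_one_half_eq]
  ring

theorem volume_closedBall_E3 (x : E3) {r : ℝ} (hr : 0 ≤ r) :
    volume (Metric.closedBall x r) = ENNReal.ofReal (omega * r ^ 3) := by
  rw [EuclideanSpace.volume_closedBall, gamma_five_half, ← ENNReal.ofReal_pow hr,
    ← ENNReal.ofReal_mul (by positivity)]
  congr 1
  have hpi : 0 < Real.sqrt Real.pi := Real.sqrt_pos.2 Real.pi_pos
  have hsq : Real.sqrt Real.pi ^ 2 = Real.pi := Real.sq_sqrt Real.pi_pos.le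
  simp only [Fintype.card_fin]
  unfold omega
  have h3 : Real.sqrt Real.pi ^ 3 = Real.pi * Real.sqrt Real.pi := by
    calc Real.sqrt Real.pi ^ 3 = Real.sqrt Real.pi ^ 2 * Real.sqrt Real.pi := by ring
      _ = Real.pi * Real.sqrt Real.pi := by rw [hsq]
  rw [h3]
  field_simp

theorem measurable_coord (i : Fin 3) : Measurable (fun x : E3 => x i) :=
  (EuclideanSpace.proj (𝕜 := ℝ) i).continuous.measurable

theorem measurableSet_coordBox (c d : Fin 3 → ℝ) :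
    MeasurableSet {x : E3 | ∀ i, x i ∈ Icc (c i) (d i)} := by
  have : {x : E3 | ∀ i, x i ∈ Icc (c i) (d i)}
      = ⋂ i, (fun x : E3 => x i) ⁻¹' Icc (c i) (d i) := by
    ext x
    simp only [mem_iInter, mem_preimage]
    rfl
  rw [this]
  exact MeasurableSet.iInter fun i => measurable_coord i measurableSet_Icc

theorem measurableSet_box (L : ℝ) : MeasurableSet (box L) :=
  measurableSet_coordBox (fun _ => 0) (fun _ => L)

theorem volume_box {L : ℝ} (hL : 0 ≤ L) : volume (box L) = ENNReal.ofReal (L ^ 3) := by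
  have hset : box L
      = (WithLp.ofLp : E3 → (Fin 3 → ℝ)) ⁻¹' (Set.pi univ fun _ => Icc (0 : ℝ) L) := by
    ext x
    simp only [mem_preimage, Set.mem_pi, mem_univ, true_imp_iff]
    rfl
  rw [hset, (PiLp.volume_preserving_ofLp (Fin 3)).measure_preimage
    (MeasurableSet.univ_pi fun i => measurableSet_Icc).nullMeasurableSet, volume_pi_pi]
  simp only [Real.volume_Icc, sub_zero, Finset.prod_const, Finset.card_univ, Fintype.card_fin]
  rw [ENNReal.ofReal_pow hL]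

theorem mem_tbox_iff (ℓ p s : ℝ) (a : Fin 3 → ℤ) (x : E3) :
    x ∈ tbox ℓ p s a ↔ ∀ i, x i ∈ Icc (p + s * (a i : ℝ)) (p + s * (a i : ℝ) + ℓ) := by
  unfold tbox
  constructor
  · rintro ⟨y, hy, rfl⟩ i
    have h := hy i
    rw [mem_Icc] at h ⊢
    rw [PiLp.add_apply, latVec_apply]
    constructor <;> linarith [h.1, h.2]
  · intro h
    refine ⟨x - latVec p s a, ?_, by simp⟩
    intro i
    have hi := h i
    rw [mem_Icc] at hi ⊢
    rw [PiLp.sub_apply, latVec_apply]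
    constructor <;> linarith [hi.1, hi.2]

theorem measurableSet_tbox (ℓ p s : ℝ) (a : Fin 3 → ℤ) : MeasurableSet (tbox ℓ p s a) := by
  have : tbox ℓ p s a
      = {x : E3 | ∀ i, x i ∈ Icc (p + s * (a i : ℝ)) (p + s * (a i : ℝ) + ℓ)} := by
    ext x
    exact mem_tbox_iff ℓ p s a x
  rw [this]
  exact measurableSet_coordBox _ _

theorem measurable_cellIdx (ℓ p : ℝ) : Measurable (cellIdx ℓ p) := by
  unfold cellIdx
  rw [measurable_pi_iff]
  intro i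
  exact Int.measurable_floor.comp (((measurable_coord i).sub_const p).div_const ℓ)

theorem measurableSet_cellSet (ℓ p : ℝ) (a : Fin 3 → ℤ) : MeasurableSet (cellSet ℓ p a) :=
  measurable_cellIdx ℓ p (measurableSet_singleton a)

theorem cellSet_subset_tbox {ℓ : ℝ} (hℓ : 0 < ℓ) (p : ℝ) (a : Fin 3 → ℤ) :
    cellSet ℓ p a ⊆ tbox ℓ p ℓ a := by
  intro x hx
  rw [mem_tbox_iff]
  intro i
  have h : ⌊(x i - p) / ℓ⌋ = a i := congrFun hx i
  rw [Int.floor_eq_iff, le_div_iff₀ hℓ, div_lt_iff₀ hℓ] at h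
  rw [mem_Icc]
  constructor <;> nlinarith [h.1, h.2]

theorem box_subset_cells {ℓ : ℝ} (hℓ : 0 < ℓ) (p L : ℝ) :
    box L ⊆ ⋃ a ∈ cellsOf ℓ p L, cellSet ℓ p a := by
  intro x hx
  simp only [mem_iUnion, exists_prop]
  refine ⟨cellIdx ℓ p x, ?_, rfl⟩
  unfold cellsOf
  rw [Fintype.mem_piFinset]
  intro i
  have h := hx i
  rw [mem_Icc] at h
  rw [Finset.mem_Icc]
  constructor
  · exact Int.floor_le_floor (div_le_div_of_nonneg_right (by linarith [h.1]) hℓ.le)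
  · exact Int.floor_le_floor (div_le_div_of_nonneg_right (by linarith [h.2]) hℓ.le)

theorem card_cellsOf_le {ℓ : ℝ} (hℓ : 0 < ℓ) (p : ℝ) {L : ℝ} (hL : 0 ≤ L) :
    ((cellsOf ℓ p L).card : ℝ) ≤ (L / ℓ + 2) ^ 3 := by
  unfold cellsOf
  rw [Fintype.card_piFinset]
  simp only [Finset.prod_const, Finset.card_univ, Fintype.card_fin, Int.card_Icc]
  push_cast
  have hmono : ⌊(0 - p) / ℓ⌋ ≤ ⌊(L - p) / ℓ⌋ :=
    Int.floor_le_floor (div_le_div_of_nonneg_right (by linarith) hℓ.le)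
  have hnn : 0 ≤ ⌊(L - p) / ℓ⌋ + 1 - ⌊(0 - p) / ℓ⌋ := by omega
  have hcast : (((⌊(L - p) / ℓ⌋ + 1 - ⌊(0 - p) / ℓ⌋).toNat : ℕ) : ℝ)
      = ((⌊(L - p) / ℓ⌋ : ℤ) : ℝ) + 1 - ((⌊(0 - p) / ℓ⌋ : ℤ) : ℝ) := by
    have : (((⌊(L - p) / ℓ⌋ + 1 - ⌊(0 - p) / ℓ⌋).toNat : ℕ) : ℤ)
        = ⌊(L - p) / ℓ⌋ + 1 - ⌊(0 - p) / ℓ⌋ := Int.toNat_of_nonneg hnn
    have h2 : ((((⌊(L - p) / ℓ⌋ + 1 - ⌊(0 - p) / ℓ⌋).toNat : ℕ) : ℤ) : ℝ)
        = ((⌊(L - p) / ℓ⌋ + 1 - ⌊(0 - p) / ℓ⌋ : ℤ) : ℝ) := by rw [this]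
    push_cast at h2
    exact h2
  rw [hcast]
  have h1 : ((⌊(L - p) / ℓ⌋ : ℤ) : ℝ) ≤ (L - p) / ℓ := Int.floor_le _
  have h2 : (0 - p) / ℓ < ((⌊(0 - p) / ℓ⌋ : ℤ) : ℝ) + 1 := Int.lt_floor_add_one _
  have h3 : (L - p) / ℓ - (0 - p) / ℓ = L / ℓ := by
    field_simp
    ring
  have h4 : (0 : ℝ) ≤ ((⌊(L - p) / ℓ⌋ : ℤ) : ℝ) + 1 - ((⌊(0 - p) / ℓ⌋ : ℤ) : ℝ) := by
    exact_mod_cast hnn
  exact pow_le_pow_left₀ h4 (by linarith) 3

end Vale.Agent.P171
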