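import Vale.Agent.P171.GeomA

/-!
# P171: distances between points of cells and cubes
-/

namespace Vale.Agent.P171

open MeasureTheory Set
open scoped ENNReal

theorem geomB_norm_le (u : E3) {c : ℝ} (hc : 0 ≤ c) (h : ∀ i, |u i| ≤ c) :
    ‖u‖ ≤ Real.sqrt 3 * c := by
  have e : Real.sqrt 3 * c = Real.sqrt (3 * c ^ 2) := by
    rw [Real.sqrt_mul (by norm_num), Real.sqrt_sq hc]
  rw [e, EuclideanSpace.norm_eq, Fin.sum_univ_three]
  apply Real.sqrt_le_sqrt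
  have key : ∀ i, ‖u i‖ ^ 2 ≤ c ^ 2 := by
    intro i
    rw [Real.norm_eq_abs]
    exact pow_le_pow_left₀ (abs_nonneg _) (h i) 2
  have h0 := key 0
  have h1 := key 1
  have h2 := key 2
  linarith

theorem geomB_norm_lt (u : E3) {c : ℝ} (h : ∀ i, |u i| < c) :
    ‖u‖ < Real.sqrt 3 * c := by
  have hc : 0 ≤ c := (abs_nonneg _).trans (h 0).le
  have e : Real.sqrt 3 * c = Real.sqrt (3 * c ^ 2) := by
    rw [Real.sqrt_mul (by norm_num), Real.sqrt_sq hc]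
  rw [e, EuclideanSpace.norm_eq, Fin.sum_univ_three]
  apply Real.sqrt_lt_sqrt (by positivity)
  have key : ∀ i, ‖u i‖ ^ 2 < c ^ 2 := by
    intro i
    rw [Real.norm_eq_abs]
    exact pow_lt_pow_left₀ (h i) (abs_nonneg _) (by norm_num)
  have h0 := key 0
  have h1 := key 1
  have h2 := key 2
  linarith

theorem geomB_norm_latVec (s : ℝ) (hs : 0 ≤ s) (v : Fin 3 → ℤ) : ‖latVec 0 s v‖ = s * znorm v := by
  rw [EuclideanSpace.norm_eq]
  unfold znorm
  rw [← Real.sqrt_sq hs, ← Real.sqrt_mul (sq_nonneg s), Real.sqrt_sq hs, Finset.mul_sum]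
  congr 1
  refine Finset.sum_congr rfl fun i _ => ?_
  rw [latVec_apply, Real.norm_eq_abs, sq_abs]
  ring

/-- two points of the same cell -/
theorem dist_le_of_cellIdx_eq {ℓ : ℝ} (hℓ : 0 < ℓ) (p : ℝ) {x y : E3}
    (h : cellIdx ℓ p x = cellIdx ℓ p y) : dist x y < Real.sqrt 3 * ℓ := by
  rw [dist_eq_norm]
  apply geomB_norm_lt
  intro i
  have hi : ⌊(x i - p) / ℓ⌋ = ⌊(y i - p) / ℓ⌋ := congrFun h i
  have h1 := Int.abs_sub_lt_one_of_floor_eq_floor hi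
  have e : (x i - p) / ℓ - (y i - p) / ℓ = (x i - y i) / ℓ := by
    field_simp
    ring
  rw [e, abs_div, abs_of_pos hℓ, div_lt_one hℓ] at h1
  rw [PiLp.sub_apply]
  exact h1

theorem geomB_sqrt_three_lt_two : Real.sqrt 3 < 2 := by
  rw [Real.sqrt_lt' (by norm_num)]
  norm_num

theorem dist_lt_two_of_cellIdx_eq (p : ℝ) {x y : E3}
    (h : cellIdx 1 p x = cellIdx 1 p y) : dist x y < 2 := by
  have h1 := dist_le_of_cellIdx_eq one_pos p h
  have h2 := geomB_sqrt_three_lt_two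
  linarith

/-- two points of a cube -/
theorem dist_le_of_mem_box {ℓ : ℝ} {x y : E3} (hx : x ∈ box ℓ) (hy : y ∈ box ℓ) :
    dist x y ≤ Real.sqrt 3 * ℓ := by
  have hℓ : 0 ≤ ℓ := (hx 0).1.trans (hx 0).2
  rw [dist_eq_norm]
  apply geomB_norm_le _ hℓ
  intro i
  have h1 := hx i
  have h2 := hy i
  rw [mem_Icc] at h1 h2
  rw [PiLp.sub_apply, abs_le]
  constructor <;> linarith [h1.1, h1.2, h2.1, h2.2]

/-- indices of the cells of two points at distance at most `R` -/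
theorem znorm_cellIdx_sub_le {ℓ : ℝ} (hℓ : 0 < ℓ) (p : ℝ) {x y : E3} {R : ℝ}
    (h : dist x y ≤ R) : znorm (cellIdx ℓ p x - cellIdx ℓ p y) ≤ R / ℓ + Real.sqrt 3 := by
  have h0 := geomB_norm_latVec 1 zero_le_one (cellIdx ℓ p x - cellIdx ℓ p y)
  rw [one_mul] at h0
  rw [← h0]
  set u : E3 := latVec 0 1 (cellIdx ℓ p x - cellIdx ℓ p y) with hu
  set w : E3 := (1 / ℓ) • (x - y) with hw
  have h1 : ‖u‖ ≤ ‖w‖ + ‖u - w‖ := by
    have := norm_add_le w (u - w)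
    rwa [add_sub_cancel] at this
  have h2 : ‖w‖ ≤ R / ℓ := by
    rw [hw, norm_smul, Real.norm_eq_abs, abs_of_pos (by positivity), ← dist_eq_norm]
    rw [one_div, inv_mul_eq_div]
    exact div_le_div_of_nonneg_right h hℓ.le
  have h3 : ‖u - w‖ ≤ Real.sqrt 3 * 1 := by
    apply geomB_norm_le _ zero_le_one
    intro i
    rw [PiLp.sub_apply, hu, hw, latVec_apply, PiLp.smul_apply, PiLp.sub_apply, Pi.sub_apply]
    unfold cellIdx
    have a1 := Int.floor_le ((x i - p) / ℓ)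
    have a2 := Int.lt_floor_add_one ((x i - p) / ℓ)
    have b1 := Int.floor_le ((y i - p) / ℓ)
    have b2 := Int.lt_floor_add_one ((y i - p) / ℓ)
    have e : (1 / ℓ) • (x i - y i) = (x i - p) / ℓ - (y i - p) / ℓ := by
      rw [smul_eq_mul]
      field_simp
      ring
    rw [e]
    push_cast
    rw [abs_le]
    constructor <;> linarith
  linarith

/-- distance of points of two translated cubes, from above -/
theorem dist_le_of_mem_tbox {ℓ p s : ℝ} (hs : 0 ≤ s) {a b : Fin 3 → ℤ} {x y : E3}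
    (hx : x ∈ tbox ℓ p s a) (hy : y ∈ tbox ℓ p s b) :
    dist x y ≤ s * znorm (a - b) + Real.sqrt 3 * ℓ := by
  obtain ⟨x', hx', rfl⟩ := hx
  obtain ⟨y', hy', rfl⟩ := hy
  have h1 := dist_le_of_mem_box hx' hy'
  rw [dist_eq_norm] at h1 ⊢
  have e : latVec p s a + x' - (latVec p s b + y') = latVec 0 s (a - b) + (x' - y') := by
    ext i
    simp only [PiLp.add_apply, PiLp.sub_apply, latVec_apply, Pi.sub_apply]
    push_cast
    ring
  rw [e, ← geomB_norm_latVec s hs]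
  exact (norm_add_le _ _).trans (by linarith)

/-- distinct translated cubes of side `ℓ` in a grid of mesh `ℓ + 2` are at distance at least `2` -/
theorem two_le_dist_of_mem_tbox {ℓ p : ℝ} (hℓ : 0 ≤ ℓ) {a b : Fin 3 → ℤ} (hab : a ≠ b) {x y : E3}
    (hx : x ∈ tbox ℓ p (ℓ + 2) a) (hy : y ∈ tbox ℓ p (ℓ + 2) b) : 2 ≤ dist x y := by
  obtain ⟨i, hi⟩ := Function.ne_iff.1 hab
  rw [mem_tbox_iff] at hx hy
  have h1 := hx i
  have h2 := hy i
  rw [mem_Icc] at h1 h2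
  have h3 : |x i - y i| ≤ dist x y := by
    rw [dist_eq_norm, ← Real.norm_eq_abs, ← PiLp.sub_apply]
    exact PiLp.norm_apply_le (x - y) i
  refine le_trans ?_ h3
  rcases lt_or_gt_of_ne hi with hlt | hlt
  · have h4 : (a i : ℝ) + 1 ≤ (b i : ℝ) := by exact_mod_cast hlt
    have h5 : (ℓ + 2) * ((a i : ℝ) + 1) ≤ (ℓ + 2) * (b i : ℝ) :=
      mul_le_mul_of_nonneg_left h4 (by linarith)
    rw [abs_sub_comm]
    refine le_trans ?_ (le_abs_self _)
    nlinarith [h1.1, h1.2, h2.1, h2.2]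
  · have h4 : (b i : ℝ) + 1 ≤ (a i : ℝ) := by exact_mod_cast hlt
    have h5 : (ℓ + 2) * ((b i : ℝ) + 1) ≤ (ℓ + 2) * (a i : ℝ) :=
      mul_le_mul_of_nonneg_left h4 (by linarith)
    refine le_trans ?_ (le_abs_self _)
    nlinarith [h1.1, h1.2, h2.1, h2.2]

theorem tbox_disjoint {ℓ p : ℝ} (hℓ : 0 ≤ ℓ) {a b : Fin 3 → ℤ} (hab : a ≠ b) :
    Disjoint (tbox ℓ p (ℓ + 2) a) (tbox ℓ p (ℓ + 2) b) := by
  rw [Set.disjoint_left]
  intro x hx hx'
  have := two_le_dist_of_mem_tbox hℓ hab hx hx'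
  simp at this
  linarith

theorem card_idxCube (M : ℕ) : (idxCube M).card = M ^ 3 := by
  unfold idxCube
  rw [Fintype.card_piFinset]
  simp

theorem tbox_subset_box {ℓ : ℝ} (hℓ : 0 ≤ ℓ) {M : ℕ} {a : Fin 3 → ℤ} (ha : a ∈ idxCube M) {L : ℝ}
    (hL : (M : ℝ) * (ℓ + 2) ≤ L + 2) : tbox ℓ 0 (ℓ + 2) a ⊆ box L := by
  intro x hx i
  rw [mem_tbox_iff] at hx
  have h1 := hx i
  unfold idxCube at ha
  rw [Fintype.mem_piFinset] at ha
  have h2 := ha i
  rw [Finset.mem_Ico] at h2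
  rw [mem_Icc] at h1 ⊢
  have h3 : (0 : ℝ) ≤ (a i : ℝ) := by exact_mod_cast h2.1
  have h4 : (a i : ℝ) + 1 ≤ (M : ℝ) := by exact_mod_cast h2.2
  have h5 : (ℓ + 2) * ((a i : ℝ) + 1) ≤ (ℓ + 2) * (M : ℝ) :=
    mul_le_mul_of_nonneg_left h4 (by linarith)
  have h6 : 0 ≤ (ℓ + 2) * (a i : ℝ) := mul_nonneg (by linarith) h3
  constructor
  · linarith [h1.1]
  · nlinarith [h1.2]

end Vale.Agent.P171
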