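import Vale.Agent.P171.GeomA

/-!
# P171: lattice points in balls
-/

namespace Vale.Agent.P171

open MeasureTheory Set
open scoped ENNReal

theorem abs_le_znorm (v : Fin 3 → ℤ) (i : Fin 3) : |(v i : ℝ)| ≤ znorm v := by
  unfold znorm
  apply Real.abs_le_sqrt
  exact Finset.single_le_sum (f := fun i => ((v i : ℝ)) ^ 2) (fun j _ => sq_nonneg _)
    (Finset.mem_univ i)

theorem zball_finite (ρ : ℝ) : (zball ρ).Finite := by
  refine Set.Finite.subset
    (Finset.finite_toSet (Fintype.piFinset fun _ : Fin 3 => Finset.Icc (-⌈ρ⌉) ⌈ρ⌉)) ?_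
  intro v hv
  simp only [Finset.mem_coe, Fintype.mem_piFinset, Finset.mem_Icc]
  intro i
  have h1 : |(v i : ℝ)| ≤ ρ := (abs_le_znorm v i).trans hv
  have h2 : ρ ≤ (⌈ρ⌉ : ℝ) := Int.le_ceil ρ
  have h3 := abs_le.1 (h1.trans h2)
  constructor
  · have : ((-⌈ρ⌉ : ℤ) : ℝ) ≤ (v i : ℝ) := by push_cast; exact h3.1
    exact_mod_cast this
  · exact_mod_cast h3.2

/-- membership in the unit cell centred at the lattice point `a` -/
theorem mem_unitCell_iff (a : Fin 3 → ℤ) (x : E3) :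
    x ∈ cellSet 1 (-1 / 2) a ↔ ∀ i, x i ∈ Ico ((a i : ℝ) - 1 / 2) ((a i : ℝ) - 1 / 2 + 1) := by
  unfold cellSet cellIdx
  simp only [Set.mem_ofPred_eq, funext_iff, Int.floor_eq_iff, mem_Ico]
  refine forall_congr' fun i => ?_
  constructor
  · rintro ⟨h1, h2⟩
    constructor <;> linarith
  · rintro ⟨h1, h2⟩
    constructor <;> linarith

theorem volume_unitCell (a : Fin 3 → ℤ) : volume (cellSet 1 (-1 / 2) a) = 1 := by
  have hset : cellSet 1 (-1 / 2) a
      = (WithLp.ofLp : E3 → (Fin 3 → ℝ)) ⁻¹'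
        (Set.pi univ fun i => Ico ((a i : ℝ) - 1 / 2) ((a i : ℝ) - 1 / 2 + 1)) := by
    ext x
    rw [mem_unitCell_iff]
    simp only [mem_preimage, Set.mem_pi, mem_univ, true_imp_iff]
  rw [hset, (PiLp.volume_preserving_ofLp (Fin 3)).measure_preimage
    (MeasurableSet.univ_pi fun i => measurableSet_Ico).nullMeasurableSet, Real.volume_pi_Ico]
  simp

theorem norm_latVec (v : Fin 3 → ℤ) : ‖latVec 0 1 v‖ = znorm v := by
  rw [EuclideanSpace.norm_eq]
  unfold znorm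
  congr 1
  refine Finset.sum_congr rfl fun i _ => ?_
  rw [latVec_apply, Real.norm_eq_abs, sq_abs]
  ring

theorem norm_sub_latVec_le {a : Fin 3 → ℤ} {x : E3} (hx : x ∈ cellSet 1 (-1 / 2) a) :
    ‖x - latVec 0 1 a‖ ≤ 1 := by
  rw [mem_unitCell_iff] at hx
  rw [EuclideanSpace.norm_eq, Real.sqrt_le_left (by norm_num : (0:ℝ) ≤ 1), Fin.sum_univ_three]
  have key : ∀ i, ‖(x - latVec 0 1 a) i‖ ^ 2 ≤ 1 / 4 := by
    intro i
    have h := hx i
    rw [mem_Ico] at h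
    rw [Real.norm_eq_abs, sq_abs, PiLp.sub_apply, latVec_apply]
    nlinarith [h.1, h.2]
  have h0 := key 0
  have h1 := key 1
  have h2 := key 2
  linarith

theorem volume_biUnion_unitCell (s : Finset (Fin 3 → ℤ)) :
    volume (⋃ a ∈ s, cellSet 1 (-1 / 2) a) = (s.card : ℝ≥0∞) := by
  rw [measure_biUnion_finset (fun a _ b _ hab => cellSet_disjoint 1 (-1 / 2) hab)
    (fun a _ => measurableSet_cellSet 1 (-1 / 2) a)]
  simp [volume_unitCell]

theorem nu_eq_card (ρ : ℝ) : nu ρ = (zball_finite ρ).toFinset.card := by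
  unfold nu
  exact Set.ncard_eq_toFinset_card _ (zball_finite ρ)

theorem nu_le {ρ : ℝ} (hρ : 0 ≤ ρ) : (nu ρ : ℝ) ≤ omega * (ρ + 1) ^ 3 := by
  have hsub : (⋃ a ∈ (zball_finite ρ).toFinset, cellSet 1 (-1 / 2) a)
      ⊆ Metric.closedBall (0 : E3) (ρ + 1) := by
    intro x hx
    simp only [mem_iUnion, Set.Finite.mem_toFinset, exists_prop] at hx
    obtain ⟨a, ha, hxa⟩ := hx
    rw [mem_closedBall_zero_iff]
    have h1 : ‖x‖ ≤ ‖latVec 0 1 a‖ + ‖x - latVec 0 1 a‖ := by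
      have := norm_add_le (latVec 0 1 a) (x - latVec 0 1 a)
      rwa [add_sub_cancel] at this
    have h2 := norm_sub_latVec_le hxa
    rw [norm_latVec] at h1
    have h3 : znorm a ≤ ρ := ha
    linarith
  have hm := measure_mono (μ := volume) hsub
  rw [volume_biUnion_unitCell, volume_closedBall_E3 0 (by linarith), ← nu_eq_card] at hm
  have hpos : 0 ≤ omega * (ρ + 1) ^ 3 := by
    have := omega_pos
    positivity
  have h4 : ((nu ρ : ℝ≥0∞)) = ENNReal.ofReal (nu ρ : ℝ) := (ENNReal.ofReal_natCast _).symm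
  rw [h4] at hm
  exact (ENNReal.ofReal_le_ofReal_iff hpos).1 hm

theorem le_nu {ρ : ℝ} (hρ : 1 ≤ ρ) : omega * (ρ - 1) ^ 3 ≤ (nu ρ : ℝ) := by
  have hsub : Metric.closedBall (0 : E3) (ρ - 1)
      ⊆ (⋃ a ∈ (zball_finite ρ).toFinset, cellSet 1 (-1 / 2) a) := by
    intro x hx
    rw [mem_closedBall_zero_iff] at hx
    simp only [mem_iUnion, Set.Finite.mem_toFinset, exists_prop]
    have hxa : x ∈ cellSet 1 (-1 / 2) (cellIdx 1 (-1 / 2) x) := rfl
    refine ⟨cellIdx 1 (-1 / 2) x, ?_, hxa⟩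
    have h2 := norm_sub_latVec_le hxa
    have h1 : ‖latVec 0 1 (cellIdx 1 (-1 / 2) x)‖
        ≤ ‖x‖ + ‖x - latVec 0 1 (cellIdx 1 (-1 / 2) x)‖ := by
      have := norm_sub_le x (x - latVec 0 1 (cellIdx 1 (-1 / 2) x))
      rwa [sub_sub_cancel] at this
    rw [norm_latVec] at h1
    show znorm _ ≤ ρ
    linarith
  have hm := measure_mono (μ := volume) hsub
  rw [volume_biUnion_unitCell, volume_closedBall_E3 0 (by linarith), ← nu_eq_card] at hm
  have h4 : ((nu ρ : ℝ≥0∞)) = ENNReal.ofReal (nu ρ : ℝ) := (ENNReal.ofReal_natCast _).symm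
  rw [h4] at hm
  exact (ENNReal.ofReal_le_ofReal_iff (Nat.cast_nonneg _)).1 hm

theorem nu_mono {ρ ρ' : ℝ} (h : ρ ≤ ρ') : nu ρ ≤ nu ρ' :=
  Set.ncard_le_ncard (fun _ hv => le_trans hv h) (zball_finite ρ')

end Vale.Agent.P171
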