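import Vale.Agent.P171.GeomC

/-!
# P171: pairs of nearby indices in a cube of indices
-/

namespace Vale.Agent.P171

open MeasureTheory Set
open scoped ENNReal

theorem geomD_zero_mem_zball {ρ : ℝ} (hρ : 0 ≤ ρ) : (0 : Fin 3 → ℤ) ∈ zball ρ := by
  show znorm 0 ≤ ρ
  unfold znorm
  simpa using hρ

/-- number of ordered pairs `(a,b)` of distinct indices of the cube with `|a - b| ≤ ρ` -/
theorem card_near_pairs_ge (M : ℕ) {ρ : ℝ} (hρ : 0 ≤ ρ) :
    (((M : ℝ) - 2 * (ρ + 1)) ^ 3) * ((nu ρ : ℝ) - 1) ≤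
      (((idxCube M ×ˢ idxCube M).filter fun q => q.1 ≠ q.2 ∧ znorm (q.1 - q.2) ≤ ρ).card : ℝ) ∨
      (M : ℝ) < 2 * (ρ + 1) := by
  classical
  by_cases hM : (M : ℝ) < 2 * (ρ + 1)
  · exact Or.inr hM
  left
  rw [not_lt] at hM
  set c : ℤ := ⌈ρ⌉ with hc
  have hc1 : (c : ℝ) < ρ + 1 := Int.ceil_lt_add_one ρ
  have hc2 : ρ ≤ (c : ℝ) := Int.le_ceil ρ
  set I : Finset (Fin 3 → ℤ) := Fintype.piFinset fun _ => Finset.Ico c ((M : ℤ) - c) with hI
  set Z : Finset (Fin 3 → ℤ) := (zball_finite ρ).toFinset.erase 0 with hZ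
  have hZcard : (Z.card : ℝ) = (nu ρ : ℝ) - 1 := by
    have h0 : (0 : Fin 3 → ℤ) ∈ (zball_finite ρ).toFinset := by
      rw [Set.Finite.mem_toFinset]
      exact geomD_zero_mem_zball hρ
    rw [hZ, Finset.card_erase_of_mem h0, ← nu_eq_card]
    have hpos : 1 ≤ nu ρ := by
      rw [nu_eq_card]
      exact Finset.card_pos.2 ⟨0, h0⟩
    rw [Nat.cast_sub hpos]
    simp
  have hnn : (0 : ℤ) ≤ (M : ℤ) - c - c := by
    have : (0 : ℝ) < ((M : ℤ) - c - c : ℤ) + 1 := by
      push_cast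
      linarith
    have h2 : (0 : ℤ) < (M : ℤ) - c - c + 1 := by exact_mod_cast this
    omega
  have hIcard : (I.card : ℝ) = ((M : ℝ) - 2 * (c : ℝ)) ^ 3 := by
    rw [hI, Fintype.card_piFinset]
    simp only [Finset.prod_const, Finset.card_univ, Fintype.card_fin, Int.card_Ico]
    push_cast
    congr 1
    have h1 : ((((M : ℤ) - c - c).toNat : ℕ) : ℤ) = (M : ℤ) - c - c := Int.toNat_of_nonneg hnn
    have h2 : (((((M : ℤ) - c - c).toNat : ℕ) : ℤ) : ℝ) = (((M : ℤ) - c - c : ℤ) : ℝ) := by rw [h1]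
    push_cast at h2
    rw [h2]
    ring
  have hinj : (I ×ˢ Z).card ≤
      ((idxCube M ×ˢ idxCube M).filter fun q => q.1 ≠ q.2 ∧ znorm (q.1 - q.2) ≤ ρ).card := by
    refine Finset.card_le_card_of_injOn (fun q => (q.1 + q.2, q.1)) ?_ ?_
    · intro q hq
      rw [Finset.mem_coe, Finset.mem_product] at hq
      obtain ⟨hq1, hq2⟩ := hq
      rw [hZ, Finset.mem_erase, Set.Finite.mem_toFinset] at hq2
      rw [hI, Fintype.mem_piFinset] at hq1
      rw [Finset.mem_coe, Finset.mem_filter, Finset.mem_product]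
      have hv : ∀ i, -c ≤ q.2 i ∧ q.2 i ≤ c := by
        intro i
        have h1 : |(q.2 i : ℝ)| ≤ (c : ℝ) := ((abs_le_znorm q.2 i).trans hq2.2).trans hc2
        have h3 := abs_le.1 h1
        constructor
        · have : ((-c : ℤ) : ℝ) ≤ (q.2 i : ℝ) := by push_cast; exact h3.1
          exact_mod_cast this
        · exact_mod_cast h3.2
      refine ⟨⟨?_, ?_⟩, ?_, ?_⟩
      · unfold idxCube
        rw [Fintype.mem_piFinset]
        intro i
        have h1 := hq1 i
        have h2 := hv i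
        rw [Finset.mem_Ico] at h1 ⊢
        show 0 ≤ q.1 i + q.2 i ∧ q.1 i + q.2 i < (M : ℤ)
        constructor <;> omega
      · unfold idxCube
        rw [Fintype.mem_piFinset]
        intro i
        have h1 := hq1 i
        have h2 := hv i
        rw [Finset.mem_Ico] at h1 ⊢
        show 0 ≤ q.1 i ∧ q.1 i < (M : ℤ)
        constructor <;> omega
      · intro h
        apply hq2.1
        have : q.1 + q.2 = q.1 + 0 := by rw [add_zero]; exact h
        exact add_left_cancel this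
      · have : q.1 + q.2 - q.1 = q.2 := by abel
        show znorm (q.1 + q.2 - q.1) ≤ ρ
        rw [this]
        exact hq2.2
    · intro q _ q' _ h
      simp only [Prod.mk.injEq] at h
      obtain ⟨h1, h2⟩ := h
      rw [h2] at h1
      exact Prod.ext h2 (add_left_cancel h1)
  have hfin : ((I ×ˢ Z).card : ℝ) ≤
      (((idxCube M ×ˢ idxCube M).filter fun q => q.1 ≠ q.2 ∧ znorm (q.1 - q.2) ≤ ρ).card : ℝ) := by
    exact_mod_cast hinj
  refine le_trans ?_ hfin
  rw [Finset.card_product]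
  push_cast
  rw [hIcard, hZcard]
  have hZnn : (0 : ℝ) ≤ (nu ρ : ℝ) - 1 := by rw [← hZcard]; positivity
  apply mul_le_mul_of_nonneg_right _ hZnn
  exact pow_le_pow_left₀ (by linarith) (by linarith) 3

end Vale.Agent.P171
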