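import Vale.Agent.P171.Defs

/-!
# P171: elementary geometry: definitions
-/

namespace Vale.Agent.P171

open MeasureTheory Set
open scoped ENNReal

/-- volume of the unit ball of `ℝ^3` -/
noncomputable def omega : ℝ := 4 * Real.pi / 3

theorem omega_pos : 0 < omega := by unfold omega; positivity

theorem one_le_omega : 1 ≤ omega := by
  unfold omega
  have := Real.pi_gt_three
  linarith

theorem box_subset_box {L L' : ℝ} (h : L ≤ L') : box L ⊆ box L' := by
  intro x hx i
  exact ⟨(hx i).1, (hx i).2.trans h⟩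

/-- the vector with coordinates `p + s * a i` -/
noncomputable def latVec (p s : ℝ) (a : Fin 3 → ℤ) : E3 := WithLp.toLp 2 (fun i => p + s * (a i : ℝ))

@[simp] theorem latVec_apply (p s : ℝ) (a : Fin 3 → ℤ) (i : Fin 3) :
    latVec p s a i = p + s * (a i : ℝ) := rfl

/-- the translate of the cube `[0,ℓ]^3` by `latVec p s a` -/
def tbox (ℓ p s : ℝ) (a : Fin 3 → ℤ) : Set E3 := (fun x => latVec p s a + x) '' box ℓ

/-- index of the cell (of the cubic grid of mesh `ℓ` with origin `(p,p,p)`) containing `x` -/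
noncomputable def cellIdx (ℓ p : ℝ) (x : E3) : Fin 3 → ℤ := fun i => ⌊(x i - p) / ℓ⌋

/-- the (half-open) cell with index `a` -/
def cellSet (ℓ p : ℝ) (a : Fin 3 → ℤ) : Set E3 := {x | cellIdx ℓ p x = a}

theorem cellSet_disjoint (ℓ p : ℝ) {a b : Fin 3 → ℤ} (h : a ≠ b) :
    Disjoint (cellSet ℓ p a) (cellSet ℓ p b) := by
  rw [Set.disjoint_left]
  intro x hx hx'
  exact h (hx.symm.trans hx')

/-- the finite set of indices of the cells meeting `[0,L]^3` -/
noncomputable def cellsOf (ℓ p L : ℝ) : Finset (Fin 3 → ℤ) :=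
  Fintype.piFinset fun _ => Finset.Icc ⌊(0 - p) / ℓ⌋ ⌊(L - p) / ℓ⌋

/-- Euclidean norm of an integer vector -/
noncomputable def znorm (v : Fin 3 → ℤ) : ℝ := Real.sqrt (∑ i, ((v i : ℝ)) ^ 2)

/-- the integer vectors of norm at most `ρ` -/
def zball (ρ : ℝ) : Set (Fin 3 → ℤ) := {v | znorm v ≤ ρ}

/-- number of integer vectors of norm at most `ρ` -/
noncomputable def nu (ρ : ℝ) : ℕ := (zball ρ).ncard

/-- the cube of indices `{0,…,M-1}^3` -/
noncomputable def idxCube (M : ℕ) : Finset (Fin 3 → ℤ) :=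
  Fintype.piFinset fun _ => Finset.Ico (0 : ℤ) (M : ℤ)

end Vale.Agent.P171
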