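import Vale.Agent.P171.KacA

/-!
# P171: comparison of the pressures of `c` and of `c` perturbed at the scale `k`
-/

namespace Vale.Agent.P171

open MeasureTheory Set Filter Topology
open scoped ENNReal

/-- the real inequality behind `kac_term` -/
theorem kac_exponent {ℓ θ Ck t G Q P M μ τ cm : ℝ} (n : ℝ) (hℓ : 0 < ℓ) (hθ : 0 < θ)
    (hCk : Ck ≤ cm) (hτ : τ = t * (1 + θ) + 2 * cm * θ) (hτpos : 0 < τ)
    (hG : G ≤ (1 + θ) * (Ck + t)) (hQ : (1 - θ) * Ck / ℓ ^ 3 ≤ Q / (ℓ + 2) ^ 3)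
    (hM : (1 + 2 / ℓ) ^ 3 * P - (τ * n / ℓ ^ 3) ^ 2 / (2 * τ) ≤ M) :
    (μ * n + n ^ 2 / (2 * ℓ ^ 3) * G) -
      ((μ + 1 / ℓ + τ * n / ℓ ^ 3) * n + n ^ 2 / (2 * (ℓ + 2) ^ 3) * Q) + (ℓ + 2) ^ 3 * P ≤
      ℓ ^ 3 * M + (n * (-(1 / ℓ))) := by
  have h3 : 0 < ℓ ^ 3 := by positivity
  set Y : ℝ := n ^ 2 / (2 * ℓ ^ 3) with hY
  have hY0 : 0 ≤ Y := by positivity
  have e1 : τ * n / ℓ ^ 3 * n = 2 * τ * Y := by
    rw [hY]; field_simp
  have e2 : ℓ ^ 3 * ((τ * n / ℓ ^ 3) ^ 2 / (2 * τ)) = τ * Y := by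
    rw [hY]; field_simp
  have e3 : ℓ ^ 3 * ((1 + 2 / ℓ) ^ 3 * P) = (ℓ + 2) ^ 3 * P := by
    field_simp
  have e4 : n ^ 2 / (2 * (ℓ + 2) ^ 3) * Q = n ^ 2 / 2 * (Q / (ℓ + 2) ^ 3) := by
    have : 0 < (ℓ + 2) ^ 3 := by positivity
    field_simp
  have e5 : n ^ 2 / 2 * ((1 - θ) * Ck / ℓ ^ 3) = Y * ((1 - θ) * Ck) := by
    rw [hY]; field_simp
  have h4 : n ^ 2 / 2 * ((1 - θ) * Ck / ℓ ^ 3) ≤ n ^ 2 / 2 * (Q / (ℓ + 2) ^ 3) :=
    mul_le_mul_of_nonneg_left hQ (by positivity)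
  have h5 : Y * G ≤ Y * ((1 + θ) * (Ck + t)) := mul_le_mul_of_nonneg_left hG hY0
  have h6 : ℓ ^ 3 * ((1 + 2 / ℓ) ^ 3 * P - (τ * n / ℓ ^ 3) ^ 2 / (2 * τ)) ≤ ℓ ^ 3 * M :=
    mul_le_mul_of_nonneg_left hM h3.le
  rw [mul_sub, e2, e3] at h6
  have h7 : Y * ((1 + θ) * (Ck + t)) - Y * ((1 - θ) * Ck) ≤ Y * τ := by
    rw [← mul_sub]
    apply mul_le_mul_of_nonneg_left _ hY0
    rw [hτ]
    nlinarith
  rw [e4]
  have e6 : (μ + 1 / ℓ + τ * n / ℓ ^ 3) * n = μ * n + n * (1 / ℓ) + τ * n / ℓ ^ 3 * n := by ring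
  rw [e6, e1]
  rw [e5] at h4
  nlinarith

/-- bound for one term of the partition function of a cell -/
theorem kac_term {c : ℕ → ℝ} (hc : Adm c) {k : ℕ} (hk : 1 ≤ k) {t : ℝ} (ht : 0 ≤ t)
    (hd : Adm (pert k t c)) (μ M : ℝ)
    (hM : ∀ s : ℝ, 0 ≤ s →
      (1 + 2 / ellk k) ^ 3 * press (phiC c) (μ + 1 / ellk k + s) - s ^ 2 / (2 * tk k t) ≤ M)
    (n : ℕ) :
    ENNReal.ofReal (Real.exp (μ * (n : ℝ) +
        (n : ℝ) ^ 2 / (2 * ellk k ^ 3) * Gam k (pert k t c) (ellk k))) *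
      cTerm (box (ellk k)) (wt (phiC (trunc k c)) 0) n ≤
    ENNReal.ofReal (Real.exp (ellk k ^ 3 * M) * Real.exp (-(1 / ellk k)) ^ n) := by
  have hℓ := ellk_pos k
  have hτ := tk_pos k ht
  set s : ℝ := tk k t * (n : ℝ) / ellk k ^ 3 with hs
  have hs0 : 0 ≤ s := by positivity
  have hlow := lower_bound hc k hℓ n (μ + 1 / ellk k + s)
  set T := cTerm (box (ellk k)) (wt (phiC (trunc k c)) 0) n with hT
  set a : ℝ := μ * (n : ℝ) + (n : ℝ) ^ 2 / (2 * ellk k ^ 3) * Gam k (pert k t c) (ellk k) with ha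
  set b : ℝ := (μ + 1 / ellk k + s) * (n : ℝ) +
    (n : ℝ) ^ 2 / (2 * (ellk k + 2) ^ 3) * ∑' j, tail k c j * qq j (ellk k) with hb
  set e : ℝ := (ellk k + 2) ^ 3 * press (phiC c) (μ + 1 / ellk k + s) with he
  have hexp : a - b + e ≤ ellk k ^ 3 * M + ((n : ℝ) * (-(1 / ellk k))) :=
    kac_exponent (n : ℝ) hℓ (thk_pos k) (tsum_tail_le hc k).2 rfl hτ
      (Gam_pert_le hc hk ht hd) (tail_qq_ge hc hk) (hM s hs0)
  calc ENNReal.ofReal (Real.exp a) * T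
      = ENNReal.ofReal (Real.exp (a - b)) * (ENNReal.ofReal (Real.exp b) * T) := by
        rw [← mul_assoc, ← ENNReal.ofReal_mul (Real.exp_pos _).le, ← Real.exp_add]
        congr 3
        ring
    _ ≤ ENNReal.ofReal (Real.exp (a - b)) * ENNReal.ofReal (Real.exp e) :=
        mul_le_mul_right hlow _
    _ = ENNReal.ofReal (Real.exp (a - b + e)) := by
        rw [← ENNReal.ofReal_mul (Real.exp_pos _).le, ← Real.exp_add]
    _ ≤ ENNReal.ofReal (Real.exp (ellk k ^ 3 * M) * Real.exp (-(1 / ellk k)) ^ n) := by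
        apply ENNReal.ofReal_le_ofReal
        rw [← Real.exp_nat_mul, ← Real.exp_add]
        exact Real.exp_le_exp.mpr hexp

/-- geometric series -/
theorem tsum_geom_le {ℓ : ℝ} (hℓ : 1 ≤ ℓ) (K : ℝ) (hK : 0 ≤ K) :
    ∑' n : ℕ, ENNReal.ofReal (K * Real.exp (-(1 / ℓ)) ^ n) ≤ ENNReal.ofReal (K * (2 * ℓ)) := by
  have hℓ0 : 0 < ℓ := by linarith
  set q : ℝ := Real.exp (-(1 / ℓ)) with hq
  have hq0 : 0 < q := Real.exp_pos _
  have hx : 0 < 1 / ℓ := by positivity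
  have hx1 : 1 / ℓ ≤ 1 := by rw [div_le_one hℓ0]; exact hℓ
  have hq1 : q ≤ 1 / (1 + 1 / ℓ) := by
    rw [hq, Real.exp_neg, one_div (1 + 1 / ℓ)]
    apply inv_anti₀ (by positivity)
    have := Real.add_one_le_exp (1 / ℓ)
    linarith
  have hq2 : 1 / (2 * ℓ) ≤ 1 - q := by
    have h1 : 1 / (1 + 1 / ℓ) = ℓ / (ℓ + 1) := by field_simp
    have h2 : 1 / (2 * ℓ) ≤ 1 - ℓ / (ℓ + 1) := by
      rw [div_le_iff₀ (by positivity)]
      have : (1 - ℓ / (ℓ + 1)) * (2 * ℓ) = 2 * ℓ / (ℓ + 1) := by field_simp; ring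
      rw [this, le_div_iff₀ (by positivity)]
      linarith
    rw [h1] at hq1
    linarith
  have hqlt : q < 1 := by
    have : 0 < 1 / (2 * ℓ) := by positivity
    linarith
  have hsum : Summable fun n : ℕ => K * q ^ n :=
    (summable_geometric_of_lt_one hq0.le hqlt).mul_left K
  rw [← ENNReal.ofReal_tsum_of_nonneg (fun n => by positivity) hsum]
  apply ENNReal.ofReal_le_ofReal
  rw [tsum_mul_left, tsum_geometric_of_lt_one hq0.le hqlt]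
  apply mul_le_mul_of_nonneg_left _ hK
  have h1q : 0 < 1 - q := by linarith
  rw [inv_le_comm₀ h1q (by positivity)]
  rw [← one_div]
  exact hq2

/-- **Comparison of the pressures.** -/
theorem kac_bound {c : ℕ → ℝ} (hc : Adm c) {k : ℕ} (hk : 1 ≤ k) {t : ℝ} (ht : 0 ≤ t)
    (hd : Adm (pert k t c)) (μ M : ℝ)
    (hM : ∀ s : ℝ, 0 ≤ s →
      (1 + 2 / ellk k) ^ 3 * press (phiC c) (μ + 1 / ellk k + s) - s ^ 2 / (2 * tk k t) ≤ M) :
    press (phiC (pert k t c)) μ ≤ Real.log (2 * ellk k) / ellk k ^ 3 + M := by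
  have hℓ := ellk_pos k
  have hℓ1 : 1 ≤ ellk k := by linarith [ellk_ge k]
  obtain ⟨k', rfl⟩ : ∃ k', k = k' + 1 := ⟨k - 1, by omega⟩
  have hup := upper_bound hc hd (k' + 1) (w := 2 * Rk k') (by have := Rk_pos k'; positivity)
    (m := k' + 1 + 4) (by omega)
    (fun j hj => by
      have := Rk_mono (show j ≤ k' by omega)
      linarith)
    (fun j hj => by
      have h1 : pert (k' + 1) t c j = c j / (1 + delk (k' + 1)) := by
        unfold pert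
        rw [if_pos hj]
      rw [h1]
      have h2 : (((k' + 1 + 4 : ℕ) : ℝ)) - 3 = ((k' + 1 : ℕ) : ℝ) + 1 := by
        push_cast; ring
      rw [h2]
      have h3 : delk (k' + 1) = 3 / (((k' + 1 : ℕ) : ℝ) + 1) := rfl
      rw [← h3]
      have := delk_pos (k' + 1)
      field_simp) μ
  rw [← ellk_succ] at hup
  have hY : Ycell (trunc (k' + 1) c) (Gam (k' + 1) (pert (k' + 1) t c) (ellk (k' + 1)))
      (ellk (k' + 1)) μ ≤
      ENNReal.ofReal (Real.exp (ellk (k' + 1) ^ 3 * M) * (2 * ellk (k' + 1))) := by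
    unfold Ycell
    refine le_trans (ENNReal.tsum_le_tsum fun n => kac_term hc hk ht hd μ M hM n) ?_
    exact tsum_geom_le hℓ1 _ (Real.exp_pos _).le
  have h1 := hup.trans hY
  rw [ENNReal.ofReal_le_ofReal_iff (by positivity)] at h1
  have h2 : Real.exp (ellk (k' + 1) ^ 3 * M) * (2 * ellk (k' + 1)) =
      Real.exp (ellk (k' + 1) ^ 3 * M + Real.log (2 * ellk (k' + 1))) := by
    rw [Real.exp_add, Real.exp_log (by positivity)]
  rw [h2, Real.exp_le_exp] at h1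
  have h3 : 0 < ellk (k' + 1) ^ 3 := by positivity
  rw [div_add' _ _ _ h3.ne', le_div_iff₀ h3]
  linarith

end Vale.Agent.P171
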