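import Vale.Agent.P171.UpperC

/-!
# P171: the quadratic bound for the pressure
-/

namespace Vale.Agent.P171

open MeasureTheory Set Filter Topology
open scoped ENNReal

/-- the truncation at level zero carries no attraction -/
theorem phiC_trunc_zero (c : ℕ → ℝ) {r : ℝ} (hr : r < 2) : phiC (trunc 0 c) r = Acore := by
  unfold phiC vpot trunc
  simp [hr]

/-- the strength of all scales for unit cells -/
theorem Gam_zero_one_le {c : ℕ → ℝ} (hc : Adm c) : Gam 0 c 1 ≤ 2 * cmax := by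
  unfold Gam
  have h1 : ∀ j, tail 0 c j * kap j 1 ≤ c j * 2 := by
    intro j
    have : tail 0 c j = c j := by simp [tail]
    rw [this]
    exact mul_le_mul_of_nonneg_left (kap_one_le_two j) (hc.nonneg j)
  have h0 : ∀ j, 0 ≤ tail 0 c j * kap j 1 := by
    intro j
    have : tail 0 c j = c j := by simp [tail]
    rw [this]
    exact mul_nonneg (hc.nonneg j) (kap_nonneg j one_pos)
  have hs2 : Summable fun j => c j * 2 := hc.summable.mul_right 2
  have hs1 : Summable fun j => tail 0 c j * kap j 1 := Summable.of_nonneg_of_le h0 h1 hs2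
  calc ∑' j, tail 0 c j * kap j 1 ≤ ∑' j, c j * 2 := hs1.tsum_le_tsum h1 hs2
    _ = (∑' j, c j) * 2 := tsum_mul_right
    _ ≤ 2 * cmax := by linarith [hc.le]

/-- the weight of a configuration in the unit cube -/
theorem wt_trunc_zero_box (c : ℕ → ℝ) {l : List E3} (hl : ∀ x ∈ l, x ∈ box 1) :
    wt (phiC (trunc 0 c)) 0 l =
      ENNReal.ofReal (Real.exp (-(Acore * ((l.length : ℝ) * ((l.length : ℝ) - 1) / 2)))) := by
  unfold wt
  have h : pairSum (fun x y => phiC (trunc 0 c) (dist x y)) l = pairSum (fun _ _ => Acore) l := by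
    apply pairSum_congr
    intro x hx y hy
    apply phiC_trunc_zero
    have h1 := dist_le_of_mem_box (hl x hx) (hl y hy)
    have h2 := geomB_sqrt_three_lt_two
    linarith
  rw [h, pairSum_const]
  congr 2
  ring

theorem cTerm_trunc_zero_box (c : ℕ → ℝ) (n : ℕ) :
    cTerm (box 1) (wt (phiC (trunc 0 c)) 0) n ≤ ((n.factorial : ℝ≥0∞))⁻¹ *
      ENNReal.ofReal (Real.exp (-(Acore * ((n : ℝ) * ((n : ℝ) - 1) / 2)))) := by
  have h := cTerm_mono (measurableSet_box 1) (F := wt (phiC (trunc 0 c)) 0)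
    (G := fun l => (fun k : ℕ =>
      ENNReal.ofReal (Real.exp (-(Acore * ((k : ℝ) * ((k : ℝ) - 1) / 2))))) l.length)
    (fun l hl => (wt_trunc_zero_box c hl).le) n
  rw [cTerm_length (box 1) (fun k : ℕ =>
      ENNReal.ofReal (Real.exp (-(Acore * ((k : ℝ) * ((k : ℝ) - 1) / 2))))) n,
    volume_box zero_le_one] at h
  simpa using h

/-- the elementary quadratic estimate -/
theorem quad_exponent_le {G : ℝ} (hG : G ≤ 2 * cmax) (μ x : ℝ) :
    μ * x + x ^ 2 / (2 * (1 : ℝ) ^ 3) * G + -(Acore * (x * (x - 1) / 2)) ≤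
      (μ + Acore / 2) ^ 2 / Acore := by
  have hA : (0 : ℝ) < Acore := by norm_num [Acore]
  rw [le_div_iff₀ hA]
  have h1 : x ^ 2 / (2 * (1 : ℝ) ^ 3) * G ≤ x ^ 2 / (2 * (1 : ℝ) ^ 3) * (2 * cmax) :=
    mul_le_mul_of_nonneg_left hG (by positivity)
  have h2 : (μ * x + x ^ 2 / (2 * (1 : ℝ) ^ 3) * G + -(Acore * (x * (x - 1) / 2))) * Acore ≤
      (μ * x + x ^ 2 / (2 * (1 : ℝ) ^ 3) * (2 * cmax) + -(Acore * (x * (x - 1) / 2))) * Acore :=
    mul_le_mul_of_nonneg_right (by linarith) hA.le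
  refine h2.trans ?_
  unfold Acore cmax
  nlinarith [sq_nonneg (μ + 50000 - 50000 * x), sq_nonneg x]

/-- the one cell partition function for unit cells -/
theorem Ycell_unit_le {c : ℕ → ℝ} (hc : Adm c) (μ : ℝ) :
    Ycell (trunc 0 c) (Gam 0 c 1) 1 μ ≤
      ENNReal.ofReal (Real.exp (1 + (μ + Acore / 2) ^ 2 / Acore)) := by
  unfold Ycell
  have hG := Gam_zero_one_le hc
  have hterm : ∀ n : ℕ, ENNReal.ofReal (Real.exp (μ * (n : ℝ) +
      (n : ℝ) ^ 2 / (2 * (1 : ℝ) ^ 3) * Gam 0 c 1)) * cTerm (box 1) (wt (phiC (trunc 0 c)) 0) n ≤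
      ENNReal.ofReal (Real.exp ((μ + Acore / 2) ^ 2 / Acore) * (1 ^ n / (n.factorial : ℝ))) := by
    intro n
    have hfac : (0 : ℝ) < (n.factorial : ℝ) := by positivity
    refine (mul_le_mul_right (cTerm_trunc_zero_box c n) _).trans ?_
    rw [mul_left_comm, ← ENNReal.ofReal_mul (Real.exp_pos _).le, ← Real.exp_add, one_pow (M := ℝ) n,
      one_div, mul_comm (Real.exp _) ((n.factorial : ℝ))⁻¹, ENNReal.ofReal_mul (by positivity),
      ENNReal.ofReal_inv_of_pos hfac, ENNReal.ofReal_natCast]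
    refine mul_le_mul_right ?_ _
    apply ENNReal.ofReal_le_ofReal
    rw [Real.exp_le_exp]
    exact quad_exponent_le hG μ n
  refine (ENNReal.tsum_le_tsum hterm).trans ?_
  rw [← ENNReal.ofReal_tsum_of_nonneg (fun n => by positivity)
    ((Real.summable_pow_div_factorial 1).mul_left _), tsum_mul_left]
  have hexp : Real.exp 1 = ∑' N : ℕ, (1 : ℝ) ^ N / (N.factorial : ℝ) := by
    rw [Real.exp_eq_exp_ℝ, NormedSpace.exp_eq_tsum_div]
  rw [← hexp, ← Real.exp_add, add_comm]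

/-- **Quadratic bound** (superstability) -/
theorem press_le_quad {c : ℕ → ℝ} (hc : Adm c) (μ : ℝ) :
    press (phiC c) μ ≤ 1 + (μ + Acore / 2) ^ 2 / Acore := by
  have h := upper_bound hc hc 0 (w := 1 / 4) (by norm_num) (m := 4) le_rfl
    (fun j hj => absurd hj (Nat.not_lt_zero j)) (fun j hj => absurd hj (Nat.not_lt_zero j)) μ
  have h1 : ((4 : ℕ) : ℝ) * (1 / 4) = 1 := by norm_num
  rw [h1] at h
  have h2 := h.trans (Ycell_unit_le hc μ)
  rw [ENNReal.ofReal_le_ofReal_iff (Real.exp_pos _).le, Real.exp_le_exp] at h2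
  simpa using h2

end Vale.Agent.P171
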