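import Vale.Agent.P171.Lower
import Vale.Agent.P171.Upper

/-!
# P171: the scales `ellk k` and the perturbed strengths: definitions and constants
-/

namespace Vale.Agent.P171

open MeasureTheory Set Filter Topology
open scoped ENNReal

/-- side of the cells used at the scale `k` -/
noncomputable def ellk (k : ℕ) : ℝ := Rk k / ((k : ℝ) + 4)

/-- relative loss in the short scales -/
noncomputable def delk (k : ℕ) : ℝ := 3 / ((k : ℝ) + 1)

/-- relative error in the long scales -/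
noncomputable def thk (k : ℕ) : ℝ := 30 / ((k : ℝ) + 4)

/-- effective strength of the perturbation -/
noncomputable def tk (k : ℕ) (t : ℝ) : ℝ := t * (1 + thk k) + 2 * cmax * thk k

/-- the perturbed strengths -/
noncomputable def pert (k : ℕ) (t : ℝ) (c : ℕ → ℝ) : ℕ → ℝ := fun j =>
  if j < k then c j / (1 + delk k) else if j = k then c j + t else c j

theorem delk_pos (k : ℕ) : 0 < delk k := by unfold delk; positivity

theorem thk_pos (k : ℕ) : 0 < thk k := by unfold thk; positivity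

theorem ellk_succ (k : ℕ) : ellk (k + 1) = (((k + 1 + 4 : ℕ) : ℝ)) * (2 * Rk k) := by
  unfold ellk
  rw [Rk]
  push_cast
  have : (k : ℝ) + 1 + 4 ≠ 0 := by positivity
  field_simp
  ring

theorem ellk_succ_ge (k : ℕ) : 2000 * (((k + 1 : ℕ) : ℝ) + 4) ≤ ellk (k + 1) := by
  rw [ellk_succ]
  push_cast
  have := Rk_ge k
  have hk : (0 : ℝ) ≤ (k : ℝ) := Nat.cast_nonneg k
  nlinarith

theorem ellk_ge (k : ℕ) : 200 ≤ ellk k := by
  cases k with
  | zero => norm_num [ellk, Rk]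
  | succ k =>
    have := ellk_succ_ge k
    have hk : (0 : ℝ) ≤ (k : ℝ) := Nat.cast_nonneg k
    push_cast at this
    linarith

theorem ellk_pos (k : ℕ) : 0 < ellk k := by linarith [ellk_ge k]

theorem tendsto_ellk : Tendsto ellk atTop atTop := by
  rw [← tendsto_add_atTop_iff_nat 1]
  apply tendsto_atTop_mono _ tendsto_natCast_atTop_atTop
  intro k
  have := ellk_succ_ge k
  have hk : (0 : ℝ) ≤ (k : ℝ) := Nat.cast_nonneg k
  push_cast at this
  linarith

theorem tendsto_delk : Tendsto delk atTop (𝓝 0) := by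
  unfold delk
  exact Tendsto.div_atTop tendsto_const_nhds
    (tendsto_atTop_add_const_right _ _ tendsto_natCast_atTop_atTop)

theorem tendsto_thk : Tendsto thk atTop (𝓝 0) := by
  unfold thk
  exact Tendsto.div_atTop tendsto_const_nhds
    (tendsto_atTop_add_const_right _ _ tendsto_natCast_atTop_atTop)

theorem tk_pos (k : ℕ) {t : ℝ} (ht : 0 ≤ t) : 0 < tk k t := by
  unfold tk
  have := thk_pos k
  have : 0 < cmax := by norm_num [cmax]
  positivity

/-- `R_j ≥ (k+4) ellk k` for `j ≥ k` -/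
theorem mul_ellk_le_Rk {j k : ℕ} (hjk : k ≤ j) : ((k : ℝ) + 4) * ellk k ≤ Rk j := by
  have h1 : ((k : ℝ) + 4) * ellk k = Rk k := by
    unfold ellk
    field_simp
  rw [h1]
  exact Rk_mono hjk

/-- the constants of the diagonal bound are close to `1` -/
theorem kap_ellk_le {j k : ℕ} (hk : 1 ≤ k) (hjk : k ≤ j) : kap j (ellk k) ≤ 1 + thk k := by
  have hℓ := ellk_pos k
  have hR := Rk_pos j
  have hK : (5 : ℝ) ≤ (k : ℝ) + 4 := by
    have : (1 : ℝ) ≤ (k : ℝ) := by exact_mod_cast hk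
    linarith
  have hK0 : (0 : ℝ) < (k : ℝ) + 4 := by linarith
  refine (kap_le j hℓ).trans ?_
  have h1 : 3 * ellk k / Rk j ≤ 3 / ((k : ℝ) + 4) := by
    rw [div_le_div_iff₀ hR hK0]
    have := mul_ellk_le_Rk hjk
    nlinarith
  have h0 : 0 ≤ 3 * ellk k / Rk j := by positivity
  set x : ℝ := 3 / ((k : ℝ) + 4) with hx
  have hx0 : 0 < x := by positivity
  have hx1 : x ≤ 3 / 5 := by
    rw [hx]
    exact div_le_div_of_nonneg_left (by norm_num) (by norm_num) hK
  have h2 : (1 + 3 * ellk k / Rk j) ^ 3 ≤ (1 + x) ^ 3 :=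
    pow_le_pow_left₀ (by linarith) (by linarith) 3
  have h3 : thk k = 10 * x := by
    rw [hx]; unfold thk; ring
  rw [h3]
  nlinarith [mul_nonneg hx0.le hx0.le, mul_nonneg (mul_nonneg hx0.le hx0.le) hx0.le]

theorem sqrt_three_le : Real.sqrt 3 ≤ 1.74 := by
  rw [Real.sqrt_le_left (by norm_num)]
  norm_num

/-- the constants of the lower bound are close to `1` -/
theorem qq_ellk_ge {j k : ℕ} (hk : 1 ≤ k) (hjk : k ≤ j) :
    (1 - thk k) / ellk k ^ 3 ≤ qq j (ellk k) / (ellk k + 2) ^ 3 := by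
  obtain ⟨k', rfl⟩ : ∃ k', k = k' + 1 := ⟨k - 1, by omega⟩
  have hℓK := ellk_succ_ge k'
  have hRK := mul_ellk_le_Rk hjk
  have hℓ0 := ellk_pos (k' + 1)
  have hR0 := Rk_pos j
  have hth : thk (k' + 1) = 30 * (1 / (((k' + 1 : ℕ) : ℝ) + 4)) := by unfold thk; ring
  have hK : (5 : ℝ) ≤ ((k' + 1 : ℕ) : ℝ) + 4 := by
    push_cast
    have : (0 : ℝ) ≤ (k' : ℝ) := Nat.cast_nonneg k'
    linarith
  rw [hth]
  generalize ellk (k' + 1) = ℓ at *
  generalize ((k' + 1 : ℕ) : ℝ) + 4 = K at *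
  have hK0 : 0 < K := by linarith
  set u : ℝ := 1 / K with hu
  have hu0 : 0 < u := by positivity
  have hu1 : u ≤ 1 / 5 := by
    rw [hu]
    exact div_le_div_of_nonneg_left (by norm_num) (by norm_num) hK
  have huK : u * K = 1 := by rw [hu]; field_simp
  set R : ℝ := Rk j with hR
  have a1 : ℓ ≤ u * R := by
    have := mul_le_mul_of_nonneg_left hRK hu0.le
    rw [← mul_assoc, huK, one_mul] at this
    exact this
  have a2 : 2000 ≤ u * ℓ := by
    have := mul_le_mul_of_nonneg_left hℓK hu0.le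
    rw [mul_left_comm, huK, mul_one] at this
    exact this
  have a3 : ℓ ≤ R := by nlinarith
  have hs3 := sqrt_three_le
  have hs0 : 0 ≤ Real.sqrt 3 := Real.sqrt_nonneg 3
  have hℓ2 : 0 < ℓ + 2 := by linarith
  have hρ1 : rhoj j ℓ - 1 = (R - (Real.sqrt 3 + 1) * ℓ - 2) / (ℓ + 2) := by
    unfold rhoj
    field_simp
    ring
  have hkey : (1 - 3 * u) * R * (ℓ + 2) ≤ (R - (Real.sqrt 3 + 1) * ℓ - 2) * ℓ := by
    have b1 : (Real.sqrt 3 + 1) * ℓ * ℓ ≤ 2.74 * (u * R) * ℓ := by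
      have : (Real.sqrt 3 + 1) * ℓ ≤ 2.74 * (u * R) := by nlinarith
      exact mul_le_mul_of_nonneg_right this hℓ0.le
    have b2 : 0.26 * 2000 * R ≤ 0.26 * (u * ℓ) * R := by
      apply mul_le_mul_of_nonneg_right _ hR0.le
      linarith
    have b3 : 0 ≤ u * R := by positivity
    nlinarith
  have hz : (1 - 3 * u) * R ≤ (rhoj j ℓ - 1) * ℓ := by
    rw [hρ1, div_mul_eq_mul_div, le_div_iff₀ hℓ2]
    exact hkey
  have hz0 : 0 ≤ (1 - 3 * u) * R := by
    apply mul_nonneg _ hR0.le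
    linarith
  have hρ : 1 ≤ rhoj j ℓ := by
    by_contra hcon
    push Not at hcon
    have : (rhoj j ℓ - 1) * ℓ < 0 := mul_neg_of_neg_of_pos (by linarith) hℓ0
    linarith
  have hnu := le_nu hρ
  have hq : ((nu (rhoj j ℓ) : ℝ) - 1) * (ℓ + 2) ^ 3 / (omega * R ^ 3) ≤ qq j ℓ := le_max_right _ _
  have hom := one_le_omega
  have hom0 := omega_pos
  have h3 : 0 < (ℓ + 2) ^ 3 := by positivity
  have hR3 : 0 < R ^ 3 := by positivity
  have hℓ3 : 0 < ℓ ^ 3 := by positivity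
  -- reduce to an inequality for `nu`
  have step1 : ((nu (rhoj j ℓ) : ℝ) - 1) / (omega * R ^ 3) ≤ qq j ℓ / (ℓ + 2) ^ 3 := by
    rw [le_div_iff₀ h3]
    calc ((nu (rhoj j ℓ) : ℝ) - 1) / (omega * R ^ 3) * (ℓ + 2) ^ 3
        = ((nu (rhoj j ℓ) : ℝ) - 1) * (ℓ + 2) ^ 3 / (omega * R ^ 3) := by ring
      _ ≤ _ := hq
  refine le_trans ?_ step1
  rw [div_le_div_iff₀ hℓ3 (by positivity)]
  -- `(1 - 30 u) ω R^3 ≤ (ν - 1) ℓ^3`
  have c1 : ((1 - 3 * u) * R) ^ 3 ≤ ((rhoj j ℓ - 1) * ℓ) ^ 3 := pow_le_pow_left₀ hz0 hz 3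
  have c2 : ℓ ^ 3 ≤ (u * R) ^ 3 := pow_le_pow_left₀ hℓ0.le a1 3
  have c3 : (1 - 9 * u) ≤ (1 - 3 * u) ^ 3 := by nlinarith [mul_nonneg hu0.le hu0.le]
  have c4 : u ^ 3 ≤ u := by nlinarith [mul_nonneg hu0.le hu0.le]
  have c5 : (1 - 9 * u) * R ^ 3 ≤ ((rhoj j ℓ - 1) * ℓ) ^ 3 := by
    calc (1 - 9 * u) * R ^ 3 ≤ (1 - 3 * u) ^ 3 * R ^ 3 := mul_le_mul_of_nonneg_right c3 hR3.le
      _ = ((1 - 3 * u) * R) ^ 3 := by ring
      _ ≤ _ := c1
  have c6 : ℓ ^ 3 ≤ u * R ^ 3 := by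
    calc ℓ ^ 3 ≤ (u * R) ^ 3 := c2
      _ = u ^ 3 * R ^ 3 := by ring
      _ ≤ u * R ^ 3 := mul_le_mul_of_nonneg_right c4 hR3.le
  have c7 : omega * (rhoj j ℓ - 1) ^ 3 * ℓ ^ 3 ≤ (nu (rhoj j ℓ) : ℝ) * ℓ ^ 3 :=
    mul_le_mul_of_nonneg_right hnu hℓ3.le
  have c8 : omega * ((1 - 9 * u) * R ^ 3) ≤ omega * ((rhoj j ℓ - 1) * ℓ) ^ 3 :=
    mul_le_mul_of_nonneg_left c5 hom0.le
  have c9 : ℓ ^ 3 ≤ omega * (u * R ^ 3) := by
    calc ℓ ^ 3 ≤ u * R ^ 3 := c6
      _ = 1 * (u * R ^ 3) := (one_mul _).symm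
      _ ≤ omega * (u * R ^ 3) := mul_le_mul_of_nonneg_right hom (by positivity)
  have c10 : 0 ≤ omega * (u * R ^ 3) := by positivity
  have e1 : omega * ((rhoj j ℓ - 1) * ℓ) ^ 3 = omega * (rhoj j ℓ - 1) ^ 3 * ℓ ^ 3 := by ring
  rw [e1] at c8
  nlinarith

/-- the sequence with the single entry `t` at the place `k` -/
noncomputable def bump (k : ℕ) (t : ℝ) : ℕ → ℝ := fun j => if j = k then t else 0

theorem hasSum_bump (k : ℕ) (t : ℝ) : HasSum (bump k t) t := by
  unfold bump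
  exact hasSum_ite_eq k t

theorem tail_pert (k : ℕ) (t : ℝ) (c : ℕ → ℝ) (j : ℕ) :
    tail k (pert k t c) j = tail k c j + bump k t j := by
  unfold tail pert bump
  split_ifs with h1 h2
  · omega
  · simp
  · rfl
  · simp

theorem tsum_tail_le {c : ℕ → ℝ} (hc : Adm c) (k : ℕ) :
    0 ≤ ∑' j, tail k c j ∧ ∑' j, tail k c j ≤ cmax :=
  ⟨tsum_nonneg (hc.tail k).nonneg, (hc.tail k).le⟩

/-- the strength of the long scales of the perturbed sequence, from above -/
theorem Gam_pert_le {c : ℕ → ℝ} (hc : Adm c) {k : ℕ} (hk : 1 ≤ k) {t : ℝ} (_ht : 0 ≤ t)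
    (hd : Adm (pert k t c)) :
    Gam k (pert k t c) (ellk k) ≤ (1 + thk k) * ((∑' j, tail k c j) + t) := by
  have hℓ := ellk_pos k
  have hs1 : Summable fun j => tail k (pert k t c) j * kap j (ellk k) :=
    (pairSum_vpot_tail_le hd k hℓ 0 []).1
  have hs2 : Summable fun j => tail k c j + bump k t j :=
    (hc.tail k).summable.add (hasSum_bump k t).summable
  have hle : ∀ j, tail k (pert k t c) j * kap j (ellk k) ≤
      (1 + thk k) * (tail k c j + bump k t j) := by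
    intro j
    rw [← tail_pert, mul_comm (1 + thk k)]
    by_cases hj : j < k
    · have : tail k (pert k t c) j = 0 := by unfold tail; rw [if_pos hj]
      rw [this]; simp
    · exact mul_le_mul_of_nonneg_left (kap_ellk_le hk (not_lt.mp hj)) ((hd.tail k).nonneg j)
  unfold Gam
  have h1 := hs1.tsum_le_tsum hle (hs2.mul_left _)
  rw [tsum_mul_left, (hc.tail k).summable.tsum_add (hasSum_bump k t).summable,
    (hasSum_bump k t).tsum_eq] at h1
  exact h1

/-- the strength of the long scales of the original sequence, from below -/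
theorem tail_qq_ge {c : ℕ → ℝ} (hc : Adm c) {k : ℕ} (hk : 1 ≤ k) :
    (1 - thk k) * (∑' j, tail k c j) / ellk k ^ 3 ≤
      (∑' j, tail k c j * qq j (ellk k)) / (ellk k + 2) ^ 3 := by
  have hℓ := ellk_pos k
  have hs1 : Summable fun j => tail k c j * qq j (ellk k) := summable_tail_qq hc k hℓ
  have hle : ∀ j, tail k c j * ((1 - thk k) / ellk k ^ 3) ≤
      tail k c j * qq j (ellk k) / (ellk k + 2) ^ 3 := by
    intro j
    rw [mul_div_assoc]
    by_cases hj : j < k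
    · have : tail k c j = 0 := by unfold tail; rw [if_pos hj]
      rw [this]; simp
    · exact mul_le_mul_of_nonneg_left (qq_ellk_ge hk (not_lt.mp hj)) ((hc.tail k).nonneg j)
  have h1 := ((hc.tail k).summable.mul_right _).tsum_le_tsum hle (hs1.div_const _)
  rw [tsum_mul_right, tsum_div_const] at h1
  calc (1 - thk k) * (∑' j, tail k c j) / ellk k ^ 3
      = (∑' j, tail k c j) * ((1 - thk k) / ellk k ^ 3) := by ring
    _ ≤ _ := h1

end Vale.Agent.P171
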