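import Vale.Agent.P171.Family

/-!
# P171: lower semicontinuity of the pressure in the strengths and the chemical potential
-/

namespace Vale.Agent.P171

open MeasureTheory Set Filter Topology
open scoped ENNReal

theorem summable_abs_sub {c c' : ℕ → ℝ} (hc : Adm c) (hc' : Adm c') :
    Summable fun k => |c k - c' k| :=
  (hc.summable.sub hc'.summable).abs

theorem phiC_sub_le {c c' : ℕ → ℝ} (hc : Adm c) (hc' : Adm c') (r : ℝ) :
    phiC c' r ≤ phiC c r + ∑' k, |c k - c' k| := by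
  have h1 : vpot c r - vpot c' r = ∑' k, (c k * Kk k r - c' k * Kk k r) := by
    unfold vpot
    exact ((summable_mul_Kk hc r).tsum_sub (summable_mul_Kk hc' r)).symm
  have h2 : ∑' k, (c k * Kk k r - c' k * Kk k r) ≤ ∑' k, |c k - c' k| := by
    apply Summable.tsum_le_tsum _ ((summable_mul_Kk hc r).sub (summable_mul_Kk hc' r))
      (summable_abs_sub hc hc')
    intro k
    have h3 : c k * Kk k r - c' k * Kk k r = (c k - c' k) * Kk k r := by ring
    rw [h3]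
    calc (c k - c' k) * Kk k r ≤ |c k - c' k| * Kk k r :=
          mul_le_mul_of_nonneg_right (le_abs_self _) (Kk_nonneg k r)
      _ ≤ |c k - c' k| * 1 := mul_le_mul_of_nonneg_left (Kk_le_one k r) (abs_nonneg _)
      _ = |c k - c' k| := mul_one _
  unfold phiC
  linarith

/-- the energies of two admissible sequences of strengths are close -/
theorem pairSum_phiC_sub_le {c c' : ℕ → ℝ} (hc : Adm c) (hc' : Adm c') (l : List E3) :
    pairSum (fun x y => phiC c' (dist x y)) l ≤ pairSum (fun x y => phiC c (dist x y)) l +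
      (∑' k, |c k - c' k|) * (l.length : ℝ) ^ 2 := by
  set S := ∑' k, |c k - c' k| with hS
  have hS0 : 0 ≤ S := tsum_nonneg fun k => abs_nonneg _
  have h1 : pairSum (fun x y => phiC c' (dist x y)) l
      ≤ pairSum (fun x y => phiC c (dist x y) + S) l :=
    pairSum_mono fun x _ y _ => phiC_sub_le hc hc' (dist x y)
  have h2 : pairSum (fun x y => phiC c (dist x y) + S) l
      = pairSum (fun x y => phiC c (dist x y)) l + pairSum (fun _ _ => S) l :=
    pairSum_add (fun x y => phiC c (dist x y)) (fun _ _ => S) l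
  rw [h2, pairSum_const] at h1
  have hn : (0 : ℝ) ≤ (l.length : ℝ) := Nat.cast_nonneg _
  have h3 : (l.length : ℝ) * ((l.length : ℝ) - 1) / 2 ≤ (l.length : ℝ) ^ 2 := by nlinarith
  have h4 := mul_le_mul_of_nonneg_left h3 hS0
  linarith

/-- comparison of the `N`-particle terms -/
theorem cTerm_wt_lsc {c c' : ℕ → ℝ} (hc : Adm c) (hc' : Adm c') (μ μ' L : ℝ) (N : ℕ) :
    ENNReal.ofReal (Real.exp (-(|μ - μ'| * (N : ℝ) + (∑' k, |c k - c' k|) * (N : ℝ) ^ 2))) *
      cTerm (box L) (wt (phiC c) μ) N ≤ cTerm (box L) (wt (phiC c') μ') N := by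
  set S := ∑' k, |c k - c' k| with hS
  have h1 := cTerm_length_mul (box L)
    (fun n => ENNReal.ofReal (Real.exp (-(|μ - μ'| * (n : ℝ) + S * (n : ℝ) ^ 2))))
    (wt (phiC c) μ) (wt_cmeas (measurable_phiC hc) μ) N
  rw [← h1]
  apply cTerm_mono (measurableSet_box L)
  intro l _
  unfold wt
  rw [← ENNReal.ofReal_mul (Real.exp_pos _).le, ← Real.exp_add]
  apply ENNReal.ofReal_le_ofReal
  apply Real.exp_le_exp.2
  have h2 := pairSum_phiC_sub_le hc hc' l
  rw [← hS] at h2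
  have hn : (0 : ℝ) ≤ (l.length : ℝ) := Nat.cast_nonneg _
  have h3 : (μ - μ') * (l.length : ℝ) ≤ |μ - μ'| * (l.length : ℝ) :=
    mul_le_mul_of_nonneg_right (le_abs_self _) hn
  nlinarith

/-- lower semicontinuity in finite volume -/
theorem logXi_lsc {c : ℕ → ℝ} (hc : Adm c) (μ L : ℝ) {η : ℝ} (hη : 0 < η) :
    ∃ δ > 0, ∀ (c' : ℕ → ℝ) (μ' : ℝ), Adm c' → ∑' k, |c k - c' k| < δ → |μ - μ'| < δ →
      logXi (phiC c) L μ - η < logXi (phiC c') L μ' := by
  set X := Xi (phiC c) (box L) μ with hX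
  have hXtop : X ≠ ∞ := Xi_box_ne_top (good_phiC hc) L μ
  have hX1 : 1 ≤ X := one_le_Xi _ _ _
  have hX0 : X ≠ 0 := (lt_of_lt_of_le one_pos hX1).ne'
  set q : ℝ≥0∞ := ENNReal.ofReal (Real.exp (-(η / 2))) with hq
  have hq1 : q < 1 := by
    rw [hq, ← ENNReal.ofReal_one]
    apply (ENNReal.ofReal_lt_ofReal_iff one_pos).2
    rw [Real.exp_lt_one_iff]
    linarith
  have hqX : q * X < X := by
    calc q * X < 1 * X := ENNReal.mul_lt_mul_left hX0 hXtop hq1
      _ = X := one_mul _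
  have htend : Tendsto (fun n => ∑ i ∈ Finset.range n, cTerm (box L) (wt (phiC c) μ) i) atTop (𝓝 X) :=
    ENNReal.tendsto_nat_tsum _
  obtain ⟨N0, hN0⟩ := (htend.eventually (lt_mem_nhds hqX)).exists
  refine ⟨η / (4 * ((N0 : ℝ) + 1) ^ 2), by positivity, ?_⟩
  intro c' μ' hc' hS hμ
  set δ := η / (4 * ((N0 : ℝ) + 1) ^ 2) with hδ
  set S := ∑' k, |c k - c' k| with hSdef
  have hS0 : 0 ≤ S := tsum_nonneg fun k => abs_nonneg _
  set X' := Xi (phiC c') (box L) μ' with hX'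
  have hX'top : X' ≠ ∞ := Xi_box_ne_top (good_phiC hc') L μ'
  have hterm : ∀ i ∈ Finset.range N0, q * cTerm (box L) (wt (phiC c) μ) i
      ≤ cTerm (box L) (wt (phiC c') μ') i := by
    intro i hi
    rw [Finset.mem_range] at hi
    refine le_trans ?_ (cTerm_wt_lsc hc hc' μ μ' L i)
    apply mul_le_mul_left
    rw [hq]
    apply ENNReal.ofReal_le_ofReal
    apply Real.exp_le_exp.2
    rw [← hSdef]
    have hi' : (i : ℝ) ≤ (N0 : ℝ) + 1 := by
      have : (i : ℝ) ≤ (N0 : ℝ) := by exact_mod_cast hi.le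
      linarith
    have hi0 : (0 : ℝ) ≤ (i : ℝ) := Nat.cast_nonneg _
    have hN1 : (1 : ℝ) ≤ (N0 : ℝ) + 1 := by
      have : (0 : ℝ) ≤ (N0 : ℝ) := Nat.cast_nonneg _
      linarith
    have hsq : (i : ℝ) ^ 2 ≤ ((N0 : ℝ) + 1) ^ 2 := by nlinarith
    have hlin : (i : ℝ) ≤ ((N0 : ℝ) + 1) ^ 2 := by nlinarith
    have hδ0 : 0 < δ := by positivity
    have e1 : |μ - μ'| * (i : ℝ) ≤ δ * ((N0 : ℝ) + 1) ^ 2 :=
      mul_le_mul hμ.le hlin hi0 hδ0.le
    have e2 : S * (i : ℝ) ^ 2 ≤ δ * ((N0 : ℝ) + 1) ^ 2 :=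
      mul_le_mul hS.le hsq (by positivity) hδ0.le
    have e3 : δ * ((N0 : ℝ) + 1) ^ 2 = η / 4 := by
      rw [hδ]
      field_simp
    linarith
  have hq0 : q ≠ 0 := by
    rw [hq]
    exact (ENNReal.ofReal_pos.2 (Real.exp_pos _)).ne'
  have hqtop : q ≠ ∞ := ENNReal.ofReal_ne_top
  have hlow : q * (q * X) < X' := by
    calc q * (q * X) < q * ∑ i ∈ Finset.range N0, cTerm (box L) (wt (phiC c) μ) i :=
          ENNReal.mul_lt_mul_right hq0 hqtop hN0
      _ = ∑ i ∈ Finset.range N0, q * cTerm (box L) (wt (phiC c) μ) i := Finset.mul_sum _ _ _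
      _ ≤ ∑ i ∈ Finset.range N0, cTerm (box L) (wt (phiC c') μ') i := Finset.sum_le_sum hterm
      _ ≤ X' := ENNReal.sum_le_tsum _
  have hreal : Real.exp (-(η / 2)) * (Real.exp (-(η / 2)) * X.toReal) < X'.toReal := by
    have h1 := (ENNReal.toReal_lt_toReal
      (ENNReal.mul_ne_top hqtop (ENNReal.mul_ne_top hqtop hXtop)) hX'top).2 hlow
    rw [ENNReal.toReal_mul, ENNReal.toReal_mul, hq, ENNReal.toReal_ofReal (Real.exp_pos _).le] at h1
    exact h1
  have hXr : 0 < X.toReal := ENNReal.toReal_pos hX0 hXtop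
  have hlog := Real.log_lt_log (by positivity) hreal
  rw [Real.log_mul (Real.exp_pos _).ne' (by positivity), Real.log_mul (Real.exp_pos _).ne' hXr.ne',
    Real.log_exp] at hlog
  unfold logXi
  rw [← hX, ← hX']
  linarith

/-- **Lower semicontinuity of the pressure.** -/
theorem press_lsc {c : ℕ → ℝ} (hc : Adm c) (μ : ℝ) {η : ℝ} (hη : 0 < η) :
    ∃ δ > 0, ∀ (c' : ℕ → ℝ) (μ' : ℝ), Adm c' → ∑' k, |c k - c' k| < δ → |μ - μ'| < δ →
      press (phiC c) μ - η < press (phiC c') μ' := by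
  have : Nonempty {ℓ : ℝ // 0 < ℓ} := ⟨⟨1, one_pos⟩⟩
  have hlt : press (phiC c) μ - η / 2 < press (phiC c) μ := by linarith
  obtain ⟨ℓ, hℓ⟩ := exists_lt_of_lt_ciSup hlt
  have hℓ' : press (phiC c) μ - η / 2 < logXi (phiC c) ℓ μ / ((ℓ : ℝ) + 2) ^ 3 := hℓ
  have hpos : 0 < ((ℓ : ℝ) + 2) ^ 3 := by
    have := ℓ.2
    positivity
  obtain ⟨δ, hδ, h⟩ := logXi_lsc hc μ (ℓ : ℝ) (η := η / 2 * ((ℓ : ℝ) + 2) ^ 3) (by positivity)
  refine ⟨δ, hδ, ?_⟩
  intro c' μ' hc' hS hμ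
  have h1 := h c' μ' hc' hS hμ
  have h2 := le_press (good_phiC hc') ℓ.2 μ'
  have h3 : logXi (phiC c) ℓ μ / ((ℓ : ℝ) + 2) ^ 3 - η / 2
      < logXi (phiC c') ℓ μ' / ((ℓ : ℝ) + 2) ^ 3 := by
    rw [lt_div_iff₀ hpos, sub_mul, div_mul_cancel₀ _ hpos.ne']
    exact h1
  linarith

end Vale.Agent.P171
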