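import Vale.Agent.P171.LowerB

/-!
# P171: the dense phase
-/

namespace Vale.Agent.P171

open MeasureTheory Set Filter Topology
open scoped ENNReal

/-- one particle in the unit cube -/
theorem cTerm_box_one_wt (φ : ℝ → ℝ) : cTerm (box 1) (wt φ 0) 1 = 1 := by
  have h : cTerm (box 1) (wt φ 0) 1 =
      cTerm (box 1) (fun l => (fun _ : ℕ => (1 : ℝ≥0∞)) l.length) 1 := by
    unfold cTerm
    congr 1
    refine lintegral_congr fun x => ?_
    simp [wt, List.ofFn_succ]
  rw [h, cTerm_length (box 1) (fun _ : ℕ => (1 : ℝ≥0∞)) 1, volume_box zero_le_one]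
  simp

/-- the dense phase: one particle in every third unit cube -/
theorem press_dense {c : ℕ → ℝ} (hc : Adm c) (μ : ℝ) :
    μ / 27 + 7 / 8 * (∑' k, c k) / (2 * 27 ^ 2) ≤ press (phiC c) μ := by
  have h := lower_bound hc 0 one_pos 1 μ
  rw [cTerm_box_one_wt, mul_one, ENNReal.ofReal_le_ofReal_iff (Real.exp_nonneg _),
    Real.exp_le_exp] at h
  have hs : (∑' k, c k) * (7 / 8) ≤ ∑' j, tail 0 c j * qq j 1 := by
    rw [← tsum_mul_right]
    refine Summable.tsum_le_tsum (fun j => ?_) (hc.summable.mul_right _)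
      (summable_tail_qq hc 0 one_pos)
    have e : tail 0 c j = c j := by simp [tail]
    rw [e]
    exact mul_le_mul_of_nonneg_left (qq_one_ge j) (hc.nonneg j)
  norm_num at h
  linarith

end Vale.Agent.P171
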