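import Vale.Agent.P171.LowerDefs

/-!
# P171: the mean-field lower bound in finite volume
-/

namespace Vale.Agent.P171

open MeasureTheory Set Filter Topology
open scoped ENNReal

/-! ### general lemmas on configuration integrals -/

theorem CMeas.append_left {F : List E3 → ℝ≥0∞} (hF : CMeas F) (l₁ : List E3) :
    CMeas (fun l₂ => F (l₁ ++ l₂)) := by
  intro N
  have h1 : Measurable (fun x : Fin N → E3 => (Fin.append l₁.get x : Fin (l₁.length + N) → E3)) := by
    rw [measurable_pi_iff]
    intro i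
    refine Fin.addCases (fun j => ?_) (fun j => ?_) i
    · simp only [Fin.append_left]
      exact measurable_const
    · simp only [Fin.append_right]
      exact measurable_pi_apply j
  have h2 := (hF (l₁.length + N)).comp h1
  have h3 : (fun x : Fin N → E3 => F (l₁ ++ List.ofFn x)) =
      (fun x : Fin (l₁.length + N) → E3 => F (List.ofFn x)) ∘
        (fun x : Fin N → E3 => (Fin.append l₁.get x : Fin (l₁.length + N) → E3)) := by
    funext x
    simp only [Function.comp, List.ofFn_fin_append, List.ofFn_get]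
  rw [h3]
  exact h2

theorem PermInv.append_left {F : List E3 → ℝ≥0∞} (hF : PermInv F) (l₁ : List E3) :
    PermInv (fun l₂ => F (l₁ ++ l₂)) := by
  intro l l' h
  exact hF _ _ (h.append_left l₁)

/-- union of the regions indexed by a list -/
def lUnion {ι : Type*} (D : ι → Set E3) : List ι → Set E3
  | [] => ∅
  | a :: L => D a ∪ lUnion D L

theorem measurableSet_lUnion {ι : Type*} {D : ι → Set E3} (hD : ∀ a, MeasurableSet (D a))
    (L : List ι) : MeasurableSet (lUnion D L) := by
  induction L with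
  | nil => exact MeasurableSet.empty
  | cons a L ih => exact (hD a).union ih

theorem disjoint_lUnion {ι : Type*} {D : ι → Set E3} {a : ι} {L : List ι}
    (h : ∀ b ∈ L, Disjoint (D a) (D b)) : Disjoint (D a) (lUnion D L) := by
  induction L with
  | nil => exact Set.disjoint_empty _
  | cons b L ih =>
    rw [lUnion, Set.disjoint_union_right]
    exact ⟨h b (List.mem_cons_self), ih fun b' hb' => h b' (List.mem_cons_of_mem _ hb')⟩

theorem lUnion_subset {ι : Type*} {D : ι → Set E3} {L : List ι} {S : Set E3}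
    (h : ∀ b ∈ L, D b ⊆ S) : lUnion D L ⊆ S := by
  induction L with
  | nil => exact Set.empty_subset _
  | cons b L ih =>
    rw [lUnion]
    exact Set.union_subset (h b (List.mem_cons_self)) (ih fun b' hb' => h b' (List.mem_cons_of_mem _ hb'))

/-- lower bound for a configuration integral by configurations with exactly `n` points in each
of the regions of a finite disjoint family -/
theorem cI_list_ge {ι : Type*} {D : ι → Set E3} (hD : ∀ a, MeasurableSet (D a))
    {G : List E3 → ℝ≥0∞} (hG : CMeas G) (n : ℕ) :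
    ∀ (L : List ι), L.Pairwise (fun a b => Disjoint (D a) (D b)) →
      ∀ (F : List E3 → ℝ≥0∞), CMeas F → PermInv F → ∀ C : ℝ≥0∞,
      (∀ ls : List (List E3), List.Forall₂ (fun a l => l.length = n ∧ ∀ x ∈ l, x ∈ D a) L ls →
        C * (ls.map G).prod ≤ F ls.flatten) →
      C * (L.map fun a => cTerm (D a) G n).prod ≤ cI (lUnion D L) F := by
  intro L
  induction L with
  | nil =>
    intro _ F _ _ C h
    have h0 := h [] List.Forall₂.nil
    simp only [List.map_nil, List.prod_nil, List.flatten_nil] at h0 ⊢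
    calc C * 1 ≤ F [] := h0
      _ = cTerm (lUnion D []) F 0 := (cTerm_zero _ _).symm
      _ ≤ _ := cTerm_le_cI _ _ _
  | cons a L ih =>
    intro hpw F hF hp C h
    rw [List.pairwise_cons] at hpw
    obtain ⟨hpa, hpL⟩ := hpw
    set P : ℝ≥0∞ := (L.map fun a => cTerm (D a) G n).prod with hP
    rw [lUnion, cI_union (hD a) (measurableSet_lUnion hD L) (disjoint_lUnion hpa) hF hp]
    calc C * ((a :: L).map fun a => cTerm (D a) G n).prod
        = (if n = n then C * P else 0) * cTerm (D a) G n := by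
          rw [if_pos rfl, List.map_cons, List.prod_cons]
          ring
      _ = cTerm (D a) (fun l => (if l.length = n then C * P else 0) * G l) n :=
          (cTerm_length_mul (D a) (fun m => if m = n then C * P else 0) G hG n).symm
      _ ≤ cTerm (D a) (fun l₁ => cI (lUnion D L) (fun l₂ => F (l₁ ++ l₂))) n := by
          apply cTerm_mono (hD a)
          intro l₁ hl₁
          by_cases hlen : l₁.length = n
          · rw [if_pos hlen]
            have := ih hpL (fun l₂ => F (l₁ ++ l₂)) (hF.append_left l₁) (hp.append_left l₁)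
              (C * G l₁) (by
                intro ls hls
                have := h (l₁ :: ls) (List.Forall₂.cons ⟨hlen, hl₁⟩ hls)
                simp only [List.map_cons, List.prod_cons, List.flatten_cons] at this
                calc C * G l₁ * (ls.map G).prod = C * (G l₁ * (ls.map G).prod) := by ring
                  _ ≤ _ := this)
            calc C * P * G l₁ = C * G l₁ * P := by ring
              _ ≤ _ := this
          · rw [if_neg hlen, zero_mul]
            exact zero_le
      _ ≤ _ := cTerm_le_cI _ _ _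

/-! ### sums over pairs of indices -/

/-- `∑_{i<j} e(a_i, a_j)` for a list of indices -/
def pairE {ι : Type*} (e : ι → ι → ℝ) : List ι → ℝ
  | [] => 0
  | a :: L => (L.map (e a)).sum + pairE e L

theorem two_mul_pairE {ι : Type*} {e : ι → ι → ℝ} (hs : ∀ a b, e a b = e b a) (h0 : ∀ a, e a a = 0)
    (L : List ι) : 2 * pairE e L = (L.map fun a => (L.map (e a)).sum).sum := by
  induction L with
  | nil => simp [pairE]
  | cons a L ih =>
    simp only [pairE, List.map_cons, List.sum_cons, h0, zero_add, List.sum_map_add]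
    have h1 : (L.map fun b => e b a) = L.map (e a) := List.map_congr_left fun b _ => hs b a
    rw [h1, ← ih]
    ring

theorem crossSum_append_right (ψ : E3 → E3 → ℝ) (l₁ l₂ l₃ : List E3) :
    crossSum ψ l₁ (l₂ ++ l₃) = crossSum ψ l₁ l₂ + crossSum ψ l₁ l₃ := by
  unfold crossSum
  simp only [List.map_append, List.sum_append, List.sum_map_add]

theorem crossSum_nil_right (ψ : E3 → E3 → ℝ) (l₁ : List E3) : crossSum ψ l₁ [] = 0 := by
  unfold crossSum
  simp

/-! ### the pointwise lower bound for the weight -/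

theorem wt_anti {φ φ' : ℝ → ℝ} (h : ∀ r, φ r ≤ φ' r) (μ : ℝ) (l : List E3) :
    wt φ' μ l ≤ wt φ μ l := by
  unfold wt
  apply ENNReal.ofReal_le_ofReal
  apply Real.exp_le_exp.mpr
  have := pairSum_mono (ψ₁ := fun x y => φ (dist x y)) (ψ₂ := fun x y => φ' (dist x y)) (l := l)
    (fun x _ y _ => h (dist x y))
  linarith

theorem crossSum_flatten_le {ι : Type*} {D : ι → Set E3} {e : ι → ι → ℝ} {φ : ℝ → ℝ}
    (hcross : ∀ a b, a ≠ b → ∀ x ∈ D a, ∀ y ∈ D b, φ (dist x y) ≤ -(e a b)) {n : ℕ} {a : ι}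
    {l₁ : List E3} (hlen : l₁.length = n) (hl₁ : ∀ x ∈ l₁, x ∈ D a) :
    ∀ (L : List ι) (ls : List (List E3)),
      List.Forall₂ (fun a l => l.length = n ∧ ∀ x ∈ l, x ∈ D a) L ls → (∀ b ∈ L, a ≠ b) →
      crossSum (fun x y => φ (dist x y)) l₁ ls.flatten ≤ -((n : ℝ) ^ 2 * (L.map (e a)).sum) := by
  intro L ls hls
  induction hls with
  | nil =>
    intro _
    simp [crossSum_nil_right]
  | @cons b l L ls hbl _ ih =>
    intro hne
    rw [List.flatten_cons, crossSum_append_right, List.map_cons, List.sum_cons]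
    have h1 := ih fun b' hb' => hne b' (List.mem_cons_of_mem _ hb')
    have h2 : crossSum (fun x y => φ (dist x y)) l₁ l ≤ -(e a b) * ((n : ℝ) * (n : ℝ)) := by
      calc crossSum (fun x y => φ (dist x y)) l₁ l ≤ crossSum (fun _ _ => -(e a b)) l₁ l :=
            crossSum_mono fun x hx y hy =>
              hcross a b (hne b (List.mem_cons_self)) x (hl₁ x hx) y (hbl.2 y hy)
        _ = -(e a b) * ((n : ℝ) * (n : ℝ)) := by rw [crossSum_const, hlen, hbl.1]
    nlinarith

theorem wt_flatten_ge {ι : Type*} {D : ι → Set E3} {e : ι → ι → ℝ} {φ φ' : ℝ → ℝ}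
    (hle : ∀ r, φ r ≤ φ' r)
    (hcross : ∀ a b, a ≠ b → ∀ x ∈ D a, ∀ y ∈ D b, φ (dist x y) ≤ -(e a b)) (n : ℕ) (μ : ℝ) :
    ∀ (L : List ι) (ls : List (List E3)),
      List.Forall₂ (fun a l => l.length = n ∧ ∀ x ∈ l, x ∈ D a) L ls → L.Pairwise (· ≠ ·) →
      ENNReal.ofReal (Real.exp ((n : ℝ) ^ 2 * pairE e L)) * (ls.map (wt φ' μ)).prod ≤
        wt φ μ ls.flatten := by
  intro L ls hls
  induction hls with
  | nil =>
    intro _
    simp [pairE, wt_nil]
  | @cons a l L ls hal hls ih =>
    intro hpw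
    rw [List.pairwise_cons] at hpw
    have h1 := ih hpw.2
    have h2 := crossSum_flatten_le hcross hal.1 hal.2 L ls hls hpw.1
    rw [List.flatten_cons, wt_append, List.map_cons, List.prod_cons, pairE, mul_add, Real.exp_add,
      ENNReal.ofReal_mul (Real.exp_pos _).le]
    have h3 : ENNReal.ofReal (Real.exp ((n : ℝ) ^ 2 * (L.map (e a)).sum)) ≤
        ENNReal.ofReal (Real.exp (-(crossSum (fun x y => φ (dist x y)) l ls.flatten))) := by
      apply ENNReal.ofReal_le_ofReal
      apply Real.exp_le_exp.mpr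
      linarith
    calc ENNReal.ofReal (Real.exp ((n : ℝ) ^ 2 * (L.map (e a)).sum)) *
          ENNReal.ofReal (Real.exp ((n : ℝ) ^ 2 * pairE e L)) *
          (wt φ' μ l * (ls.map (wt φ' μ)).prod)
        = wt φ' μ l * (ENNReal.ofReal (Real.exp ((n : ℝ) ^ 2 * pairE e L)) *
            (ls.map (wt φ' μ)).prod) *
            ENNReal.ofReal (Real.exp ((n : ℝ) ^ 2 * (L.map (e a)).sum)) := by ring
      _ ≤ _ := mul_le_mul' (mul_le_mul' (wt_anti hle μ l) h1) h3

/-! ### the concrete estimates -/

/-- the energy gained by a pair of points in the cubes with indices `a ≠ b` -/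
noncomputable def eLow (c : ℕ → ℝ) (k : ℕ) (ℓ : ℝ) (J : ℕ) (a b : Fin 3 → ℤ) : ℝ :=
  ∑ j ∈ Finset.range J, tail k c j / (omega * Rk j ^ 3) *
    (if a ≠ b ∧ znorm (a - b) ≤ rhoj j ℓ then 1 else 0)

theorem znorm_sub_comm (a b : Fin 3 → ℤ) : znorm (a - b) = znorm (b - a) := by
  unfold znorm
  congr 1
  apply Finset.sum_congr rfl
  intro i _
  simp only [Pi.sub_apply]
  push_cast
  ring

theorem eLow_symm (c : ℕ → ℝ) (k : ℕ) (ℓ : ℝ) (J : ℕ) (a b : Fin 3 → ℤ) :
    eLow c k ℓ J a b = eLow c k ℓ J b a := by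
  unfold eLow
  apply Finset.sum_congr rfl
  intro j _
  rw [znorm_sub_comm a b]
  simp only [ne_comm]

theorem eLow_self (c : ℕ → ℝ) (k : ℕ) (ℓ : ℝ) (J : ℕ) (a : Fin 3 → ℤ) :
    eLow c k ℓ J a a = 0 := by
  unfold eLow
  simp

theorem phiC_le_trunc {c : ℕ → ℝ} (hc : Adm c) (k : ℕ) (r : ℝ) :
    phiC c r ≤ phiC (trunc k c) r := by
  unfold phiC
  have : vpot (trunc k c) r ≤ vpot c r := by
    apply vpot_mono (hc.trunc k) hc
    intro j
    unfold trunc
    split_ifs
    · exact le_rfl
    · exact hc.nonneg j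
  linarith

theorem phiC_cross_le {c : ℕ → ℝ} (hc : Adm c) (k : ℕ) {ℓ : ℝ} (hℓ : 0 < ℓ) (J : ℕ)
    (a b : Fin 3 → ℤ) (hab : a ≠ b) (x : E3) (hx : x ∈ tbox ℓ 0 (ℓ + 2) a) (y : E3)
    (hy : y ∈ tbox ℓ 0 (ℓ + 2) b) : phiC c (dist x y) ≤ -(eLow c k ℓ J a b) := by
  have h2 : 2 ≤ dist x y := two_le_dist_of_mem_tbox hℓ.le hab hx hy
  have hd : dist x y ≤ (ℓ + 2) * znorm (a - b) + Real.sqrt 3 * ℓ :=
    dist_le_of_mem_tbox (by linarith) hx hy
  unfold phiC
  rw [if_neg (not_lt.mpr h2), zero_sub, neg_le_neg_iff]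
  unfold vpot eLow
  calc ∑ j ∈ Finset.range J, tail k c j / (omega * Rk j ^ 3) *
        (if a ≠ b ∧ znorm (a - b) ≤ rhoj j ℓ then 1 else 0)
      ≤ ∑ j ∈ Finset.range J, c j * Kk j (dist x y) := by
        apply Finset.sum_le_sum
        intro j _
        have hpos : 0 < omega * Rk j ^ 3 := by
          have := omega_pos; have := Rk_pos j; positivity
        have htail : tail k c j ≤ c j := by
          unfold tail
          split_ifs
          · exact hc.nonneg j
          · exact le_rfl
        by_cases hz : a ≠ b ∧ znorm (a - b) ≤ rhoj j ℓ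
        · rw [if_pos hz, mul_one]
          have hR : dist x y ≤ Rk j := by
            have h3 : (ℓ + 2) * znorm (a - b) ≤ (ℓ + 2) * rhoj j ℓ :=
              mul_le_mul_of_nonneg_left hz.2 (by linarith)
            have h4 : (ℓ + 2) * rhoj j ℓ = Rk j - Real.sqrt 3 * ℓ := by
              unfold rhoj
              field_simp
            linarith
          unfold Kk
          rw [if_pos hR, mul_one_div]
          exact div_le_div_of_nonneg_right htail hpos.le
        · rw [if_neg hz, mul_zero]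
          exact mul_nonneg (hc.nonneg j) (Kk_nonneg j _)
    _ ≤ ∑' j, c j * Kk j (dist x y) :=
        (summable_mul_Kk hc (dist x y)).sum_le_tsum _
          fun j _ => mul_nonneg (hc.nonneg j) (Kk_nonneg j _)

theorem pairE_eLow (c : ℕ → ℝ) (k : ℕ) (ℓ : ℝ) (J M : ℕ) :
    pairE (eLow c k ℓ J) (idxCube M).toList =
      1 / 2 * ∑ j ∈ Finset.range J,
        tail k c j / (omega * Rk j ^ 3) * (nearPairs M (rhoj j ℓ) : ℝ) := by
  have h := two_mul_pairE (eLow_symm c k ℓ J) (eLow_self c k ℓ J) (idxCube M).toList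
  have h2 : ((idxCube M).toList.map fun a => ((idxCube M).toList.map (eLow c k ℓ J a)).sum).sum =
      ∑ j ∈ Finset.range J, tail k c j / (omega * Rk j ^ 3) * (nearPairs M (rhoj j ℓ) : ℝ) := by
    simp only [Finset.sum_map_toList]
    unfold eLow nearPairs
    simp_rw [Finset.sum_comm (s := idxCube M) (t := Finset.range J)]
    apply Finset.sum_congr rfl
    intro j _
    simp_rw [← Finset.mul_sum]
    congr 1
    rw [Finset.card_filter, Finset.sum_product]
    push_cast
    rfl
  rw [h2] at h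
  linarith

theorem cTerm_tbox_wt {φ : ℝ → ℝ} (hφ : Measurable φ) (ℓ p s : ℝ) (a : Fin 3 → ℤ) (μ : ℝ) (n : ℕ) :
    cTerm (tbox ℓ p s a) (wt φ μ) n =
      ENNReal.ofReal (Real.exp (μ * (n : ℝ))) * cTerm (box ℓ) (wt φ 0) n := by
  unfold tbox
  rw [cTerm_translate]
  simp only [wt_translate]
  exact cTerm_wt hφ (box ℓ) μ n

/-- **Finite volume lower bound**: `n` particles in each of `M^3` cubes of side `ℓ` separated by
corridors of width `2`; the scales `k ≤ j < J` act between different cubes. -/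
theorem Xi_lower {c : ℕ → ℝ} (hc : Adm c) (k : ℕ) {ℓ : ℝ} (hℓ : 0 < ℓ) (n M J : ℕ) (μ : ℝ) :
    (ENNReal.ofReal (Real.exp (μ * (n : ℝ))) * cTerm (box ℓ) (wt (phiC (trunc k c)) 0) n) ^ (M ^ 3) *
      ENNReal.ofReal (Real.exp ((n : ℝ) ^ 2 / 2 * ∑ j ∈ Finset.range J,
        tail k c j / (omega * Rk j ^ 3) * (nearPairs M (rhoj j ℓ) : ℝ))) ≤
    Xi (phiC c) (box ((M : ℝ) * (ℓ + 2))) μ := by
  set D : (Fin 3 → ℤ) → Set E3 := fun a => tbox ℓ 0 (ℓ + 2) a with hD
  set L : List (Fin 3 → ℤ) := (idxCube M).toList with hL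
  have hnd : L.Pairwise (· ≠ ·) := (idxCube M).nodup_toList
  have hdis : L.Pairwise (fun a b => Disjoint (D a) (D b)) :=
    hnd.imp fun hab => tbox_disjoint hℓ.le hab
  have hmk : Measurable (phiC (trunc k c)) := measurable_phiC (hc.trunc k)
  have key := cI_list_ge (D := D) (fun a => measurableSet_tbox ℓ 0 (ℓ + 2) a)
    (wt_cmeas hmk μ) n L hdis (wt (phiC c) μ) (wt_cmeas (measurable_phiC hc) μ) (wt_perm _ _)
    (ENNReal.ofReal (Real.exp ((n : ℝ) ^ 2 * pairE (eLow c k ℓ J) L)))
    (fun ls hls => wt_flatten_ge (phiC_le_trunc hc k) (phiC_cross_le hc k hℓ J) n μ L ls hls hnd)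
  have hprod : (L.map fun a => cTerm (D a) (wt (phiC (trunc k c)) μ) n).prod =
      (ENNReal.ofReal (Real.exp (μ * (n : ℝ))) * cTerm (box ℓ) (wt (phiC (trunc k c)) 0) n) ^
        (M ^ 3) := by
    have : (L.map fun a => cTerm (D a) (wt (phiC (trunc k c)) μ) n) =
        List.replicate L.length
          (ENNReal.ofReal (Real.exp (μ * (n : ℝ))) * cTerm (box ℓ) (wt (phiC (trunc k c)) 0) n) := by
      rw [List.eq_replicate_iff]
      refine ⟨by simp, ?_⟩
      intro t ht
      rw [List.mem_map] at ht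
      obtain ⟨a, _, rfl⟩ := ht
      exact cTerm_tbox_wt hmk ℓ 0 (ℓ + 2) a μ n
    rw [this, List.prod_replicate, hL, Finset.length_toList, card_idxCube]
  have hexp : (n : ℝ) ^ 2 * pairE (eLow c k ℓ J) L = (n : ℝ) ^ 2 / 2 * ∑ j ∈ Finset.range J,
        tail k c j / (omega * Rk j ^ 3) * (nearPairs M (rhoj j ℓ) : ℝ) := by
    rw [hL, pairE_eLow]
    ring
  rw [hprod, hexp, mul_comm] at key
  refine key.trans ?_
  unfold Xi
  apply cI_mono_set
  apply lUnion_subset
  intro b hb
  exact tbox_subset_box hℓ.le (Finset.mem_toList.mp hb) (by linarith)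

end Vale.Agent.P171
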