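import Vale.Agent.P171.LowerA

/-!
# P171: the mean-field lower bound for the pressure
-/

namespace Vale.Agent.P171

open MeasureTheory Set Filter Topology
open scoped ENNReal

theorem nu_eq_zero_of_neg {ρ : ℝ} (h : ρ < 0) : nu ρ = 0 := by
  unfold nu
  have h0 : zball ρ = ∅ := by
    ext v
    simp only [zball, Set.mem_ofPred_eq, Set.mem_empty_iff_false, iff_false, not_le]
    exact lt_of_lt_of_le h (Real.sqrt_nonneg _)
  rw [h0, Set.ncard_empty]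

/-- asymptotic lower bound for the number of near pairs -/
theorem nearPairs_eventually_ge (ρ : ℝ) :
    ∀ᶠ M : ℕ in atTop, (1 - 2 * (ρ + 1) / (M : ℝ)) ^ 3 * max 0 ((nu ρ : ℝ) - 1) * (M : ℝ) ^ 3 ≤
      (nearPairs M ρ : ℝ) := by
  rcases le_or_gt ((nu ρ : ℝ) - 1) 0 with h | h
  · refine Filter.Eventually.of_forall fun M => ?_
    rw [max_eq_left h]
    simp
  · have hρ : 0 ≤ ρ := by
      by_contra hneg
      rw [nu_eq_zero_of_neg (not_le.mp hneg)] at h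
      norm_num at h
    obtain ⟨M0, hM0⟩ := exists_nat_gt (2 * (ρ + 1))
    filter_upwards [eventually_ge_atTop M0] with M hM
    have hM' : (2 * (ρ + 1) : ℝ) < (M : ℝ) :=
      lt_of_lt_of_le hM0 (by exact_mod_cast hM)
    have hMpos : (0 : ℝ) < (M : ℝ) := by linarith
    rw [max_eq_right h.le]
    rcases card_near_pairs_ge M hρ with h1 | h1
    · have e : (1 - 2 * (ρ + 1) / (M : ℝ)) ^ 3 * ((nu ρ : ℝ) - 1) * (M : ℝ) ^ 3 =
          ((M : ℝ) - 2 * (ρ + 1)) ^ 3 * ((nu ρ : ℝ) - 1) := by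
        field_simp
      rw [e]
      exact h1
    · exact absurd h1 (not_lt.mpr hM'.le)

theorem tendsto_nearPairs_bound (ρ : ℝ) :
    Tendsto (fun M : ℕ => (1 - 2 * (ρ + 1) / (M : ℝ)) ^ 3 * max 0 ((nu ρ : ℝ) - 1)) atTop
      (𝓝 (max 0 ((nu ρ : ℝ) - 1))) := by
  have h1 : Tendsto (fun M : ℕ => 2 * (ρ + 1) / (M : ℝ)) atTop (𝓝 0) :=
    tendsto_const_div_atTop_nhds_zero_nat _
  have h2 : Tendsto (fun M : ℕ => (1 - 2 * (ρ + 1) / (M : ℝ)) ^ 3) atTop (𝓝 ((1 - 0) ^ 3)) :=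
    (tendsto_const_nhds.sub h1).pow 3
  have h3 := h2.mul_const (max 0 ((nu ρ : ℝ) - 1))
  simpa using h3

/-- the finite volume bound in logarithmic form -/
theorem log_lower {c : ℕ → ℝ} (hc : Adm c) (k : ℕ) {ℓ : ℝ} (hℓ : 0 < ℓ) (n : ℕ) (μ τ : ℝ)
    (hτ : cTerm (box ℓ) (wt (phiC (trunc k c)) 0) n = ENNReal.ofReal (Real.exp τ)) (M J : ℕ) :
    (M : ℝ) ^ 3 * (μ * (n : ℝ) + τ) + (n : ℝ) ^ 2 / 2 * ∑ j ∈ Finset.range J,
        tail k c j / (omega * Rk j ^ 3) * (nearPairs M (rhoj j ℓ) : ℝ) ≤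
      logXi (phiC c) ((M : ℝ) * (ℓ + 2)) μ := by
  have h := Xi_lower hc k hℓ n M J μ
  rw [hτ, ← ENNReal.ofReal_mul (Real.exp_nonneg _), ← Real.exp_add,
    ← ENNReal.ofReal_pow (Real.exp_nonneg _), ← Real.exp_nat_mul,
    ← ENNReal.ofReal_mul (Real.exp_nonneg _), ← Real.exp_add,
    ← ofReal_exp_logXi (good_phiC hc)] at h
  rw [ENNReal.ofReal_le_ofReal_iff (Real.exp_nonneg _), Real.exp_le_exp] at h
  push_cast at h
  linarith

theorem tail_nonneg {c : ℕ → ℝ} (hc : Adm c) (k j : ℕ) : 0 ≤ tail k c j := by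
  unfold tail
  split_ifs
  · exact le_rfl
  · exact hc.nonneg j

theorem tail_mul_qq (c : ℕ → ℝ) (k j : ℕ) {ℓ : ℝ} (hℓ : 0 < ℓ) :
    tail k c j / (omega * Rk j ^ 3) * max 0 ((nu (rhoj j ℓ) : ℝ) - 1) =
      tail k c j * qq j ℓ / (ℓ + 2) ^ 3 := by
  have hω := omega_pos
  have hR := Rk_pos j
  have hl : 0 < (ℓ + 2) ^ 3 := by positivity
  have hpos : 0 ≤ (ℓ + 2) ^ 3 / (omega * Rk j ^ 3) := by positivity
  have e : qq j ℓ = max 0 ((nu (rhoj j ℓ) : ℝ) - 1) * ((ℓ + 2) ^ 3 / (omega * Rk j ^ 3)) := by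
    unfold qq
    rw [max_mul_of_nonneg _ _ hpos, zero_mul, mul_div_assoc]
  rw [e]
  field_simp

/-- the bound with finitely many scales -/
theorem lower_finite {c : ℕ → ℝ} (hc : Adm c) (k : ℕ) {ℓ : ℝ} (hℓ : 0 < ℓ) (n : ℕ) (μ τ : ℝ)
    (hτ : cTerm (box ℓ) (wt (phiC (trunc k c)) 0) n = ENNReal.ofReal (Real.exp τ)) (J : ℕ) :
    (μ * (n : ℝ) + τ) + (n : ℝ) ^ 2 / (2 * (ℓ + 2) ^ 3) * ∑ j ∈ Finset.range J,
        tail k c j * qq j ℓ ≤ (ℓ + 2) ^ 3 * press (phiC c) μ := by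
  set P := press (phiC c) μ with hP
  set A := μ * (n : ℝ) + τ with hA
  -- the two sequences
  have hL : Tendsto (fun M : ℕ => A + (n : ℝ) ^ 2 / 2 * ∑ j ∈ Finset.range J,
      tail k c j / (omega * Rk j ^ 3) *
        ((1 - 2 * (rhoj j ℓ + 1) / (M : ℝ)) ^ 3 * max 0 ((nu (rhoj j ℓ) : ℝ) - 1))) atTop
      (𝓝 (A + (n : ℝ) ^ 2 / 2 * ∑ j ∈ Finset.range J,
      tail k c j / (omega * Rk j ^ 3) * max 0 ((nu (rhoj j ℓ) : ℝ) - 1))) := by
    refine tendsto_const_nhds.add (Tendsto.const_mul _ ?_)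
    refine tendsto_finsetSum _ fun j _ => ?_
    exact (tendsto_nearPairs_bound (rhoj j ℓ)).const_mul _
  have hR : Tendsto (fun M : ℕ => (ℓ + 2 + 2 / (M : ℝ)) ^ 3 * P) atTop
      (𝓝 ((ℓ + 2) ^ 3 * P)) := by
    have h1 : Tendsto (fun M : ℕ => (2 : ℝ) / (M : ℝ)) atTop (𝓝 0) :=
      tendsto_const_div_atTop_nhds_zero_nat _
    have h2 : Tendsto (fun M : ℕ => (ℓ + 2 + 2 / (M : ℝ)) ^ 3) atTop (𝓝 ((ℓ + 2 + 0) ^ 3)) :=
      (tendsto_const_nhds.add h1).pow 3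
    have h3 := h2.mul_const P
    simpa using h3
  have hev : ∀ᶠ M : ℕ in atTop, A + (n : ℝ) ^ 2 / 2 * ∑ j ∈ Finset.range J,
      tail k c j / (omega * Rk j ^ 3) *
        ((1 - 2 * (rhoj j ℓ + 1) / (M : ℝ)) ^ 3 * max 0 ((nu (rhoj j ℓ) : ℝ) - 1)) ≤
      (ℓ + 2 + 2 / (M : ℝ)) ^ 3 * P := by
    have hall : ∀ᶠ M : ℕ in atTop, ∀ j ∈ Finset.range J,
        (1 - 2 * (rhoj j ℓ + 1) / (M : ℝ)) ^ 3 * max 0 ((nu (rhoj j ℓ) : ℝ) - 1) * (M : ℝ) ^ 3 ≤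
          (nearPairs M (rhoj j ℓ) : ℝ) :=
      (Filter.eventually_all_finset _).mpr fun j _ => nearPairs_eventually_ge (rhoj j ℓ)
    filter_upwards [hall, eventually_ge_atTop 1] with M hM hM1
    have hMpos : (0 : ℝ) < (M : ℝ) := by exact_mod_cast hM1
    have hM3 : (0 : ℝ) < (M : ℝ) ^ 3 := by positivity
    have h1 := log_lower hc k hℓ n μ τ hτ M J
    have hLpos : 0 < (M : ℝ) * (ℓ + 2) := by positivity
    have h2 := le_press (good_phiC hc) hLpos μ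
    rw [div_le_iff₀ (by positivity)] at h2
    have h3 : ∑ j ∈ Finset.range J, tail k c j / (omega * Rk j ^ 3) *
        ((1 - 2 * (rhoj j ℓ + 1) / (M : ℝ)) ^ 3 * max 0 ((nu (rhoj j ℓ) : ℝ) - 1)) * (M : ℝ) ^ 3 ≤
        ∑ j ∈ Finset.range J, tail k c j / (omega * Rk j ^ 3) * (nearPairs M (rhoj j ℓ) : ℝ) := by
      refine Finset.sum_le_sum fun j hj => ?_
      rw [mul_assoc]
      refine mul_le_mul_of_nonneg_left (hM j hj) ?_
      have := tail_nonneg hc k j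
      have := omega_pos
      have := Rk_pos j
      positivity
    rw [← Finset.sum_mul] at h3
    have h4 : ((M : ℝ) * (ℓ + 2) + 2) ^ 3 = (M : ℝ) ^ 3 * (ℓ + 2 + 2 / (M : ℝ)) ^ 3 := by
      field_simp
    rw [h4] at h2
    have hn : 0 ≤ (n : ℝ) ^ 2 / 2 := by positivity
    have h5 := mul_le_mul_of_nonneg_left h3 hn
    refine le_of_mul_le_mul_left ?_ hM3
    calc (M : ℝ) ^ 3 * (A + (n : ℝ) ^ 2 / 2 * ∑ j ∈ Finset.range J,
          tail k c j / (omega * Rk j ^ 3) *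
          ((1 - 2 * (rhoj j ℓ + 1) / (M : ℝ)) ^ 3 * max 0 ((nu (rhoj j ℓ) : ℝ) - 1)))
        = (M : ℝ) ^ 3 * A + (n : ℝ) ^ 2 / 2 * ((∑ j ∈ Finset.range J,
          tail k c j / (omega * Rk j ^ 3) *
          ((1 - 2 * (rhoj j ℓ + 1) / (M : ℝ)) ^ 3 * max 0 ((nu (rhoj j ℓ) : ℝ) - 1))) *
            (M : ℝ) ^ 3) := by ring
      _ ≤ (M : ℝ) ^ 3 * A + (n : ℝ) ^ 2 / 2 * ∑ j ∈ Finset.range J,
          tail k c j / (omega * Rk j ^ 3) * (nearPairs M (rhoj j ℓ) : ℝ) := by linarith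
      _ ≤ logXi (phiC c) ((M : ℝ) * (ℓ + 2)) μ := h1
      _ ≤ P * ((M : ℝ) ^ 3 * (ℓ + 2 + 2 / (M : ℝ)) ^ 3) := h2
      _ = (M : ℝ) ^ 3 * ((ℓ + 2 + 2 / (M : ℝ)) ^ 3 * P) := by ring
  have hfin := le_of_tendsto_of_tendsto hL hR hev
  have e : ∑ j ∈ Finset.range J,
      tail k c j / (omega * Rk j ^ 3) * max 0 ((nu (rhoj j ℓ) : ℝ) - 1) =
      (∑ j ∈ Finset.range J, tail k c j * qq j ℓ) / (ℓ + 2) ^ 3 := by
    rw [Finset.sum_div]
    exact Finset.sum_congr rfl fun j _ => tail_mul_qq c k j hℓ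
  rw [e] at hfin
  have e2 : (n : ℝ) ^ 2 / (2 * (ℓ + 2) ^ 3) * ∑ j ∈ Finset.range J, tail k c j * qq j ℓ =
      (n : ℝ) ^ 2 / 2 * ((∑ j ∈ Finset.range J, tail k c j * qq j ℓ) / (ℓ + 2) ^ 3) := by
    have hl : 0 < (ℓ + 2) ^ 3 := by positivity
    field_simp
  rw [e2]
  exact hfin

/-- **Mean-field lower bound.** -/
theorem lower_bound {c : ℕ → ℝ} (hc : Adm c) (k : ℕ) {ℓ : ℝ} (hℓ : 0 < ℓ) (n : ℕ) (μ : ℝ) :
    ENNReal.ofReal (Real.exp (μ * (n : ℝ) +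
        (n : ℝ) ^ 2 / (2 * (ℓ + 2) ^ 3) * ∑' j, tail k c j * qq j ℓ)) *
      cTerm (box ℓ) (wt (phiC (trunc k c)) 0) n ≤
    ENNReal.ofReal (Real.exp ((ℓ + 2) ^ 3 * press (phiC c) μ)) := by
  set T := cTerm (box ℓ) (wt (phiC (trunc k c)) 0) n with hT
  rcases eq_or_ne T 0 with h0 | h0
  · rw [h0, mul_zero]
    exact zero_le
  have htop : T ≠ ∞ := by
    intro htop
    have h := Xi_lower hc k hℓ n 1 0 μ
    rw [← hT, htop] at h
    have hne : ENNReal.ofReal (Real.exp (μ * (n : ℝ))) ≠ 0 := by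
      simp [Real.exp_pos]
    rw [ENNReal.mul_top hne] at h
    simp only [one_pow, pow_one, Finset.range_zero, Finset.sum_empty, mul_zero, Real.exp_zero,
      ENNReal.ofReal_one, mul_one, top_le_iff] at h
    exact Xi_box_ne_top (good_phiC hc) _ μ h
  have htpos : 0 < T.toReal := ENNReal.toReal_pos h0 htop
  have hτ : T = ENNReal.ofReal (Real.exp (Real.log T.toReal)) := by
    rw [Real.exp_log htpos, ENNReal.ofReal_toReal htop]
  set τ := Real.log T.toReal with hτdef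
  have hpart := fun J => lower_finite hc k hℓ n μ τ hτ J
  have hsum : Tendsto (fun J : ℕ => (μ * (n : ℝ) + τ) + (n : ℝ) ^ 2 / (2 * (ℓ + 2) ^ 3) *
      ∑ j ∈ Finset.range J, tail k c j * qq j ℓ) atTop
      (𝓝 ((μ * (n : ℝ) + τ) + (n : ℝ) ^ 2 / (2 * (ℓ + 2) ^ 3) *
        ∑' j, tail k c j * qq j ℓ)) := by
    refine tendsto_const_nhds.add (Tendsto.const_mul _ ?_)
    exact (summable_tail_qq hc k hℓ).hasSum.tendsto_sum_nat
  have hlim := le_of_tendsto' hsum hpart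
  rw [hτ, ← ENNReal.ofReal_mul (Real.exp_nonneg _), ← Real.exp_add]
  refine ENNReal.ofReal_le_ofReal (Real.exp_le_exp.mpr ?_)
  linarith

end Vale.Agent.P171
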