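import Vale.Agent.P171.Family

/-!
# P171: the mean-field lower bound: definitions and constants
-/

namespace Vale.Agent.P171

open MeasureTheory Set Filter Topology
open scoped ENNReal

/-- radius (in units of the mesh `ℓ + 2`) within which all points of two cubes of side `ℓ` are at
distance at most `R_j` -/
noncomputable def rhoj (j : ℕ) (ℓ : ℝ) : ℝ := (Rk j - Real.sqrt 3 * ℓ) / (ℓ + 2)

/-- the constant of the lower bound for the scale `j` and cubes of side `ℓ` -/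
noncomputable def qq (j : ℕ) (ℓ : ℝ) : ℝ :=
  max 0 (((nu (rhoj j ℓ) : ℝ) - 1) * (ℓ + 2) ^ 3 / (omega * Rk j ^ 3))

theorem qq_nonneg (j : ℕ) (ℓ : ℝ) : 0 ≤ qq j ℓ := le_max_left _ _

private theorem sqrt_three_bounds : 1 ≤ Real.sqrt 3 ∧ Real.sqrt 3 ≤ 2 := by
  constructor
  · rw [show (1 : ℝ) = Real.sqrt 1 by simp]
    exact Real.sqrt_le_sqrt (by norm_num)
  · rw [show (2 : ℝ) = Real.sqrt 4 by
      rw [show (4 : ℝ) = 2 ^ 2 by norm_num]
      exact (Real.sqrt_sq (by norm_num)).symm]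
    exact Real.sqrt_le_sqrt (by norm_num)

private theorem nu_of_neg {ρ : ℝ} (hρ : ρ < 0) : nu ρ = 0 := by
  unfold nu
  have : zball ρ = ∅ := by
    ext v
    simp only [zball, Set.mem_ofPred_eq, Set.mem_empty_iff_false, iff_false, not_le]
    exact lt_of_lt_of_le hρ (Real.sqrt_nonneg _)
  rw [this]
  simp

theorem qq_le (j : ℕ) {ℓ : ℝ} (hℓ : 0 < ℓ) : qq j ℓ ≤ 8 := by
  unfold qq
  apply max_le (by norm_num)
  have hR := Rk_ge j
  have hω := omega_pos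
  have hden : 0 < omega * Rk j ^ 3 := by
    have : 0 < Rk j := by linarith
    positivity
  rw [div_le_iff₀ hden]
  have hℓ2 : 0 < ℓ + 2 := by linarith
  rcases lt_or_ge (rhoj j ℓ) 0 with hneg | hpos
  · rw [nu_of_neg hneg]
    have h1 : 0 ≤ (ℓ + 2) ^ 3 := by positivity
    have : ((0 : ℕ) : ℝ) = 0 := by norm_num
    rw [this]
    nlinarith
  · have h1 := nu_le hpos
    have h2 : (rhoj j ℓ + 1) * (ℓ + 2) = Rk j - Real.sqrt 3 * ℓ + ℓ + 2 := by
      unfold rhoj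
      field_simp
      ring
    have h3 : (rhoj j ℓ + 1) * (ℓ + 2) ≤ 2 * Rk j := by
      rw [h2]
      nlinarith [sqrt_three_bounds.1]
    have h4 : 0 ≤ (rhoj j ℓ + 1) * (ℓ + 2) := by positivity
    have h5 : ((rhoj j ℓ + 1) * (ℓ + 2)) ^ 3 ≤ (2 * Rk j) ^ 3 := pow_le_pow_left₀ h4 h3 3
    have h6 : 0 ≤ (ℓ + 2) ^ 3 := by positivity
    calc ((nu (rhoj j ℓ) : ℝ) - 1) * (ℓ + 2) ^ 3 ≤ (omega * (rhoj j ℓ + 1) ^ 3) * (ℓ + 2) ^ 3 := by
          apply mul_le_mul_of_nonneg_right _ h6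
          linarith
      _ = omega * ((rhoj j ℓ + 1) * (ℓ + 2)) ^ 3 := by ring
      _ ≤ omega * (2 * Rk j) ^ 3 := mul_le_mul_of_nonneg_left h5 hω.le
      _ = 8 * (omega * Rk j ^ 3) := by ring

/-- number of ordered pairs of distinct cubes all of whose points are within `R_j` -/
noncomputable def nearPairs (M : ℕ) (ρ : ℝ) : ℕ :=
  ((idxCube M ×ˢ idxCube M).filter fun q => q.1 ≠ q.2 ∧ znorm (q.1 - q.2) ≤ ρ).card

theorem summable_tail_qq {c : ℕ → ℝ} (hc : Adm c) (k : ℕ) {ℓ : ℝ} (hℓ : 0 < ℓ) :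
    Summable fun j => tail k c j * qq j ℓ := by
  have ht := hc.tail k
  refine Summable.of_nonneg_of_le (fun j => mul_nonneg (ht.nonneg j) (qq_nonneg j ℓ))
    (fun j => ?_) (ht.summable.mul_right 8)
  exact mul_le_mul_of_nonneg_left (qq_le j hℓ) (ht.nonneg j)

theorem qq_one_ge (j : ℕ) : 7 / 8 ≤ qq j 1 := by
  unfold qq
  apply le_max_of_le_right
  have hR := Rk_ge j
  have hω := one_le_omega
  have hden : 0 < omega * Rk j ^ 3 := by
    have : 0 < Rk j := by linarith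
    have := omega_pos
    positivity
  rw [le_div_iff₀ hden]
  obtain ⟨s1, s2⟩ := sqrt_three_bounds
  have hρ : rhoj j 1 = (Rk j - Real.sqrt 3) / 3 := by
    unfold rhoj
    norm_num
  have hρ1 : 1 ≤ rhoj j 1 := by
    rw [hρ, le_div_iff₀ (by norm_num)]
    linarith
  have h1 := le_nu hρ1
  have h2 : 27 * (rhoj j 1 - 1) ^ 3 = (Rk j - Real.sqrt 3 - 3) ^ 3 := by
    rw [hρ]
    ring
  have h3 : (Rk j - 5) ^ 3 ≤ (Rk j - Real.sqrt 3 - 3) ^ 3 :=
    pow_le_pow_left₀ (by linarith) (by linarith) 3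
  have h4 : 7 / 8 * Rk j ^ 3 + 27 ≤ (Rk j - 5) ^ 3 := by
    have a1 : 0 ≤ Rk j - 1000 := by linarith
    have a2 : 0 ≤ Rk j ^ 2 := by positivity
    nlinarith [mul_nonneg a1 a2, mul_nonneg a1 a1]
  have h5 : (7 / 8 * Rk j ^ 3 + 27) * omega ≤ (Rk j - Real.sqrt 3 - 3) ^ 3 * omega :=
    mul_le_mul_of_nonneg_right (h4.trans h3) (by linarith)
  have h6 : (27 : ℝ) ≤ 27 * omega := by linarith
  calc 7 / 8 * (omega * Rk j ^ 3) = (7 / 8 * Rk j ^ 3 + 27) * omega - 27 * omega := by ring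
    _ ≤ (Rk j - Real.sqrt 3 - 3) ^ 3 * omega - 27 := by linarith
    _ = (omega * (rhoj j 1 - 1) ^ 3 - 1) * 27 := by rw [← h2]; ring
    _ ≤ ((nu (rhoj j 1) : ℝ) - 1) * 27 := by linarith
    _ = ((nu (rhoj j 1) : ℝ) - 1) * (1 + 2) ^ 3 := by norm_num

end Vale.Agent.P171
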