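import Vale.Agent.P171.Ekeland
import Vale.Agent.P171.LSC
import Vale.Agent.P171.Lower

/-!
# P171: an almost-minimiser of `press - ρ μ - a ∑ c` on the space of admissible strengths
-/

namespace Vale.Agent.P171

open MeasureTheory Set Filter Topology
open scoped ENNReal

/-- the target density -/
noncomputable def rhobar : ℝ := 1 / 54

/-- the reward for the attraction -/
noncomputable def aa : ℝ := 1 / 3888

/-- the tolerance in the variational principle -/
noncomputable def epsE : ℝ := 1 / 100000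

/-- the space of summable sequences -/
abbrev L1 : Type := lp (fun _ : ℕ => ℝ) 1

/-- the admissible points -/
def XS : Set (L1 × ℝ) := {x | Adm (fun k => x.1 k)}

theorem L1_norm_eq (f : L1) : ‖f‖ = ∑' k, |f k| := by
  have h := lp.norm_eq_tsum_rpow (p := 1) (by simp) f
  simpa [Real.norm_eq_abs] using h

theorem L1_summable (f : L1) : Summable fun k => |f k| := by
  have h := lp.memℓp f
  have h2 := (memℓp_gen_iff (p := 1) (by simp)).1 h
  simpa [Real.norm_eq_abs] using h2

theorem L1_norm_eq_of_nonneg (f : L1) (h : ∀ k, 0 ≤ f k) : ‖f‖ = ∑' k, f k := by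
  rw [L1_norm_eq]
  exact tsum_congr fun k => abs_of_nonneg (h k)

theorem L1_norm_sub_eq (f g : L1) : ‖f - g‖ = ∑' k, |f k - g k| := by
  rw [L1_norm_eq]
  rfl

theorem adm_iff (f : L1) : Adm (fun k => f k) ↔ (∀ k, 0 ≤ f k) ∧ ‖f‖ ≤ cmax := by
  constructor
  · intro h
    refine ⟨h.nonneg, ?_⟩
    rw [L1_norm_eq_of_nonneg f h.nonneg]
    exact h.le
  · rintro ⟨h1, h2⟩
    refine ⟨h1, ?_, ?_⟩
    · have := L1_summable f
      refine this.congr fun k => ?_
      exact abs_of_nonneg (h1 k)
    · rw [← L1_norm_eq_of_nonneg f h1]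
      exact h2

theorem continuous_L1_apply (k : ℕ) : Continuous fun f : L1 => f k :=
  (continuous_apply k).comp (lp.uniformContinuous_coe (E := fun _ : ℕ => ℝ) (p := 1)).continuous

theorem isClosed_XS : IsClosed XS := by
  have h : XS = (⋂ k : ℕ, {x : L1 × ℝ | 0 ≤ x.1 k}) ∩ {x : L1 × ℝ | ‖x.1‖ ≤ cmax} := by
    ext x
    simp only [XS, Set.mem_ofPred_eq, Set.mem_inter_iff, Set.mem_iInter]
    exact adm_iff x.1
  rw [h]
  refine IsClosed.inter (isClosed_iInter fun k => ?_) ?_
  · exact isClosed_le continuous_const ((continuous_L1_apply k).comp continuous_fst)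
  · exact isClosed_le (continuous_norm.comp continuous_fst) continuous_const

/-- an admissible sequence as an element of `L1` -/
theorem exists_L1_of_adm {c : ℕ → ℝ} (hc : Adm c) : ∃ f : L1, ∀ k, f k = c k := by
  have h : Memℓp c 1 := by
    apply memℓp_gen
    have : Summable fun k => |c k| := hc.summable.abs
    simpa [Real.norm_eq_abs] using this
  exact ⟨⟨c, h⟩, fun k => rfl⟩

/-- the functional -/
noncomputable def FF (x : L1 × ℝ) : ℝ :=
  press (phiC fun k => x.1 k) x.2 - rhobar * x.2 - aa * ‖x.1‖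

theorem press_part_lsc :
    LowerSemicontinuous fun x : XS => press (phiC fun k => x.1.1 k) x.1.2 := by
  intro x y hy
  obtain ⟨δ, hδ, h⟩ := press_lsc (c := fun k => x.1.1 k) x.2 x.1.2
    (η := press (phiC fun k => x.1.1 k) x.1.2 - y) (by linarith)
  filter_upwards [Metric.ball_mem_nhds x hδ] with x' hx'
  have hd : dist x.1 x'.1 < δ := by
    rw [dist_comm]
    exact hx'
  have h1 : dist x.1.1 x'.1.1 ≤ dist x.1 x'.1 := by
    rw [Prod.dist_eq]
    exact le_max_left _ _
  have h2 : dist x.1.2 x'.1.2 ≤ dist x.1 x'.1 := by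
    rw [Prod.dist_eq]
    exact le_max_right _ _
  have := h (fun k => x'.1.1 k) x'.1.2 x'.2 (by
    rw [← L1_norm_sub_eq, ← dist_eq_norm]
    linarith) (by
    rw [← Real.dist_eq]
    linarith)
  linarith

theorem FF_lsc : LowerSemicontinuous fun x : XS => FF x.1 := by
  have h2 : Continuous fun x : XS => -(rhobar * x.1.2) - aa * ‖x.1.1‖ := by
    fun_prop
  have h := press_part_lsc.add h2.lowerSemicontinuous
  have e : (fun x : XS => FF x.1) = fun x : XS =>
      press (phiC fun k => x.1.1 k) x.1.2 + (-(rhobar * x.1.2) - aa * ‖x.1.1‖) := by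
    funext x
    unfold FF
    ring
  rw [e]
  exact h

/-- coercivity: a convex combination of `0 ≤ press` and of `press_dense` -/
theorem FF_ge {c : ℕ → ℝ} (hc : Adm c) (μ : ℝ) :
    (∑' k, c k) / 23328 ≤ press (phiC c) μ - rhobar * μ - aa * ∑' k, c k := by
  have h1 := press_nonneg (good_phiC hc) μ
  have h2 := press_dense hc μ
  unfold rhobar aa
  linarith

/-- **The almost-minimiser.** -/
theorem exists_ekeland_point :
    ∃ (c : ℕ → ℝ) (μ : ℝ), Adm c ∧ ∑' k, c k ≤ 23328 ∧
      ∀ (c' : ℕ → ℝ) (μ' : ℝ), Adm c' →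
        press (phiC c) μ - rhobar * μ - aa * ∑' k, c k ≤
          press (phiC c') μ' - rhobar * μ' - aa * ∑' k, c' k +
            epsE * (∑' k, |c k - c' k| + |μ - μ'|) := by
  have : CompleteSpace XS := isClosed_XS.completeSpace_coe
  have hFF : ∀ x : XS, FF x.1 = press (phiC fun k => x.1.1 k) x.1.2 - rhobar * x.1.2 -
      aa * ∑' k, x.1.1 k := by
    intro x
    unfold FF
    rw [L1_norm_eq_of_nonneg x.1.1 x.2.nonneg]
  have hm : ∀ x : XS, (0 : ℝ) ≤ FF x.1 := by
    intro x
    rw [hFF]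
    refine le_trans ?_ (FF_ge x.2 x.1.2)
    have : 0 ≤ ∑' k, x.1.1 k := tsum_nonneg x.2.nonneg
    positivity
  have h0 : ((0 : L1), (0 : ℝ)) ∈ XS := by
    show Adm (fun k => (0 : L1) k)
    exact Adm.zero
  have hε : 0 < epsE := by unfold epsE; norm_num
  obtain ⟨x, hx1, hx2⟩ := ekeland FF_lsc hm hε ⟨_, h0⟩
  refine ⟨fun k => x.1.1 k, x.1.2, x.2, ?_, ?_⟩
  · have h3 : FF ((0 : L1), (0 : ℝ)) ≤ 1 := by
      unfold FF
      have := press_zero_le 0
      simp only [norm_zero, mul_zero, sub_zero]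
      rw [Real.exp_zero] at this
      exact this
    have h4 := FF_ge x.2 x.1.2
    rw [← hFF] at h4
    have h5 : 0 ≤ epsE * dist (⟨_, h0⟩ : XS) x := by positivity
    have h6 : (∑' k, x.1.1 k) / 23328 ≤ 1 := by
      have : FF x.1 + epsE * dist (⟨_, h0⟩ : XS) x ≤ FF ((0 : L1), (0 : ℝ)) := hx1
      linarith
    linarith
  · intro c' μ' hc'
    obtain ⟨f, hf⟩ := exists_L1_of_adm hc'
    have hfc : (fun k => f k) = c' := funext hf
    have hy : (f, μ') ∈ XS := by
      show Adm (fun k => f k)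
      rw [hfc]
      exact hc'
    have h := hx2 ⟨_, hy⟩
    rw [hFF, hFF] at h
    simp only [hfc] at h
    have hd : dist x (⟨_, hy⟩ : XS) ≤ ∑' k, |x.1.1 k - c' k| + |x.1.2 - μ'| := by
      have e1 : dist x (⟨_, hy⟩ : XS) = max (dist x.1.1 f) (dist x.1.2 μ') := rfl
      rw [e1, dist_eq_norm, L1_norm_sub_eq, Real.dist_eq]
      simp only [hf]
      apply max_le
      · have := abs_nonneg (x.1.2 - μ')
        linarith
      · have : 0 ≤ ∑' k, |x.1.1 k - c' k| := tsum_nonneg fun k => abs_nonneg _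
        linarith
    have := mul_le_mul_of_nonneg_left hd hε.le
    linarith

end Vale.Agent.P171
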