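import Vale.Agent.P171.Kac
import Vale.Agent.P171.Variational
import Vale.Agent.P171.Analytic

/-!
# P171: a potential of the family whose pressure is not differentiable
-/

namespace Vale.Agent.P171

open MeasureTheory Set Filter Topology
open scoped ENNReal

theorem pert_nonneg {c : ℕ → ℝ} (hc : Adm c) (k : ℕ) {t : ℝ} (ht : 0 ≤ t) (j : ℕ) :
    0 ≤ pert k t c j := by
  have h0 := hc.nonneg j
  have hd := delk_pos k
  unfold pert
  split_ifs
  · positivity
  · positivity
  · exact h0

theorem pert_le {c : ℕ → ℝ} (hc : Adm c) (k : ℕ) (t : ℝ) (j : ℕ) :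
    pert k t c j ≤ c j + bump k t j := by
  have h0 := hc.nonneg j
  have hd := delk_pos k
  unfold pert bump
  split_ifs with h1 h2 h2
  · omega
  · rw [add_zero]
    exact div_le_self h0 (by linarith)
  · exact le_rfl
  · simp

theorem pert_ge {c : ℕ → ℝ} (hc : Adm c) (k : ℕ) (t : ℝ) (j : ℕ) :
    c j + bump k t j - delk k * c j ≤ pert k t c j := by
  have h0 := hc.nonneg j
  have hd := delk_pos k
  have hm : 0 ≤ delk k * c j := by positivity
  unfold pert bump
  split_ifs with h1 h2 h2
  · omega
  · linarith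
  · rw [add_zero, le_div_iff₀ (by linarith)]
    nlinarith [mul_nonneg hd.le hm]
  · linarith

theorem summable_pert {c : ℕ → ℝ} (hc : Adm c) (k : ℕ) {t : ℝ} (ht : 0 ≤ t) :
    Summable (pert k t c) :=
  Summable.of_nonneg_of_le (pert_nonneg hc k ht) (pert_le hc k t)
    (hc.summable.add (hasSum_bump k t).summable)

theorem adm_pert {c : ℕ → ℝ} (hc : Adm c) (hs : ∑' k, c k ≤ 23328) (k : ℕ) {t : ℝ} (ht : 0 ≤ t)
    (ht' : t ≤ 672) : Adm (pert k t c) := by
  refine ⟨pert_nonneg hc k ht, summable_pert hc k ht, ?_⟩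
  have h1 : ∑' j, pert k t c j ≤ ∑' j, (c j + bump k t j) :=
    (summable_pert hc k ht).tsum_le_tsum (pert_le hc k t)
      (hc.summable.add (hasSum_bump k t).summable)
  rw [hc.summable.tsum_add (hasSum_bump k t).summable, (hasSum_bump k t).tsum_eq] at h1
  unfold cmax
  linarith

theorem tsum_pert_ge {c : ℕ → ℝ} (hc : Adm c) (k : ℕ) {t : ℝ} (ht : 0 ≤ t) :
    (∑' j, c j) + t - delk k * cmax ≤ ∑' j, pert k t c j := by
  have hsum : Summable fun j => c j + bump k t j - delk k * c j :=
    (hc.summable.add (hasSum_bump k t).summable).sub (hc.summable.mul_left _)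
  have h1 : ∑' j, (c j + bump k t j - delk k * c j) ≤ ∑' j, pert k t c j :=
    hsum.tsum_le_tsum (pert_ge hc k t) (summable_pert hc k ht)
  rw [(hc.summable.add (hasSum_bump k t).summable).tsum_sub (hc.summable.mul_left _),
    hc.summable.tsum_add (hasSum_bump k t).summable, (hasSum_bump k t).tsum_eq, tsum_mul_left] at h1
  have h2 : delk k * ∑' j, c j ≤ delk k * cmax := mul_le_mul_of_nonneg_left hc.le (delk_pos k).le
  linarith

theorem tsum_abs_sub_pert_le {c : ℕ → ℝ} (hc : Adm c) (k : ℕ) {t : ℝ} (ht : 0 ≤ t) :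
    ∑' j, |c j - pert k t c j| ≤ t + delk k * cmax := by
  have hb : ∀ j, 0 ≤ bump k t j := by
    intro j
    unfold bump
    split_ifs
    · exact ht
    · exact le_rfl
  have hle : ∀ j, |c j - pert k t c j| ≤ bump k t j + delk k * c j := by
    intro j
    have h1 := pert_le hc k t j
    have h2 := pert_ge hc k t j
    have hm : 0 ≤ delk k * c j := mul_nonneg (delk_pos k).le (hc.nonneg j)
    have := hb j
    rw [abs_le]
    constructor <;> linarith
  have hsum : Summable fun j => bump k t j + delk k * c j :=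
    (hasSum_bump k t).summable.add (hc.summable.mul_left _)
  have hsum' : Summable fun j => |c j - pert k t c j| :=
    Summable.of_nonneg_of_le (fun j => abs_nonneg _) hle hsum
  have h1 := hsum'.tsum_le_tsum hle hsum
  rw [(hasSum_bump k t).summable.tsum_add (hc.summable.mul_left _), (hasSum_bump k t).tsum_eq,
    tsum_mul_left] at h1
  have h2 : delk k * ∑' j, c j ≤ delk k * cmax := mul_le_mul_of_nonneg_left hc.le (delk_pos k).le
  linarith

/-- **Main theorem of the construction.** -/
theorem exists_not_differentiable :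
    ∃ (c : ℕ → ℝ) (μ : ℝ), Adm c ∧ ¬ DifferentiableAt ℝ (press (phiC c)) μ := by
  obtain ⟨c, μ, hc, hs, hE⟩ := exists_ekeland_point
  refine ⟨c, μ, hc, fun hdiff => ?_⟩
  set G : ℝ → ℝ := fun u => press (phiC c) (μ + u) with hG
  set r : ℝ := deriv (press (phiC c)) μ with hr0
  have hder : HasDerivAt G r 0 := by
    have h1 : HasDerivAt (press (phiC c)) r (μ + 0) := by
      rw [add_zero]
      exact hdiff.hasDerivAt
    exact h1.comp_const_add μ 0
  have hG00 : G 0 = press (phiC c) μ := by simp [hG]
  -- the variational inequality in the direction of the chemical potential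
  have hsub : ∀ s : ℝ, G 0 + rhobar * s - epsE * |s| ≤ G s := by
    intro s
    have h := hE c (μ + s) hc
    have h0 : ∑' k, |c k - c k| = 0 := by simp
    have h1 : |μ - (μ + s)| = |s| := by
      rw [show μ - (μ + s) = -s by ring, abs_neg]
    rw [h0, h1] at h
    rw [hG00]
    show _ ≤ press (phiC c) (μ + s)
    linarith
  have hr : |r - rhobar| ≤ epsE := deriv_mem_of_subgradient hder hsub
  -- the variational inequality in the direction of the scale `k`
  have hcore : aa - epsE ≤ r ^ 2 / 2 := by
    have hA : (0 : ℝ) < Acore := by norm_num [Acore]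
    refine analytic_core (G := G) (b' := (aa + epsE) * cmax) (C := 2 * cmax)
      (C₁ := 1 + 2 * (μ + Acore / 2) ^ 2 / Acore) (C₂ := 2 / Acore) (tmax := 672)
      (el := ellk) (de := delk) (th := thk) (fun u => press_nonneg (good_phiC hc) _)
      (by positivity) (by positivity) ?_ hder (by norm_num) (by norm_num [cmax])
      tendsto_ellk tendsto_delk tendsto_thk thk_pos ellk_pos ?_
    · intro u _
      have h := press_le_quad hc (μ + u)
      have h2 : (μ + u + Acore / 2) ^ 2 ≤ 2 * (μ + Acore / 2) ^ 2 + 2 * u ^ 2 := by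
        nlinarith [sq_nonneg (μ + Acore / 2 - u)]
      have h3 : (μ + u + Acore / 2) ^ 2 / Acore ≤ (2 * (μ + Acore / 2) ^ 2 + 2 * u ^ 2) / Acore :=
        div_le_div_of_nonneg_right h2 hA.le
      show press (phiC c) (μ + u) ≤ _
      calc press (phiC c) (μ + u) ≤ 1 + (μ + u + Acore / 2) ^ 2 / Acore := h
        _ ≤ 1 + (2 * (μ + Acore / 2) ^ 2 + 2 * u ^ 2) / Acore := by linarith
        _ = 1 + 2 * (μ + Acore / 2) ^ 2 / Acore + 2 / Acore * u ^ 2 := by ring
    · intro k hk t ht ht' M hM
      have hd : Adm (pert k t c) := adm_pert hc hs k ht ht'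
      have hkac := kac_bound hc hk ht hd μ M (by
        intro s hs0
        have := hM s hs0
        simp only [hG] at this
        rw [show μ + 1 / ellk k + s = μ + (1 / ellk k + s) by ring]
        exact this)
      have h := hE (pert k t c) μ hd
      have h1 := tsum_pert_ge hc k ht
      have h2 := tsum_abs_sub_pert_le hc k ht
      have ha : (0 : ℝ) < aa := by norm_num [aa]
      have he : (0 : ℝ) < epsE := by norm_num [epsE]
      rw [sub_self, abs_zero, add_zero] at h
      rw [hG00]
      have h3 : aa * ((∑' j, c j) + t - delk k * cmax) ≤ aa * ∑' j, pert k t c j :=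
        mul_le_mul_of_nonneg_left h1 ha.le
      have h4 : epsE * ∑' j, |c j - pert k t c j| ≤ epsE * (t + delk k * cmax) :=
        mul_le_mul_of_nonneg_left h2 he.le
      nlinarith
  -- numerical contradiction
  have h1 : r ≤ rhobar + epsE := by have := (abs_le.mp hr).2; linarith
  have h2 : rhobar - epsE ≤ r := by have := (abs_le.mp hr).1; linarith
  have h3 : r ^ 2 ≤ (rhobar + epsE) ^ 2 := by
    apply pow_le_pow_left₀ _ h1
    have : (0 : ℝ) ≤ rhobar - epsE := by norm_num [rhobar, epsE]
    linarith
  have h4 : (rhobar + epsE) ^ 2 / 2 < aa - epsE := by norm_num [rhobar, epsE, aa]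
  linarith

end Vale.Agent.P171
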