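import Vale.Agent.P171.Defs

/-!
# P171: sums over pairs of a finite configuration (a list of points)
-/

namespace Vale.Agent.P171

open MeasureTheory Set

/-- `∑_{i<j} ψ(x_i, x_j)` for the list `x_1, …, x_N` -/
def pairSum (ψ : E3 → E3 → ℝ) : List E3 → ℝ
  | [] => 0
  | x :: l => (l.map (ψ x)).sum + pairSum ψ l

/-- `∑_{x ∈ l₁} ∑_{y ∈ l₂} ψ(x,y)` -/
def crossSum (ψ : E3 → E3 → ℝ) (l₁ l₂ : List E3) : ℝ :=
  (l₁.map fun x => (l₂.map (ψ x)).sum).sum

@[simp] theorem pairSum_nil (ψ : E3 → E3 → ℝ) : pairSum ψ [] = 0 := rfl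

@[simp] theorem pairSum_singleton (ψ : E3 → E3 → ℝ) (x : E3) : pairSum ψ [x] = 0 := by
  simp [pairSum]

theorem pairSum_cons (ψ : E3 → E3 → ℝ) (x : E3) (l : List E3) :
    pairSum ψ (x :: l) = (l.map (ψ x)).sum + pairSum ψ l := rfl

theorem pairSum_append (ψ : E3 → E3 → ℝ) (l₁ l₂ : List E3) :
    pairSum ψ (l₁ ++ l₂) = pairSum ψ l₁ + pairSum ψ l₂ + crossSum ψ l₁ l₂ := by
  induction l₁ with
  | nil => simp [crossSum]
  | cons x l ih =>
    rw [List.cons_append, pairSum_cons, pairSum_cons, ih]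
    simp only [crossSum, List.map_append, List.sum_append, List.map_cons, List.sum_cons]
    ring

theorem pairSum_perm {ψ : E3 → E3 → ℝ} (hs : ∀ x y, ψ x y = ψ y x) {l l' : List E3}
    (h : l.Perm l') : pairSum ψ l = pairSum ψ l' := by
  induction h with
  | nil => rfl
  | cons x h ih =>
    rw [pairSum_cons, pairSum_cons, ih, (h.map (ψ x)).sum_eq]
  | swap x y l =>
    simp only [pairSum_cons, List.map_cons, List.sum_cons]
    rw [hs x y]
    ring
  | trans _ _ ih₁ ih₂ => exact ih₁.trans ih₂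

theorem pairSum_add (ψ₁ ψ₂ : E3 → E3 → ℝ) (l : List E3) :
    pairSum (fun x y => ψ₁ x y + ψ₂ x y) l = pairSum ψ₁ l + pairSum ψ₂ l := by
  induction l with
  | nil => simp
  | cons x l ih =>
    rw [pairSum_cons, pairSum_cons, pairSum_cons, ih, List.sum_map_add]
    ring

theorem pairSum_const_mul (a : ℝ) (ψ : E3 → E3 → ℝ) (l : List E3) :
    pairSum (fun x y => a * ψ x y) l = a * pairSum ψ l := by
  induction l with
  | nil => simp
  | cons x l ih =>
    rw [pairSum_cons, pairSum_cons, ih, List.sum_map_mul_left]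
    ring

theorem pairSum_sub (ψ₁ ψ₂ : E3 → E3 → ℝ) (l : List E3) :
    pairSum (fun x y => ψ₁ x y - ψ₂ x y) l = pairSum ψ₁ l - pairSum ψ₂ l := by
  have h := pairSum_add ψ₁ (fun x y => (-1 : ℝ) * ψ₂ x y) l
  rw [pairSum_const_mul] at h
  have h2 : (fun x y => ψ₁ x y - ψ₂ x y) = (fun x y => ψ₁ x y + (-1 : ℝ) * ψ₂ x y) := by
    funext x y
    ring
  rw [h2, h]
  ring

theorem pairSum_zero (l : List E3) : pairSum (fun _ _ => (0 : ℝ)) l = 0 := by
  induction l with
  | nil => simp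
  | cons x l ih => rw [pairSum_cons, ih]; simp

theorem pairSum_finset_sum {ι : Type*} (s : Finset ι) (ψ : ι → E3 → E3 → ℝ) (l : List E3) :
    pairSum (fun x y => ∑ o ∈ s, ψ o x y) l = ∑ o ∈ s, pairSum (ψ o) l := by
  classical
  induction s using Finset.induction_on with
  | empty => simpa using pairSum_zero l
  | insert a s ha ih =>
    simp only [Finset.sum_insert ha]
    rw [pairSum_add, ih]

theorem list_sum_map_tsum {ψ : ℕ → E3 → ℝ} (hs : ∀ y, Summable fun k => ψ k y) (l : List E3) :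
    Summable (fun k => (l.map (ψ k)).sum) ∧
      (l.map fun y => ∑' k, ψ k y).sum = ∑' k, (l.map (ψ k)).sum := by
  induction l with
  | nil => simp [summable_zero]
  | cons x l ih =>
    simp only [List.map_cons, List.sum_cons]
    exact ⟨(hs x).add ih.1, by rw [ih.2, (hs x).tsum_add ih.1]⟩

theorem pairSum_tsum {ψ : ℕ → E3 → E3 → ℝ} (hs : ∀ x y, Summable fun k => ψ k x y) (l : List E3) :
    Summable (fun k => pairSum (ψ k) l) ∧
      pairSum (fun x y => ∑' k, ψ k x y) l = ∑' k, pairSum (ψ k) l := by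
  induction l with
  | nil => simp [summable_zero]
  | cons x l ih =>
    simp only [pairSum_cons]
    have h := list_sum_map_tsum (ψ := fun k => ψ k x) (hs x) l
    exact ⟨h.1.add ih.1, by rw [ih.2, h.2, h.1.tsum_add ih.1]⟩

/-- monotonicity; only pairs of points of the list matter -/
theorem pairSum_mono {ψ₁ ψ₂ : E3 → E3 → ℝ} {l : List E3}
    (h : ∀ x ∈ l, ∀ y ∈ l, ψ₁ x y ≤ ψ₂ x y) : pairSum ψ₁ l ≤ pairSum ψ₂ l := by
  induction l with
  | nil => simp
  | cons x l ih =>
    rw [pairSum_cons, pairSum_cons]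
    refine add_le_add ?_ (ih fun a ha b hb =>
      h a (List.mem_cons_of_mem _ ha) b (List.mem_cons_of_mem _ hb))
    exact List.sum_le_sum fun y hy => h x List.mem_cons_self y (List.mem_cons_of_mem _ hy)

theorem pairSum_congr {ψ₁ ψ₂ : E3 → E3 → ℝ} {l : List E3}
    (h : ∀ x ∈ l, ∀ y ∈ l, ψ₁ x y = ψ₂ x y) : pairSum ψ₁ l = pairSum ψ₂ l :=
  le_antisymm (pairSum_mono fun x hx y hy => (h x hx y hy).le)
    (pairSum_mono fun x hx y hy => (h x hx y hy).ge)

theorem pairSum_nonneg {ψ : E3 → E3 → ℝ} {l : List E3}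
    (h : ∀ x ∈ l, ∀ y ∈ l, 0 ≤ ψ x y) : 0 ≤ pairSum ψ l := by
  have := pairSum_mono (ψ₁ := fun _ _ => (0 : ℝ)) (ψ₂ := ψ) (l := l) h
  rwa [pairSum_zero] at this

theorem pairSum_const (a : ℝ) (l : List E3) :
    pairSum (fun _ _ => a) l = a * ((l.length : ℝ) * ((l.length : ℝ) - 1) / 2) := by
  induction l with
  | nil => simp
  | cons x l ih =>
    rw [pairSum_cons, ih]
    simp only [List.map_const', List.sum_replicate, List.length_cons, Nat.cast_add,
      Nat.cast_one]
    ring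

end Vale.Agent.P171
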