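import Vale.Agent.P171.PairSum

/-!
# P171: sums over pairs, second part
-/

namespace Vale.Agent.P171

open MeasureTheory Set

/-- the double sum in terms of the sum over pairs -/
theorem crossSum_self {ψ : E3 → E3 → ℝ} (hs : ∀ x y, ψ x y = ψ y x) (l : List E3) :
    crossSum ψ l l = 2 * pairSum ψ l + (l.map fun x => ψ x x).sum := by
  induction l with
  | nil => simp [crossSum]
  | cons x l ih =>
    have h1 : (l.map fun a => ψ a x) = l.map (ψ x) := by
      refine List.map_congr_left fun a _ => hs a x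
    unfold crossSum at ih ⊢
    simp only [List.map_cons, List.sum_cons, pairSum_cons]
    rw [List.sum_map_add, ih, h1]
    ring

theorem crossSum_mono {ψ₁ ψ₂ : E3 → E3 → ℝ} {l₁ l₂ : List E3}
    (h : ∀ x ∈ l₁, ∀ y ∈ l₂, ψ₁ x y ≤ ψ₂ x y) : crossSum ψ₁ l₁ l₂ ≤ crossSum ψ₂ l₁ l₂ := by
  unfold crossSum
  exact List.sum_le_sum fun x hx => List.sum_le_sum fun y hy => h x hx y hy

theorem crossSum_const (a : ℝ) (l₁ l₂ : List E3) :
    crossSum (fun _ _ => a) l₁ l₂ = a * ((l₁.length : ℝ) * (l₂.length : ℝ)) := by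
  unfold crossSum
  simp only [List.map_const', List.sum_replicate, nsmul_eq_mul]
  ring

theorem crossSum_eq_zero {ψ : E3 → E3 → ℝ} {l₁ l₂ : List E3}
    (h : ∀ x ∈ l₁, ∀ y ∈ l₂, ψ x y = 0) : crossSum ψ l₁ l₂ = 0 := by
  have h1 := crossSum_mono (ψ₁ := ψ) (ψ₂ := fun _ _ => 0) (l₁ := l₁) (l₂ := l₂)
    fun x hx y hy => (h x hx y hy).le
  have h2 := crossSum_mono (ψ₁ := fun _ _ => 0) (ψ₂ := ψ) (l₁ := l₁) (l₂ := l₂)
    fun x hx y hy => (h x hx y hy).ge
  rw [crossSum_const, zero_mul] at h1 h2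
  exact le_antisymm h1 h2

theorem pairSum_map (ψ : E3 → E3 → ℝ) (f : E3 → E3) (l : List E3) :
    pairSum ψ (l.map f) = pairSum (fun x y => ψ (f x) (f y)) l := by
  induction l with
  | nil => simp
  | cons x l ih =>
    rw [List.map_cons, pairSum_cons, pairSum_cons, ih, List.map_map]
    rfl

/-- the sum over pairs of a tuple as a double sum -/
theorem pairSum_ofFn_eq (ψ : E3 → E3 → ℝ) {N : ℕ} (x : Fin N → E3) :
    pairSum ψ (List.ofFn x) = ∑ i : Fin N, ∑ j : Fin N, if i < j then ψ (x i) (x j) else 0 := by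
  induction N with
  | zero => simp
  | succ n ih =>
    rw [List.ofFn_succ, pairSum_cons, ih, List.map_ofFn, List.sum_ofFn, Fin.sum_univ_succ]
    congr 1
    · rw [Fin.sum_univ_succ]
      simp
    · refine Finset.sum_congr rfl fun i _ => ?_
      rw [Fin.sum_univ_succ]
      simp

/-- comparison with the statement-level energy -/
theorem pairSum_ofFn (φ : ℝ → ℝ) {N : ℕ} (x : Fin N → E3) :
    pairSum (fun a b => φ (dist a b)) (List.ofFn x) = energy φ x :=
  pairSum_ofFn_eq _ x

theorem measurable_pairSum_ofFn {ψ : E3 → E3 → ℝ} (hψ : Measurable (fun p : E3 × E3 => ψ p.1 p.2))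
    (N : ℕ) : Measurable (fun x : Fin N → E3 => pairSum ψ (List.ofFn x)) := by
  simp_rw [pairSum_ofFn_eq]
  refine Finset.measurable_sum _ fun i _ => Finset.measurable_sum _ fun j _ => ?_
  by_cases hij : i < j
  · simp only [hij, if_true]
    have h1 : Measurable (fun x : Fin N → E3 => (x i, x j)) :=
      (measurable_pi_apply i).prodMk (measurable_pi_apply j)
    exact hψ.comp h1
  · simp only [hij, if_false]
    exact measurable_const

end Vale.Agent.P171
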