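import Vale.Agent.P171.Potential

/-!
# P171: the diagonal bound
-/

namespace Vale.Agent.P171

open MeasureTheory Set
open scoped ENNReal

private theorem sum_ite_eq_count {α : Type*} [DecidableEq α] (L : List α) (c : α) :
    (L.map fun b => if b = c then (1 : ℝ) else 0).sum = (L.count c : ℝ) := by
  induction L with
  | nil => simp
  | cons b L ih =>
    simp only [List.map_cons, List.sum_cons, ih, List.count_cons]
    by_cases h : b = c
    · simp [h, add_comm]
    · simp [h]

private theorem list_sum_finset_sum {α ι : Type*} (Z : Finset ι) (f : ι → α → ℝ) (l : List α) :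
    (l.map fun x => ∑ v ∈ Z, f v x).sum = ∑ v ∈ Z, (l.map (f v)).sum := by
  induction l with
  | nil => simp
  | cons x l ih => simp only [List.map_cons, List.sum_cons, ih, Finset.sum_add_distrib]

private theorem crossSum_finset_sum {ι : Type*} (Z : Finset ι) (ψ : ι → E3 → E3 → ℝ)
    (l₁ l₂ : List E3) :
    crossSum (fun x y => ∑ v ∈ Z, ψ v x y) l₁ l₂ = ∑ v ∈ Z, crossSum (ψ v) l₁ l₂ := by
  unfold crossSum
  rw [← list_sum_finset_sum]
  congr 1
  apply List.map_congr_left
  intro x _
  exact list_sum_finset_sum Z (fun v y => ψ v x y) l₂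

/-- shifting one of the two factors does not increase the sum of products of occupation numbers -/
private theorem shift_le (L : List (Fin 3 → ℤ)) (v : Fin 3 → ℤ) :
    (L.map fun a => (L.count (a - v) : ℝ)).sum ≤ (L.map fun a => (L.count a : ℝ)).sum := by
  classical
  rw [Finset.sum_list_map_count, Finset.sum_list_map_count]
  simp only [nsmul_eq_mul]
  set T := L.toFinset with hT
  set N : (Fin 3 → ℤ) → ℝ := fun a => (L.count a : ℝ) with hN
  have hN0 : ∀ a, a ∉ T → N a = 0 := by
    intro a ha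
    have : a ∉ L := by simpa [hT] using ha
    simp [hN, List.count_eq_zero_of_not_mem this]
  have h1 : ∑ a ∈ T, N (a - v) ^ 2 ≤ ∑ a ∈ T, N a ^ 2 := by
    have hinj : Set.InjOn (fun a : Fin 3 → ℤ => a - v) T := fun a _ b _ h => sub_left_injective h
    have e1 : ∑ a ∈ T, N (a - v) ^ 2 = ∑ b ∈ T.image (fun a => a - v), N b ^ 2 :=
      (Finset.sum_image (f := fun b => N b ^ 2) hinj).symm
    have e2 : ∑ b ∈ T.image (fun a => a - v), N b ^ 2 ≤
        ∑ b ∈ T ∪ T.image (fun a => a - v), N b ^ 2 :=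
      Finset.sum_le_sum_of_subset_of_nonneg Finset.subset_union_right
        (fun _ _ _ => sq_nonneg _)
    have e3 : ∑ b ∈ T, N b ^ 2 = ∑ b ∈ T ∪ T.image (fun a => a - v), N b ^ 2 :=
      Finset.sum_subset Finset.subset_union_left (fun b _ hb => by rw [hN0 b hb]; simp)
    rw [e1, e3]
    exact e2
  have h2 : ∑ a ∈ T, N a * N (a - v) ≤ ∑ a ∈ T, (N a ^ 2 + N (a - v) ^ 2) / 2 := by
    apply Finset.sum_le_sum
    intro a _
    nlinarith [sq_nonneg (N a - N (a - v))]
  have h3 : ∑ a ∈ T, (N a ^ 2 + N (a - v) ^ 2) / 2 =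
      (∑ a ∈ T, N a ^ 2 + ∑ a ∈ T, N (a - v) ^ 2) / 2 := by
    rw [← Finset.sum_add_distrib, Finset.sum_div]
  have h4 : ∑ a ∈ T, N a * N a = ∑ a ∈ T, N a ^ 2 := by
    apply Finset.sum_congr rfl
    intro a _
    ring
  rw [h4]
  linarith

private theorem crossSum_shift (ℓ p : ℝ) (v : Fin 3 → ℤ) (l : List E3) :
    crossSum (fun x y => if cellIdx ℓ p x - cellIdx ℓ p y = v then (1 : ℝ) else 0) l l =
      ((l.map (cellIdx ℓ p)).map fun a => (((l.map (cellIdx ℓ p)).count (a - v) : ℕ) : ℝ)).sum := by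
  unfold crossSum
  rw [List.map_map]
  congr 1
  apply List.map_congr_left
  intro x _
  simp only [Function.comp]
  rw [← sum_ite_eq_count, List.map_map]
  congr 1
  apply List.map_congr_left
  intro y _
  simp only [Function.comp]
  have : (cellIdx ℓ p x - cellIdx ℓ p y = v) ↔ (cellIdx ℓ p y = cellIdx ℓ p x - v) := by
    constructor
    · intro h; rw [← h]; abel
    · intro h; rw [h]; abel
  simp only [this]

private theorem crossSum_same (ℓ p : ℝ) (l : List E3) :
    crossSum (sameK ℓ p) l l =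
      ((l.map (cellIdx ℓ p)).map fun a => (((l.map (cellIdx ℓ p)).count a : ℕ) : ℝ)).sum := by
  have h := crossSum_shift ℓ p 0 l
  simp only [sub_zero] at h
  rw [← h]
  unfold sameK
  congr 1
  funext x y
  simp only [sub_eq_zero]

/-- **Diagonal bound.** Pairs at distance at most `R` are dominated by pairs in the same cell. -/
theorem crossSum_indK_le {ℓ : ℝ} (hℓ : 0 < ℓ) (p : ℝ) {R : ℝ} (hR : 0 ≤ R) (l : List E3) :
    crossSum (indK R) l l ≤ (nu (R / ℓ + Real.sqrt 3) : ℝ) * crossSum (sameK ℓ p) l l := by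
  classical
  set ρ := R / ℓ + Real.sqrt 3 with hρ
  set Z := (zball_finite ρ).toFinset with hZ
  have hcard : Z.card = nu ρ := (Set.ncard_eq_toFinset_card (zball ρ) (zball_finite ρ)).symm
  have h1 : crossSum (indK R) l l ≤
      crossSum (fun x y => ∑ v ∈ Z, if cellIdx ℓ p x - cellIdx ℓ p y = v then (1 : ℝ) else 0)
        l l := by
    apply crossSum_mono
    intro x _ y _
    unfold indK
    split_ifs with h
    · have hv : cellIdx ℓ p x - cellIdx ℓ p y ∈ Z := by
        rw [hZ, Set.Finite.mem_toFinset]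
        exact znorm_cellIdx_sub_le hℓ p h
      rw [Finset.sum_ite_eq Z (cellIdx ℓ p x - cellIdx ℓ p y) (fun _ => (1 : ℝ)), if_pos hv]
    · apply Finset.sum_nonneg
      intro v _
      split_ifs <;> norm_num
  rw [crossSum_finset_sum] at h1
  refine h1.trans ?_
  have h2 : ∀ v ∈ Z,
      crossSum (fun x y => if cellIdx ℓ p x - cellIdx ℓ p y = v then (1 : ℝ) else 0) l l ≤
        crossSum (sameK ℓ p) l l := by
    intro v _
    rw [crossSum_shift, crossSum_same]
    exact shift_le _ v
  refine (Finset.sum_le_sum h2).trans (le_of_eq ?_)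
  rw [Finset.sum_const, nsmul_eq_mul, hcard]

theorem pairSum_indK_le {ℓ : ℝ} (hℓ : 0 < ℓ) (p : ℝ) {R : ℝ} (hR : 0 ≤ R) (l : List E3) :
    pairSum (indK R) l ≤
      (nu (R / ℓ + Real.sqrt 3) : ℝ) * (pairSum (sameK ℓ p) l + (l.length : ℝ) / 2) := by
  have h := crossSum_indK_le hℓ p hR l
  have s1 : ∀ x y, indK R x y = indK R y x := by
    intro x y
    unfold indK
    rw [dist_comm]
  have s2 : ∀ x y, sameK ℓ p x y = sameK ℓ p y x := by
    intro x y
    unfold sameK
    simp only [eq_comm]
  rw [crossSum_self s1, crossSum_self s2] at h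
  have d1 : (l.map fun x => indK R x x).sum = (l.length : ℝ) := by
    have : (fun x : E3 => indK R x x) = fun _ => (1 : ℝ) := by
      funext x
      simp [indK, hR]
    rw [this]
    simp
  have d2 : (l.map fun x => sameK ℓ p x x).sum = (l.length : ℝ) := by
    have : (fun x : E3 => sameK ℓ p x x) = fun _ => (1 : ℝ) := by
      funext x
      simp [sameK]
    rw [this]
    simp
  rw [d1, d2] at h
  have hn : (0 : ℝ) ≤ (l.length : ℝ) := Nat.cast_nonneg _
  linarith

end Vale.Agent.P171
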