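import Vale.Agent.P171.PointwiseA

/-!
# P171: superstability
-/

namespace Vale.Agent.P171

open MeasureTheory Set
open scoped ENNReal

/-- the constant of the diagonal bound for the scale `j` and cells of side `ℓ` -/
noncomputable def kap (j : ℕ) (ℓ : ℝ) : ℝ :=
  (nu (Rk j / ℓ + Real.sqrt 3) : ℝ) * ℓ ^ 3 / (omega * Rk j ^ 3)

theorem kap_nonneg (j : ℕ) {ℓ : ℝ} (hℓ : 0 < ℓ) : 0 ≤ kap j ℓ := by
  unfold kap
  have := omega_pos; have := Rk_pos j
  positivity

theorem kap_le (j : ℕ) {ℓ : ℝ} (hℓ : 0 < ℓ) : kap j ℓ ≤ (1 + 3 * ℓ / Rk j) ^ 3 := by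
  have hω := omega_pos
  have hR := Rk_pos j
  have hs0 : 0 ≤ Real.sqrt 3 := Real.sqrt_nonneg 3
  have hs : Real.sqrt 3 ≤ 2 := by
    rw [show (2 : ℝ) = Real.sqrt 4 by
      rw [show (4 : ℝ) = 2 ^ 2 by norm_num]; exact (Real.sqrt_sq (by norm_num)).symm]
    exact Real.sqrt_le_sqrt (by norm_num)
  have hρ : 0 ≤ Rk j / ℓ + Real.sqrt 3 := by positivity
  have h1 := nu_le hρ
  unfold kap
  rw [div_le_iff₀ (by positivity)]
  have h2 : (nu (Rk j / ℓ + Real.sqrt 3) : ℝ) * ℓ ^ 3 ≤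
      omega * (Rk j / ℓ + Real.sqrt 3 + 1) ^ 3 * ℓ ^ 3 :=
    mul_le_mul_of_nonneg_right h1 (by positivity)
  refine h2.trans ?_
  have h3 : (Rk j / ℓ + Real.sqrt 3 + 1) * ℓ ≤ (1 + 3 * ℓ / Rk j) * Rk j := by
    have e1 : (Rk j / ℓ + Real.sqrt 3 + 1) * ℓ = Rk j + (Real.sqrt 3 + 1) * ℓ := by
      field_simp
      ring
    have e2 : (1 + 3 * ℓ / Rk j) * Rk j = Rk j + 3 * ℓ := by
      field_simp
    rw [e1, e2]
    nlinarith
  have h4 : ((Rk j / ℓ + Real.sqrt 3 + 1) * ℓ) ^ 3 ≤ ((1 + 3 * ℓ / Rk j) * Rk j) ^ 3 :=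
    pow_le_pow_left₀ (by positivity) h3 3
  calc omega * (Rk j / ℓ + Real.sqrt 3 + 1) ^ 3 * ℓ ^ 3
      = omega * ((Rk j / ℓ + Real.sqrt 3 + 1) * ℓ) ^ 3 := by ring
    _ ≤ omega * ((1 + 3 * ℓ / Rk j) * Rk j) ^ 3 := mul_le_mul_of_nonneg_left h4 hω.le
    _ = (1 + 3 * ℓ / Rk j) ^ 3 * (omega * Rk j ^ 3) := by ring

theorem kap_le_const (j : ℕ) {ℓ : ℝ} (hℓ : 0 < ℓ) : kap j ℓ ≤ (1 + 3 * ℓ / 1000) ^ 3 := by
  refine (kap_le j hℓ).trans ?_
  have hR := Rk_ge j
  have hR0 := Rk_pos j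
  apply pow_le_pow_left₀ (by positivity)
  have : 3 * ℓ / Rk j ≤ 3 * ℓ / 1000 :=
    div_le_div_of_nonneg_left (by positivity) (by norm_num) hR
  linarith

theorem kap_one_le_two (j : ℕ) : kap j 1 ≤ 2 := by
  refine (kap_le_const j one_pos).trans ?_
  norm_num

private theorem pairSum_Kk (j : ℕ) (l : List E3) :
    pairSum (fun x y => Kk j (dist x y)) l = 1 / (omega * Rk j ^ 3) * pairSum (indK (Rk j)) l := by
  rw [← pairSum_const_mul]
  apply pairSum_congr
  intro x _ y _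
  unfold Kk indK
  split_ifs <;> simp

/-- the attraction of the scales from `k` on is dominated by a quadratic function of the occupation
numbers of the cells -/
theorem pairSum_vpot_tail_le {c : ℕ → ℝ} (hc : Adm c) (k : ℕ) {ℓ : ℝ} (hℓ : 0 < ℓ) (p : ℝ)
    (l : List E3) :
    Summable (fun j => tail k c j * kap j ℓ) ∧
    pairSum (fun x y => vpot (tail k c) (dist x y)) l ≤
      (∑' j, tail k c j * kap j ℓ) / ℓ ^ 3 * (pairSum (sameK ℓ p) l + (l.length : ℝ) / 2) := by
  have ht := hc.tail k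
  have hsum : Summable (fun j => tail k c j * kap j ℓ) := by
    refine Summable.of_nonneg_of_le
      (fun j => mul_nonneg (ht.nonneg j) (kap_nonneg j hℓ))
      (fun j => mul_le_mul_of_nonneg_left (kap_le_const j hℓ) (ht.nonneg j))
      (ht.summable.mul_right _)
  refine ⟨hsum, ?_⟩
  obtain ⟨hs1, he1⟩ := pairSum_tsum
    (ψ := fun j x y => tail k c j * Kk j (dist x y))
    (fun x y => summable_mul_Kk ht (dist x y)) l
  have he2 : pairSum (fun x y => vpot (tail k c) (dist x y)) l =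
      ∑' j, pairSum (fun x y => tail k c j * Kk j (dist x y)) l := he1
  rw [he2]
  set S := pairSum (sameK ℓ p) l + (l.length : ℝ) / 2 with hS
  have hterm : ∀ j, pairSum (fun x y => tail k c j * Kk j (dist x y)) l ≤
      tail k c j * kap j ℓ * (S / ℓ ^ 3) := by
    intro j
    rw [pairSum_const_mul, pairSum_Kk]
    have hω := omega_pos
    have hR := Rk_pos j
    have h1 := pairSum_indK_le hℓ p hR.le l
    have h2 : 1 / (omega * Rk j ^ 3) * pairSum (indK (Rk j)) l ≤
        1 / (omega * Rk j ^ 3) * ((nu (Rk j / ℓ + Real.sqrt 3) : ℝ) * S) :=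
      mul_le_mul_of_nonneg_left h1 (by positivity)
    have h3 : 1 / (omega * Rk j ^ 3) * ((nu (Rk j / ℓ + Real.sqrt 3) : ℝ) * S) =
        kap j ℓ * (S / ℓ ^ 3) := by
      unfold kap
      field_simp
    rw [h3] at h2
    calc tail k c j * (1 / (omega * Rk j ^ 3) * pairSum (indK (Rk j)) l)
        ≤ tail k c j * (kap j ℓ * (S / ℓ ^ 3)) := mul_le_mul_of_nonneg_left h2 (ht.nonneg j)
      _ = tail k c j * kap j ℓ * (S / ℓ ^ 3) := by ring
  have h5 := Summable.tsum_le_tsum hterm hs1 (hsum.mul_right _)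
  refine h5.trans (le_of_eq ?_)
  rw [tsum_mul_right]
  ring

/-- pairs in the same unit cell feel the core -/
theorem pairSum_sameK_le_coreK (p : ℝ) (l : List E3) :
    pairSum (sameK 1 p) l ≤ pairSum coreK l := by
  apply pairSum_mono
  intro x _ y _
  unfold sameK coreK
  by_cases h : cellIdx 1 p x = cellIdx 1 p y
  · rw [if_pos h, if_pos (dist_lt_two_of_cellIdx_eq p h)]
  · rw [if_neg h]
    split_ifs <;> norm_num

private theorem tail_zero (c : ℕ → ℝ) : tail 0 c = c := by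
  funext j
  simp [tail]

private theorem pairSum_sameK_nonneg (ℓ p : ℝ) (l : List E3) : 0 ≤ pairSum (sameK ℓ p) l := by
  apply pairSum_nonneg
  intro x _ y _
  unfold sameK
  split_ifs <;> norm_num

/-- **Superstability.** -/
theorem superstable_phiC {c : ℕ → ℝ} (hc : Adm c) (l : List E3) :
    (Acore - 2 * cmax) * pairSum (sameK 1 0) l - cmax * (l.length : ℝ) ≤
      pairSum (fun x y => phiC c (dist x y)) l := by
  obtain ⟨hs, h1⟩ := pairSum_vpot_tail_le hc 0 one_pos 0 l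
  rw [tail_zero] at hs h1
  have hS : 0 ≤ pairSum (sameK 1 0) l + (l.length : ℝ) / 2 := by
    have := pairSum_sameK_nonneg 1 0 l
    positivity
  have h2 : ∑' j, c j * kap j 1 ≤ 2 * cmax := by
    have h3 : ∑' j, c j * kap j 1 ≤ ∑' j, c j * 2 :=
      Summable.tsum_le_tsum
        (fun j => mul_le_mul_of_nonneg_left (kap_one_le_two j) (hc.nonneg j)) hs
        (hc.summable.mul_right 2)
    rw [tsum_mul_right] at h3
    linarith [hc.le]
  have h4 : pairSum (fun x y => vpot c (dist x y)) l ≤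
      2 * cmax * (pairSum (sameK 1 0) l + (l.length : ℝ) / 2) := by
    refine h1.trans ?_
    apply mul_le_mul_of_nonneg_right _ hS
    simpa using h2
  have hdec : pairSum (fun x y => phiC c (dist x y)) l =
      Acore * pairSum coreK l - pairSum (fun x y => vpot c (dist x y)) l := by
    rw [← pairSum_const_mul, ← pairSum_sub]
    apply pairSum_congr
    intro x _ y _
    unfold phiC coreK
    split_ifs <;> simp
  rw [hdec]
  have h5 := pairSum_sameK_le_coreK 0 l
  have hA : (0 : ℝ) ≤ Acore := by norm_num [Acore]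
  nlinarith

theorem stable_phiC {c : ℕ → ℝ} (hc : Adm c) (l : List E3) :
    -(cmax * (l.length : ℝ)) ≤ pairSum (fun x y => phiC c (dist x y)) l := by
  have h1 := superstable_phiC hc l
  have h2 := pairSum_sameK_nonneg 1 0 l
  have h3 : (0 : ℝ) ≤ Acore - 2 * cmax := by norm_num [Acore, cmax]
  nlinarith [mul_nonneg h3 h2]

end Vale.Agent.P171
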