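import Vale.Agent.P171.Potential

/-!
# P171: choice of a shifted grid
-/

namespace Vale.Agent.P171

open MeasureTheory Set
open scoped ENNReal

/-- a grid plane between two reals with different cell index -/
private theorem exists_plane {ℓ p s t : ℝ} (hℓ : 0 < ℓ) (hst : s ≤ t)
    (h : ⌊(s - p) / ℓ⌋ ≠ ⌊(t - p) / ℓ⌋) :
    ∃ k : ℤ, s < p + (k : ℝ) * ℓ ∧ p + (k : ℝ) * ℓ ≤ t := by
  have hle : (s - p) / ℓ ≤ (t - p) / ℓ := by
    apply div_le_div_of_nonneg_right _ hℓ.le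
    linarith
  have hlt : ⌊(s - p) / ℓ⌋ < ⌊(t - p) / ℓ⌋ := lt_of_le_of_ne (Int.floor_mono hle) h
  refine ⟨⌊(t - p) / ℓ⌋, ?_, ?_⟩
  · have h1 : (s - p) / ℓ < (⌊(s - p) / ℓ⌋ : ℝ) + 1 := Int.lt_floor_add_one _
    have h2 : (⌊(s - p) / ℓ⌋ : ℝ) + 1 ≤ (⌊(t - p) / ℓ⌋ : ℝ) := by exact_mod_cast hlt
    have h3 : (s - p) / ℓ < (⌊(t - p) / ℓ⌋ : ℝ) := lt_of_lt_of_le h1 h2
    rw [div_lt_iff₀ hℓ] at h3
    linarith
  · have h1 : (⌊(t - p) / ℓ⌋ : ℝ) ≤ (t - p) / ℓ := Int.floor_le _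
    rw [le_div_iff₀ hℓ] at h1
    linarith

/-- in one coordinate at most one offset separates -/
private theorem offset_unique_aux {w : ℝ} (hw : 0 < w) {m : ℕ} (hm : 0 < m) {s t : ℝ}
    (hst : s ≤ t) (h : t - s ≤ w / 2) {o o' : ℕ} (ho : o < m) (ho' : o' < m)
    (h1 : ⌊(s - ((o : ℝ) + 1 / 2) * w) / ((m : ℝ) * w)⌋ ≠
      ⌊(t - ((o : ℝ) + 1 / 2) * w) / ((m : ℝ) * w)⌋)
    (h2 : ⌊(s - ((o' : ℝ) + 1 / 2) * w) / ((m : ℝ) * w)⌋ ≠
      ⌊(t - ((o' : ℝ) + 1 / 2) * w) / ((m : ℝ) * w)⌋) : o = o' := by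
  have hℓ : 0 < (m : ℝ) * w := by positivity
  obtain ⟨k, a1, a2⟩ := exists_plane hℓ hst h1
  obtain ⟨k', b1, b2⟩ := exists_plane hℓ hst h2
  have e : ((o : ℤ) + k * m) = ((o' : ℤ) + k' * m) := by
    have c1 : (((o : ℤ) + k * m : ℤ) : ℝ) - (((o' : ℤ) + k' * m : ℤ) : ℝ) < 1 := by
      push_cast
      have : (((o : ℝ) + k * m) - ((o' : ℝ) + k' * m)) * w < 1 * w := by nlinarith
      exact lt_of_mul_lt_mul_right this hw.le
    have c2 : (((o' : ℤ) + k' * m : ℤ) : ℝ) - (((o : ℤ) + k * m : ℤ) : ℝ) < 1 := by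
      push_cast
      have : (((o' : ℝ) + k' * m) - ((o : ℝ) + k * m)) * w < 1 * w := by nlinarith
      exact lt_of_mul_lt_mul_right this hw.le
    have d1 : ((o : ℤ) + k * m) - ((o' : ℤ) + k' * m) < 1 := by exact_mod_cast c1
    have d2 : ((o' : ℤ) + k' * m) - ((o : ℤ) + k * m) < 1 := by exact_mod_cast c2
    omega
  have e1 : ((o : ℤ) + k * m) % (m : ℤ) = o := by
    rw [Int.add_mul_emod_self_right]
    exact Int.emod_eq_of_lt (by positivity) (by exact_mod_cast ho)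
  have e2 : ((o' : ℤ) + k' * m) % (m : ℤ) = o' := by
    rw [Int.add_mul_emod_self_right]
    exact Int.emod_eq_of_lt (by positivity) (by exact_mod_cast ho')
  have : (o : ℤ) = o' := by rw [← e1, ← e2, e]
  exact_mod_cast this

private theorem offset_unique {w : ℝ} (hw : 0 < w) {m : ℕ} (hm : 0 < m) {s t : ℝ}
    (h : |s - t| ≤ w / 2) {o o' : ℕ} (ho : o < m) (ho' : o' < m)
    (h1 : ⌊(s - ((o : ℝ) + 1 / 2) * w) / ((m : ℝ) * w)⌋ ≠
      ⌊(t - ((o : ℝ) + 1 / 2) * w) / ((m : ℝ) * w)⌋)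
    (h2 : ⌊(s - ((o' : ℝ) + 1 / 2) * w) / ((m : ℝ) * w)⌋ ≠
      ⌊(t - ((o' : ℝ) + 1 / 2) * w) / ((m : ℝ) * w)⌋) : o = o' := by
  rcases le_total s t with hst | hst
  · exact offset_unique_aux hw hm hst (by rw [abs_le] at h; linarith [h.1]) ho ho' h1 h2
  · exact offset_unique_aux hw hm hst (by rw [abs_le] at h; linarith [h.2]) ho ho' h1.symm h2.symm

/-- For two points at distance at most `w/2`, at most three of the `m` shifted grids of mesh `m w`
separate them. -/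
theorem card_bad_offsets_le {w : ℝ} (hw : 0 < w) {m : ℕ} (hm : 0 < m) {x y : E3}
    (h : dist x y ≤ w / 2) :
    ((Finset.range m).filter fun o : ℕ =>
      cellIdx ((m : ℝ) * w) (((o : ℝ) + 1 / 2) * w) x ≠
        cellIdx ((m : ℝ) * w) (((o : ℝ) + 1 / 2) * w) y).card ≤ 3 := by
  classical
  have hcoord : ∀ i : Fin 3, |x i - y i| ≤ w / 2 := by
    intro i
    have h1 : ‖(x - y) i‖ ≤ ‖x - y‖ := PiLp.norm_apply_le (x - y) i
    rw [← dist_eq_norm] at h1
    have h2 : (x - y) i = x i - y i := rfl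
    rw [h2, Real.norm_eq_abs] at h1
    linarith
  set S : Fin 3 → Finset ℕ := fun i => (Finset.range m).filter fun o : ℕ =>
    ⌊(x i - ((o : ℝ) + 1 / 2) * w) / ((m : ℝ) * w)⌋ ≠
      ⌊(y i - ((o : ℝ) + 1 / 2) * w) / ((m : ℝ) * w)⌋ with hS
  have hsub : ((Finset.range m).filter fun o : ℕ =>
      cellIdx ((m : ℝ) * w) (((o : ℝ) + 1 / 2) * w) x ≠
        cellIdx ((m : ℝ) * w) (((o : ℝ) + 1 / 2) * w) y) ⊆ Finset.univ.biUnion S := by
    intro o ho
    rw [Finset.mem_filter] at ho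
    obtain ⟨ho1, ho2⟩ := ho
    have : ∃ i, cellIdx ((m : ℝ) * w) (((o : ℝ) + 1 / 2) * w) x i ≠
        cellIdx ((m : ℝ) * w) (((o : ℝ) + 1 / 2) * w) y i := by
      by_contra hcon
      push Not at hcon
      exact ho2 (funext hcon)
    obtain ⟨i, hi⟩ := this
    rw [Finset.mem_biUnion]
    exact ⟨i, Finset.mem_univ _, by rw [hS]; exact Finset.mem_filter.mpr ⟨ho1, hi⟩⟩
  have hone : ∀ i, (S i).card ≤ 1 := by
    intro i
    rw [Finset.card_le_one]
    intro o ho o' ho'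
    rw [hS] at ho ho'
    simp only [Finset.mem_filter, Finset.mem_range] at ho ho'
    exact offset_unique hw hm (hcoord i) ho.1 ho'.1 ho.2 ho'.2
  calc _ ≤ (Finset.univ.biUnion S).card := Finset.card_le_card hsub
    _ ≤ ∑ i, (S i).card := Finset.card_biUnion_le
    _ ≤ ∑ _i : Fin 3, 1 := Finset.sum_le_sum fun i _ => hone i
    _ = 3 := by simp

/-- **Choice of the grid.** For a nonnegative kernel of range at most `w/2` there is a shifted grid
such that the pairs separated by the grid carry a small part of the sum. -/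
theorem exists_offset {w : ℝ} (hw : 0 < w) {m : ℕ} (hm : 4 ≤ m) {v : E3 → E3 → ℝ}
    (hv : ∀ x y, 0 ≤ v x y) (hsupp : ∀ x y, w / 2 < dist x y → v x y = 0) (l : List E3) :
    ∃ o ∈ Finset.range m, pairSum v l ≤ (1 + 3 / ((m : ℝ) - 3)) *
      pairSum (fun x y => sameK ((m : ℝ) * w) (((o : ℝ) + 1 / 2) * w) x y * v x y) l := by
  classical
  have hm0 : 0 < m := by omega
  have hmR : (4 : ℝ) ≤ (m : ℝ) := by exact_mod_cast hm
  have hm3 : (0 : ℝ) < (m : ℝ) - 3 := by linarith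
  have hmpos : (0 : ℝ) < (m : ℝ) := by linarith
  -- pointwise bound
  have hpt : ∀ x y : E3, ((m : ℝ) - 3) * v x y ≤
      ∑ o ∈ Finset.range m, sameK ((m : ℝ) * w) (((o : ℝ) + 1 / 2) * w) x y * v x y := by
    intro x y
    rw [← Finset.sum_mul]
    by_cases hd : dist x y ≤ w / 2
    · apply mul_le_mul_of_nonneg_right _ (hv x y)
      have hbad := card_bad_offsets_le hw hm0 hd
      have hsplit := Finset.card_filter_add_card_filter_not (s := Finset.range m)
        (fun o : ℕ => cellIdx ((m : ℝ) * w) (((o : ℝ) + 1 / 2) * w) x =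
          cellIdx ((m : ℝ) * w) (((o : ℝ) + 1 / 2) * w) y)
      rw [Finset.card_range] at hsplit
      have hsum : ∑ o ∈ Finset.range m, sameK ((m : ℝ) * w) (((o : ℝ) + 1 / 2) * w) x y =
          (((Finset.range m).filter fun o : ℕ =>
            cellIdx ((m : ℝ) * w) (((o : ℝ) + 1 / 2) * w) x =
              cellIdx ((m : ℝ) * w) (((o : ℝ) + 1 / 2) * w) y).card : ℝ) := by
        unfold sameK
        rw [Finset.sum_boole]
      rw [hsum]
      have : (m : ℝ) ≤ (((Finset.range m).filter fun o : ℕ =>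
            cellIdx ((m : ℝ) * w) (((o : ℝ) + 1 / 2) * w) x =
              cellIdx ((m : ℝ) * w) (((o : ℝ) + 1 / 2) * w) y).card : ℝ) + 3 := by
        have h' : m ≤ ((Finset.range m).filter fun o : ℕ =>
            cellIdx ((m : ℝ) * w) (((o : ℝ) + 1 / 2) * w) x =
              cellIdx ((m : ℝ) * w) (((o : ℝ) + 1 / 2) * w) y).card + 3 := by
          have hbad' : ((Finset.range m).filter fun o : ℕ =>
            ¬ cellIdx ((m : ℝ) * w) (((o : ℝ) + 1 / 2) * w) x =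
              cellIdx ((m : ℝ) * w) (((o : ℝ) + 1 / 2) * w) y).card ≤ 3 := hbad
          omega
        exact_mod_cast h'
      linarith
    · rw [hsupp x y (not_le.mp hd)]
      simp
  have hsum : ((m : ℝ) - 3) * pairSum v l ≤ ∑ o ∈ Finset.range m,
      pairSum (fun x y => sameK ((m : ℝ) * w) (((o : ℝ) + 1 / 2) * w) x y * v x y) l := by
    rw [← pairSum_const_mul, ← pairSum_finset_sum]
    exact pairSum_mono fun x _ y _ => hpt x y
  have hne : (Finset.range m).Nonempty := ⟨0, Finset.mem_range.mpr hm0⟩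
  obtain ⟨o, ho, hle⟩ := Finset.exists_le_of_sum_le (s := Finset.range m) hne
    (f := fun _ : ℕ => ((m : ℝ) - 3) / m * pairSum v l)
    (g := fun o : ℕ => pairSum (fun x y => sameK ((m : ℝ) * w) (((o : ℝ) + 1 / 2) * w) x y * v x y) l)
    (by
      rw [Finset.sum_const, Finset.card_range, nsmul_eq_mul]
      have : (m : ℝ) * (((m : ℝ) - 3) / m * pairSum v l) = ((m : ℝ) - 3) * pairSum v l := by
        field_simp
      rw [this]
      exact hsum)
  refine ⟨o, ho, ?_⟩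
  have e : (1 + 3 / ((m : ℝ) - 3)) = (m : ℝ) / ((m : ℝ) - 3) := by
    field_simp
    ring
  rw [e]
  have hpos : 0 < (m : ℝ) / ((m : ℝ) - 3) := by positivity
  calc pairSum v l = (m : ℝ) / ((m : ℝ) - 3) * (((m : ℝ) - 3) / m * pairSum v l) := by
        field_simp
    _ ≤ _ := mul_le_mul_of_nonneg_left hle hpos.le

end Vale.Agent.P171
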