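import Vale.Agent.P171.Geometry
import Vale.Agent.P171.PairSumB

/-!
# P171: the family of potentials

`φ_c(r) = A 1[r < 2] - ∑_k c_k 1[r ≤ R_k] / (ω R_k^3)`, with `c ≥ 0`, `∑ c_k ≤ cmax`.
-/

namespace Vale.Agent.P171

open MeasureTheory Set
open scoped ENNReal

/-- strength of the repulsive core -/
def Acore : ℝ := 100000

/-- bound for the total strength of the attractive tails -/
def cmax : ℝ := 24000

/-- the ranges of the attractive tails -/
noncomputable def Rk : ℕ → ℝ
  | 0 => 1000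
  | k + 1 => 2 * ((k : ℝ) + 5) ^ 2 * Rk k

theorem Rk_ge (k : ℕ) : 1000 ≤ Rk k := by
  induction k with
  | zero => simp [Rk]
  | succ k ih =>
    have h1 : (1 : ℝ) ≤ 2 * ((k : ℝ) + 5) ^ 2 := by nlinarith [Nat.cast_nonneg (α := ℝ) k]
    calc (1000 : ℝ) ≤ Rk k := ih
      _ = 1 * Rk k := (one_mul _).symm
      _ ≤ 2 * ((k : ℝ) + 5) ^ 2 * Rk k := by
        apply mul_le_mul_of_nonneg_right h1 (by linarith)

theorem Rk_pos (k : ℕ) : 0 < Rk k := by linarith [Rk_ge k]

theorem Rk_mono : Monotone Rk := by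
  apply monotone_nat_of_le_succ
  intro k
  have h1 : (1 : ℝ) ≤ 2 * ((k : ℝ) + 5) ^ 2 := by nlinarith [Nat.cast_nonneg (α := ℝ) k]
  calc Rk k = 1 * Rk k := (one_mul _).symm
    _ ≤ 2 * ((k : ℝ) + 5) ^ 2 * Rk k := mul_le_mul_of_nonneg_right h1 (Rk_pos k).le

/-- the normalised indicator of the ball of radius `R_k` -/
noncomputable def Kk (k : ℕ) (r : ℝ) : ℝ := if r ≤ Rk k then 1 / (omega * Rk k ^ 3) else 0

theorem Kk_nonneg (k : ℕ) (r : ℝ) : 0 ≤ Kk k r := by
  unfold Kk
  split_ifs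
  · have := omega_pos; have := Rk_pos k; positivity
  · exact le_rfl

theorem one_le_omega_mul_Rk (k : ℕ) : 1 ≤ omega * Rk k ^ 3 := by
  have h1 := one_le_omega
  have h2 : (1 : ℝ) ≤ Rk k := by linarith [Rk_ge k]
  have h3 : (1 : ℝ) ≤ Rk k ^ 3 := one_le_pow₀ h2
  calc (1 : ℝ) = 1 * 1 := (one_mul _).symm
    _ ≤ omega * Rk k ^ 3 := mul_le_mul h1 h3 zero_le_one (by linarith)

theorem Kk_le_one (k : ℕ) (r : ℝ) : Kk k r ≤ 1 := by
  unfold Kk
  split_ifs
  · rw [div_le_one (by linarith [one_le_omega_mul_Rk k])]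
    exact one_le_omega_mul_Rk k
  · exact zero_le_one

theorem Kk_antitone (k : ℕ) : Antitone (Kk k) := by
  intro r r' h
  unfold Kk
  have hpos : 0 ≤ 1 / (omega * Rk k ^ 3) := by
    have := one_le_omega_mul_Rk k
    positivity
  by_cases h1 : r' ≤ Rk k
  · rw [if_pos h1, if_pos (h.trans h1)]
  · rw [if_neg h1]
    split_ifs
    · exact hpos
    · exact le_rfl

/-- the attractive part -/
noncomputable def vpot (c : ℕ → ℝ) (r : ℝ) : ℝ := ∑' k, c k * Kk k r

/-- the potential -/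
noncomputable def phiC (c : ℕ → ℝ) (r : ℝ) : ℝ := (if r < 2 then Acore else 0) - vpot c r

/-- admissible sequences of strengths -/
structure Adm (c : ℕ → ℝ) : Prop where
  nonneg : ∀ k, 0 ≤ c k
  summable : Summable c
  le : ∑' k, c k ≤ cmax

/-- the strengths of the scales below `k` -/
def trunc (k : ℕ) (c : ℕ → ℝ) : ℕ → ℝ := fun j => if j < k then c j else 0

/-- the strengths of the scales from `k` on -/
def tail (k : ℕ) (c : ℕ → ℝ) : ℕ → ℝ := fun j => if j < k then 0 else c j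

theorem Adm.zero : Adm (fun _ => 0) := ⟨fun _ => le_rfl, summable_zero, by simp [cmax]⟩

theorem Adm.of_le {c d : ℕ → ℝ} (hc : Adm c) (h0 : ∀ j, 0 ≤ d j) (h : ∀ j, d j ≤ c j) : Adm d :=
  ⟨h0, Summable.of_nonneg_of_le h0 h hc.summable,
    ((Summable.of_nonneg_of_le h0 h hc.summable).tsum_le_tsum h hc.summable).trans hc.le⟩

theorem Adm.trunc {c : ℕ → ℝ} (hc : Adm c) (k : ℕ) : Adm (trunc k c) := by
  apply hc.of_le
  · intro j
    unfold Vale.Agent.P171.trunc
    split_ifs
    · exact hc.nonneg j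
    · exact le_rfl
  · intro j
    unfold Vale.Agent.P171.trunc
    split_ifs
    · exact le_rfl
    · exact hc.nonneg j

theorem Adm.tail {c : ℕ → ℝ} (hc : Adm c) (k : ℕ) : Adm (tail k c) := by
  apply hc.of_le
  · intro j
    unfold Vale.Agent.P171.tail
    split_ifs
    · exact le_rfl
    · exact hc.nonneg j
  · intro j
    unfold Vale.Agent.P171.tail
    split_ifs
    · exact hc.nonneg j
    · exact le_rfl

theorem mul_Kk_le {c : ℕ → ℝ} (hc : Adm c) (r : ℝ) (k : ℕ) : c k * Kk k r ≤ c k := by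
  calc c k * Kk k r ≤ c k * 1 := mul_le_mul_of_nonneg_left (Kk_le_one k r) (hc.nonneg k)
    _ = c k := mul_one _

theorem summable_mul_Kk {c : ℕ → ℝ} (hc : Adm c) (r : ℝ) : Summable fun k => c k * Kk k r :=
  Summable.of_nonneg_of_le (fun k => mul_nonneg (hc.nonneg k) (Kk_nonneg k r))
    (mul_Kk_le hc r) hc.summable

theorem vpot_nonneg {c : ℕ → ℝ} (hc : Adm c) (r : ℝ) : 0 ≤ vpot c r :=
  tsum_nonneg fun k => mul_nonneg (hc.nonneg k) (Kk_nonneg k r)

theorem vpot_le {c : ℕ → ℝ} (hc : Adm c) (r : ℝ) : vpot c r ≤ cmax :=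
  ((summable_mul_Kk hc r).tsum_le_tsum (mul_Kk_le hc r) hc.summable).trans hc.le

theorem vpot_antitone {c : ℕ → ℝ} (hc : Adm c) : Antitone (vpot c) := by
  intro r r' h
  exact (summable_mul_Kk hc r').tsum_le_tsum
    (fun k => mul_le_mul_of_nonneg_left (Kk_antitone k h) (hc.nonneg k)) (summable_mul_Kk hc r)

theorem measurable_phiC {c : ℕ → ℝ} (hc : Adm c) : Measurable (phiC c) := by
  unfold phiC
  apply Measurable.sub
  · exact Measurable.ite measurableSet_Iio measurable_const measurable_const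
  · exact (vpot_antitone hc).measurable

theorem vpot_trunc_add_tail {c : ℕ → ℝ} (hc : Adm c) (k : ℕ) (r : ℝ) :
    vpot c r = vpot (trunc k c) r + vpot (tail k c) r := by
  unfold vpot
  rw [← (summable_mul_Kk (hc.trunc k) r).tsum_add (summable_mul_Kk (hc.tail k) r)]
  apply tsum_congr
  intro j
  unfold trunc tail
  split_ifs <;> ring

theorem vpot_mono {c d : ℕ → ℝ} (hc : Adm c) (hd : Adm d) (h : ∀ k, c k ≤ d k) (r : ℝ) :
    vpot c r ≤ vpot d r :=
  (summable_mul_Kk hc r).tsum_le_tsum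
    (fun k => mul_le_mul_of_nonneg_right (h k) (Kk_nonneg k r)) (summable_mul_Kk hd r)

/-- the short scales do not reach beyond `R_{k-1}` -/
theorem vpot_trunc_eq_zero {c : ℕ → ℝ} {k : ℕ} {r w : ℝ} (hw : ∀ j < k, Rk j ≤ w) (hr : w < r) :
    vpot (trunc k c) r = 0 := by
  unfold vpot
  rw [← tsum_zero (α := ℝ) (β := ℕ)]
  apply tsum_congr
  intro j
  unfold trunc Kk
  by_cases hj : j < k
  · rw [if_pos hj, if_neg (not_le.mpr ((hw j hj).trans_lt hr)), mul_zero]
  · rw [if_neg hj, zero_mul]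

theorem phiC_nonpos {c : ℕ → ℝ} (hc : Adm c) {r : ℝ} (hr : 2 ≤ r) : phiC c r ≤ 0 := by
  unfold phiC
  rw [if_neg (not_lt.mpr hr)]
  linarith [vpot_nonneg hc r]

theorem abs_phiC_le {c : ℕ → ℝ} (hc : Adm c) (r : ℝ) : |phiC c r| ≤ Acore + cmax := by
  have h1 := vpot_nonneg hc r
  have h2 := vpot_le hc r
  have h3 : (0 : ℝ) ≤ Acore := by unfold Acore; norm_num
  have h4 : (0 : ℝ) ≤ cmax := by unfold cmax; norm_num
  unfold phiC
  rw [abs_le]
  split_ifs <;> constructor <;> linarith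

/-- the indicator kernels -/
noncomputable def indK (R : ℝ) (x y : E3) : ℝ := if dist x y ≤ R then 1 else 0

noncomputable def coreK (x y : E3) : ℝ := if dist x y < 2 then 1 else 0

noncomputable def sameK (ℓ p : ℝ) (x y : E3) : ℝ := if cellIdx ℓ p x = cellIdx ℓ p y then 1 else 0

/-- the energy in terms of the indicator kernels -/
theorem pairSum_phiC {c : ℕ → ℝ} (hc : Adm c) (l : List E3) :
    Summable (fun k => c k / (omega * Rk k ^ 3) * pairSum (indK (Rk k)) l) ∧
    pairSum (fun x y => phiC c (dist x y)) l =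
      Acore * pairSum coreK l - ∑' k, c k / (omega * Rk k ^ 3) * pairSum (indK (Rk k)) l := by
  have hs : ∀ x y : E3, Summable fun k => c k / (omega * Rk k ^ 3) * indK (Rk k) x y := by
    intro x y
    have := summable_mul_Kk hc (dist x y)
    refine this.congr ?_
    intro k
    unfold Kk indK
    split_ifs <;> ring
  have ht := pairSum_tsum (ψ := fun k x y => c k / (omega * Rk k ^ 3) * indK (Rk k) x y) hs l
  simp only [pairSum_const_mul] at ht
  refine ⟨ht.1, ?_⟩
  rw [← ht.2, ← pairSum_const_mul, ← pairSum_sub]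
  apply pairSum_congr
  intro x _ y _
  unfold phiC vpot coreK
  congr 1
  · split_ifs <;> simp
  · apply tsum_congr
    intro k
    unfold Kk indK
    split_ifs <;> ring

end Vale.Agent.P171
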