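import Vale.Agent.P171.ConfigProd
import Vale.Agent.P171.Potential

/-!
# P171: grand canonical partition functions and the pressure: definitions and basic bounds
-/

namespace Vale.Agent.P171

open MeasureTheory Set Filter Topology
open scoped ENNReal

/-- the Boltzmann weight `exp(μ N - U)` -/
noncomputable def wt (φ : ℝ → ℝ) (μ : ℝ) (l : List E3) : ℝ≥0∞ :=
  ENNReal.ofReal (Real.exp (μ * (l.length : ℝ) - pairSum (fun x y => φ (dist x y)) l))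

/-- the grand canonical partition function in the region `Λ` -/
noncomputable def Xi (φ : ℝ → ℝ) (Λ : Set E3) (μ : ℝ) : ℝ≥0∞ := cI Λ (wt φ μ)

/-- the pressure -/
noncomputable def press (φ : ℝ → ℝ) (μ : ℝ) : ℝ :=
  ⨆ ℓ : {ℓ : ℝ // 0 < ℓ}, Real.log (Xi φ (box ℓ) μ).toReal / ((ℓ : ℝ) + 2) ^ 3

/-- the class of potentials for which the thermodynamic limit is elementary -/
structure Good (φ : ℝ → ℝ) (B : ℝ) : Prop where
  meas : Measurable φ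
  stab : ∀ l : List E3, -(B * (l.length : ℝ)) ≤ pairSum (fun x y => φ (dist x y)) l
  attr : ∀ r : ℝ, 2 ≤ r → φ r ≤ 0

theorem wt_nil (φ : ℝ → ℝ) (μ : ℝ) : wt φ μ [] = 1 := by
  simp [wt]

theorem wt_cmeas {φ : ℝ → ℝ} (hφ : Measurable φ) (μ : ℝ) : CMeas (wt φ μ) := by
  intro N
  unfold wt
  refine ENNReal.measurable_ofReal.comp (Real.measurable_exp.comp ?_)
  simp only [List.length_ofFn]
  refine measurable_const.sub ?_
  exact measurable_pairSum_ofFn (ψ := fun x y => φ (dist x y))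
    (hφ.comp (measurable_fst.dist measurable_snd)) N

theorem wt_perm (φ : ℝ → ℝ) (μ : ℝ) : PermInv (wt φ μ) := by
  intro l l' h
  unfold wt
  rw [h.length_eq, pairSum_perm (fun x y => by rw [dist_comm]) h]

theorem wt_translate (φ : ℝ → ℝ) (μ : ℝ) (v : E3) (l : List E3) :
    wt φ μ (l.map fun x => v + x) = wt φ μ l := by
  unfold wt
  rw [pairSum_map, List.length_map]
  simp only [dist_add_left]

theorem wt_append (φ : ℝ → ℝ) (μ : ℝ) (l₁ l₂ : List E3) :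
    wt φ μ (l₁ ++ l₂) = wt φ μ l₁ * wt φ μ l₂ *
      ENNReal.ofReal (Real.exp (-(crossSum (fun x y => φ (dist x y)) l₁ l₂))) := by
  unfold wt
  rw [← ENNReal.ofReal_mul (Real.exp_pos _).le, ← ENNReal.ofReal_mul (by positivity),
    ← Real.exp_add, ← Real.exp_add, pairSum_append, List.length_append]
  congr 2
  push_cast
  ring

/-- the `N`-particle term of `Xi` -/
theorem cTerm_wt {φ : ℝ → ℝ} (hφ : Measurable φ) (Λ : Set E3) (μ : ℝ) (N : ℕ) :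
    cTerm Λ (wt φ μ) N = ENNReal.ofReal (Real.exp (μ * (N : ℝ))) * cTerm Λ (wt φ 0) N := by
  rw [← cTerm_length_mul Λ (fun n => ENNReal.ofReal (Real.exp (μ * (n : ℝ)))) (wt φ 0)
    (wt_cmeas hφ 0) N]
  congr 1
  funext l
  unfold wt
  rw [← ENNReal.ofReal_mul (Real.exp_pos _).le, ← Real.exp_add]
  congr 2
  ring

theorem Xi_translate (φ : ℝ → ℝ) (Λ : Set E3) (v : E3) (μ : ℝ) :
    Xi φ ((fun x => v + x) '' Λ) μ = Xi φ Λ μ := by
  unfold Xi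
  rw [cI_translate]
  congr 1
  funext l
  exact wt_translate φ μ v l

theorem one_le_Xi (φ : ℝ → ℝ) (Λ : Set E3) (μ : ℝ) : 1 ≤ Xi φ Λ μ := by
  calc (1 : ℝ≥0∞) = cTerm Λ (wt φ μ) 0 := by rw [cTerm_zero, wt_nil]
    _ ≤ Xi φ Λ μ := cTerm_le_cI _ _ _

theorem Xi_mono_set (φ : ℝ → ℝ) {Λ Λ' : Set E3} (h : Λ ⊆ Λ') (μ : ℝ) : Xi φ Λ μ ≤ Xi φ Λ' μ :=
  cI_mono_set h _

theorem Xi_le {φ : ℝ → ℝ} {B : ℝ} (hφ : Good φ B) {Λ : Set E3} (hΛ : MeasurableSet Λ)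
    (hv : volume Λ ≠ ∞) (μ : ℝ) :
    Xi φ Λ μ ≤ ENNReal.ofReal (Real.exp (Real.exp (μ + B) * (volume Λ).toReal)) := by
  rw [← cI_pow_length Λ hv (Real.exp (μ + B)) (Real.exp_pos _).le]
  unfold Xi
  refine cI_mono hΛ fun l _ => ?_
  unfold wt
  refine ENNReal.ofReal_le_ofReal ?_
  rw [← Real.exp_nat_mul]
  refine Real.exp_le_exp.mpr ?_
  have := hφ.stab l
  nlinarith

theorem Xi_box_ne_top {φ : ℝ → ℝ} {B : ℝ} (hφ : Good φ B) (L μ : ℝ) : Xi φ (box L) μ ≠ ∞ := by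
  have hv : volume (box L) ≠ ∞ := by
    rcases le_total 0 L with hL | hL
    · rw [volume_box hL]
      exact ENNReal.ofReal_ne_top
    · refine ne_top_of_le_ne_top ?_ (measure_mono (box_subset_box hL))
      rw [volume_box le_rfl]
      exact ENNReal.ofReal_ne_top
  exact ne_top_of_le_ne_top ENNReal.ofReal_ne_top (Xi_le hφ (measurableSet_box L) hv μ)

/-- logarithm of the partition function of a cube -/
noncomputable def logXi (φ : ℝ → ℝ) (L μ : ℝ) : ℝ := Real.log (Xi φ (box L) μ).toReal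

theorem logXi_nonneg {φ : ℝ → ℝ} {B : ℝ} (hφ : Good φ B) (L μ : ℝ) : 0 ≤ logXi φ L μ := by
  unfold logXi
  refine Real.log_nonneg ?_
  have h1 := one_le_Xi φ (box L) μ
  have h2 := ENNReal.toReal_mono (Xi_box_ne_top hφ L μ) h1
  simpa using h2

theorem logXi_le {φ : ℝ → ℝ} {B : ℝ} (hφ : Good φ B) {L : ℝ} (hL : 0 ≤ L) (μ : ℝ) :
    logXi φ L μ ≤ Real.exp (μ + B) * L ^ 3 := by
  unfold logXi
  have hv : volume (box L) ≠ ∞ := by
    rw [volume_box hL]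
    exact ENNReal.ofReal_ne_top
  have h1 := Xi_le hφ (measurableSet_box L) hv μ
  have h2 := ENNReal.toReal_mono ENNReal.ofReal_ne_top h1
  rw [ENNReal.toReal_ofReal (Real.exp_pos _).le, volume_box hL,
    ENNReal.toReal_ofReal (by positivity)] at h2
  have h3 : 0 < (Xi φ (box L) μ).toReal := by
    have h4 := ENNReal.toReal_mono (Xi_box_ne_top hφ L μ) (one_le_Xi φ (box L) μ)
    simp only [ENNReal.toReal_one] at h4
    linarith
  calc Real.log (Xi φ (box L) μ).toReal ≤ Real.log (Real.exp (Real.exp (μ + B) * L ^ 3)) :=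
        Real.log_le_log h3 h2
    _ = Real.exp (μ + B) * L ^ 3 := Real.log_exp _

theorem ofReal_exp_logXi {φ : ℝ → ℝ} {B : ℝ} (hφ : Good φ B) (L μ : ℝ) :
    ENNReal.ofReal (Real.exp (logXi φ L μ)) = Xi φ (box L) μ := by
  unfold logXi
  have h3 : 0 < (Xi φ (box L) μ).toReal := by
    have h4 := ENNReal.toReal_mono (Xi_box_ne_top hφ L μ) (one_le_Xi φ (box L) μ)
    simp only [ENNReal.toReal_one] at h4
    linarith
  rw [Real.exp_log h3, ENNReal.ofReal_toReal (Xi_box_ne_top hφ L μ)]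

theorem press_bddAbove {φ : ℝ → ℝ} {B : ℝ} (hφ : Good φ B) (μ : ℝ) :
    BddAbove (Set.range fun ℓ : {ℓ : ℝ // 0 < ℓ} => logXi φ ℓ μ / ((ℓ : ℝ) + 2) ^ 3) := by
  refine ⟨Real.exp (μ + B), ?_⟩
  rintro _ ⟨⟨ℓ, hℓ⟩, rfl⟩
  beta_reduce
  have h1 := logXi_le hφ hℓ.le μ
  have h2 : ℓ ^ 3 ≤ (ℓ + 2) ^ 3 := by
    have : ℓ ≤ ℓ + 2 := by linarith
    gcongr
  have h3 : 0 < (ℓ + 2) ^ 3 := by positivity
  rw [div_le_iff₀ h3]
  have h4 : Real.exp (μ + B) * ℓ ^ 3 ≤ Real.exp (μ + B) * (ℓ + 2) ^ 3 := by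
    gcongr
  linarith

theorem le_press {φ : ℝ → ℝ} {B : ℝ} (hφ : Good φ B) {ℓ : ℝ} (hℓ : 0 < ℓ) (μ : ℝ) :
    logXi φ ℓ μ / (ℓ + 2) ^ 3 ≤ press φ μ :=
  le_ciSup (press_bddAbove hφ μ) (⟨ℓ, hℓ⟩ : {ℓ : ℝ // 0 < ℓ})

theorem press_nonneg {φ : ℝ → ℝ} {B : ℝ} (hφ : Good φ B) (μ : ℝ) : 0 ≤ press φ μ := by
  refine le_trans ?_ (le_press hφ one_pos μ)
  have := logXi_nonneg hφ 1 μ
  positivity

theorem press_le_exp {φ : ℝ → ℝ} {B : ℝ} (hφ : Good φ B) (μ : ℝ) :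
    press φ μ ≤ Real.exp (μ + B) := by
  have : Nonempty {ℓ : ℝ // 0 < ℓ} := ⟨⟨1, one_pos⟩⟩
  refine ciSup_le ?_
  rintro ⟨ℓ, hℓ⟩
  have h1 := logXi_le hφ hℓ.le μ
  have h2 : ℓ ^ 3 ≤ (ℓ + 2) ^ 3 := by
    have : ℓ ≤ ℓ + 2 := by linarith
    gcongr
  have h3 : 0 < (ℓ + 2) ^ 3 := by positivity
  change logXi φ ℓ μ / (ℓ + 2) ^ 3 ≤ _
  rw [div_le_iff₀ h3]
  have h4 : Real.exp (μ + B) * ℓ ^ 3 ≤ Real.exp (μ + B) * (ℓ + 2) ^ 3 := by
    gcongr
  linarith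

/-- a smaller potential has a larger pressure -/
theorem press_anti {φ φ' : ℝ → ℝ} {B B' : ℝ} (hφ : Good φ B) (hφ' : Good φ' B')
    (h : ∀ r, φ r ≤ φ' r) (μ : ℝ) : press φ' μ ≤ press φ μ := by
  refine ciSup_mono (press_bddAbove hφ μ) ?_
  rintro ⟨ℓ, hℓ⟩
  change logXi φ' ℓ μ / (ℓ + 2) ^ 3 ≤ logXi φ ℓ μ / (ℓ + 2) ^ 3
  have h3 : 0 < (ℓ + 2) ^ 3 := by positivity
  refine div_le_div_of_nonneg_right ?_ h3.le
  unfold logXi
  have h5 : 0 < (Xi φ' (box ℓ) μ).toReal := by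
    have h4 := ENNReal.toReal_mono (Xi_box_ne_top hφ' ℓ μ) (one_le_Xi φ' (box ℓ) μ)
    simp only [ENNReal.toReal_one] at h4
    linarith
  refine Real.log_le_log h5 (ENNReal.toReal_mono (Xi_box_ne_top hφ ℓ μ) ?_)
  unfold Xi
  refine cI_mono (measurableSet_box ℓ) fun l _ => ?_
  unfold wt
  refine ENNReal.ofReal_le_ofReal (Real.exp_le_exp.mpr ?_)
  have := pairSum_mono (ψ₁ := fun x y => φ (dist x y)) (ψ₂ := fun x y => φ' (dist x y)) (l := l)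
    (fun x _ y _ => h (dist x y))
  linarith

end Vale.Agent.P171
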