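import Vale.Agent.P171.PressureA

/-!
# P171: superadditivity
-/

namespace Vale.Agent.P171

open MeasureTheory Set Filter Topology
open scoped ENNReal

/-- the partition function of `M^3` separated cubes -/
theorem Xi_pow_le {φ : ℝ → ℝ} {B : ℝ} (hφ : Good φ B) {ℓ L : ℝ} (hℓ : 0 < ℓ) (M : ℕ)
    (hL : (M : ℝ) * (ℓ + 2) ≤ L + 2) (μ : ℝ) :
    Xi φ (box ℓ) μ ^ (M ^ 3) ≤ Xi φ (box L) μ := by
  classical
  calc Xi φ (box ℓ) μ ^ (M ^ 3)
      = ∏ a ∈ idxCube M, cI (tbox ℓ 0 (ℓ + 2) a) (wt φ μ) := by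
        rw [← card_idxCube M, ← Finset.prod_const]
        apply Finset.prod_congr rfl
        intro a _
        exact (Xi_translate φ (box ℓ) (latVec 0 (ℓ + 2) a) μ).symm
    _ ≤ cI (⋃ a ∈ idxCube M, tbox ℓ 0 (ℓ + 2) a) (wt φ μ) := by
        apply cI_biUnion_ge _ _ (fun a _ => measurableSet_tbox ℓ 0 (ℓ + 2) a)
          (fun a _ b _ hab => tbox_disjoint hℓ.le hab) (wt_cmeas hφ.meas μ) (wt_perm φ μ)
          (wt_nil φ μ).ge
        intro a _ l₁ l₂ h₁ h₂
        rw [wt_append]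
        have hc : crossSum (fun x y => φ (dist x y)) l₁ l₂ ≤ 0 := by
          calc crossSum (fun x y => φ (dist x y)) l₁ l₂
              ≤ crossSum (fun _ _ => (0 : ℝ)) l₁ l₂ := by
                apply crossSum_mono
                intro x hx y hy
                obtain ⟨b, _, hba, hyb⟩ := h₂ y hy
                exact hφ.attr _ (two_le_dist_of_mem_tbox hℓ.le (fun h => hba h.symm) (h₁ x hx) hyb)
            _ = 0 := crossSum_eq_zero fun _ _ _ _ => rfl
        have h1 : (1 : ℝ≥0∞) ≤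
            ENNReal.ofReal (Real.exp (-(crossSum (fun x y => φ (dist x y)) l₁ l₂))) := by
          rw [← ENNReal.ofReal_one]
          apply ENNReal.ofReal_le_ofReal
          apply Real.one_le_exp
          linarith
        calc wt φ μ l₁ * wt φ μ l₂ = wt φ μ l₁ * wt φ μ l₂ * 1 := (mul_one _).symm
          _ ≤ _ := mul_le_mul_right h1 _
    _ ≤ cI (box L) (wt φ μ) := by
        apply cI_mono_set
        intro x hx
        simp only [Set.mem_iUnion] at hx
        obtain ⟨a, ha, hxa⟩ := hx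
        exact tbox_subset_box hℓ.le ha hL hxa

/-- **Superadditivity.** `M^3` cubes of side `ℓ`, separated by corridors of width `2`. -/
theorem logXi_superadd {φ : ℝ → ℝ} {B : ℝ} (hφ : Good φ B) {ℓ L : ℝ} (hℓ : 0 < ℓ) (M : ℕ)
    (hL : (M : ℝ) * (ℓ + 2) ≤ L + 2) (μ : ℝ) :
    (M : ℝ) ^ 3 * logXi φ ℓ μ ≤ logXi φ L μ := by
  have h := Xi_pow_le hφ hℓ M hL μ
  rw [← ofReal_exp_logXi hφ ℓ μ, ← ofReal_exp_logXi hφ L μ,
    ← ENNReal.ofReal_pow (Real.exp_pos _).le, ← Real.exp_nat_mul,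
    ENNReal.ofReal_le_ofReal_iff (Real.exp_pos _).le, Real.exp_le_exp] at h
  push_cast at h
  exact h

end Vale.Agent.P171
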