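import Vale.Agent.P171.PressureB

/-!
# P171: existence of the thermodynamic limit
-/

namespace Vale.Agent.P171

open MeasureTheory Set Filter Topology
open scoped ENNReal

theorem logXi_div_le {φ : ℝ → ℝ} {B : ℝ} (hφ : Good φ B) (μ : ℝ) {L : ℝ} (hL : 0 < L) :
    logXi φ L μ / L ^ 3 ≤ press φ μ * (1 + 2 / L) ^ 3 := by
  have h := le_press hφ hL μ
  have h2 : (0 : ℝ) < (L + 2) ^ 3 := by positivity
  rw [div_le_iff₀ h2] at h
  rw [div_le_iff₀ (by positivity)]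
  calc logXi φ L μ ≤ press φ μ * (L + 2) ^ 3 := h
    _ = press φ μ * (1 + 2 / L) ^ 3 * L ^ 3 := by
      field_simp

theorem le_logXi_div {φ : ℝ → ℝ} {B : ℝ} (hφ : Good φ B) (μ : ℝ) {ℓ L : ℝ} (hℓ : 0 < ℓ)
    (hL : ℓ ≤ L) :
    (1 - ℓ / L) ^ 3 * (logXi φ ℓ μ / (ℓ + 2) ^ 3) ≤ logXi φ L μ / L ^ 3 := by
  have hL0 : 0 < L := lt_of_lt_of_le hℓ hL
  have hs := logXi_nonneg hφ ℓ μ
  have hq : 0 ≤ (L + 2) / (ℓ + 2) := by positivity
  have hM1 : ((⌊(L + 2) / (ℓ + 2)⌋₊ : ℕ) : ℝ) ≤ (L + 2) / (ℓ + 2) := Nat.floor_le hq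
  have hM2 : (L + 2) / (ℓ + 2) < ((⌊(L + 2) / (ℓ + 2)⌋₊ : ℕ) : ℝ) + 1 := Nat.lt_floor_add_one _
  set M : ℕ := ⌊(L + 2) / (ℓ + 2)⌋₊ with hM
  have h1 : (M : ℝ) * (ℓ + 2) ≤ L + 2 := by
    rwa [le_div_iff₀ (by positivity)] at hM1
  have h2 := logXi_superadd hφ hℓ M h1 μ
  have h3 : (L - ℓ) / (ℓ + 2) ≤ (M : ℝ) := by
    have : (L - ℓ) / (ℓ + 2) = (L + 2) / (ℓ + 2) - 1 := by
      field_simp
      ring
    linarith
  have h4 : 0 ≤ (L - ℓ) / (ℓ + 2) := by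
    apply div_nonneg <;> linarith
  have h5 : ((L - ℓ) / (ℓ + 2)) ^ 3 ≤ (M : ℝ) ^ 3 := pow_le_pow_left₀ h4 h3 3
  rw [le_div_iff₀ (by positivity)]
  calc (1 - ℓ / L) ^ 3 * (logXi φ ℓ μ / (ℓ + 2) ^ 3) * L ^ 3
      = ((L - ℓ) / (ℓ + 2)) ^ 3 * logXi φ ℓ μ := by
        field_simp
    _ ≤ (M : ℝ) ^ 3 * logXi φ ℓ μ := mul_le_mul_of_nonneg_right h5 hs
    _ ≤ logXi φ L μ := h2

/-- **Existence of the thermodynamic limit.** -/
theorem tendsto_press {φ : ℝ → ℝ} {B : ℝ} (hφ : Good φ B) (μ : ℝ) :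
    Tendsto (fun L : ℝ => logXi φ L μ / L ^ 3) atTop (𝓝 (press φ μ)) := by
  rw [tendsto_order]
  constructor
  · intro a ha
    obtain ⟨⟨ℓ, hℓ⟩, hlt⟩ := exists_lt_of_lt_ciSup ha
    change a < logXi φ ℓ μ / (ℓ + 2) ^ 3 at hlt
    have ht : Tendsto (fun L : ℝ => (1 - ℓ / L) ^ 3 * (logXi φ ℓ μ / (ℓ + 2) ^ 3)) atTop
        (𝓝 ((1 - 0) ^ 3 * (logXi φ ℓ μ / (ℓ + 2) ^ 3))) := by
      apply Tendsto.mul_const
      apply Tendsto.pow
      apply Tendsto.const_sub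
      exact tendsto_const_nhds.div_atTop tendsto_id
    have hlt' : a < (1 - 0) ^ 3 * (logXi φ ℓ μ / (ℓ + 2) ^ 3) := by
      simpa using hlt
    filter_upwards [ht.eventually (lt_mem_nhds hlt'), eventually_ge_atTop ℓ] with L h1 h2
    exact lt_of_lt_of_le h1 (le_logXi_div hφ μ hℓ h2)
  · intro a ha
    have ht : Tendsto (fun L : ℝ => press φ μ * (1 + 2 / L) ^ 3) atTop
        (𝓝 (press φ μ * (1 + 0) ^ 3)) := by
      apply Tendsto.const_mul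
      apply Tendsto.pow
      apply Tendsto.const_add
      exact tendsto_const_nhds.div_atTop tendsto_id
    have hlt' : press φ μ * (1 + 0) ^ 3 < a := by
      simpa using ha
    filter_upwards [ht.eventually (gt_mem_nhds hlt'), eventually_gt_atTop 0] with L h1 h2
    exact lt_of_le_of_lt (logXi_div_le hφ μ h2) h1

end Vale.Agent.P171
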