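import Vale.Agent.P171.UpperDefs

/-!
# P171: pointwise decoupling
-/

namespace Vale.Agent.P171

open MeasureTheory Set Filter Topology
open scoped ENNReal

private theorem vpot_trunc_scale {c d : ℕ → ℝ} (k : ℕ) (a : ℝ)
    (hcd : ∀ j < k, a * d j = c j) (r : ℝ) :
    a * vpot (trunc k d) r = vpot (trunc k c) r := by
  unfold vpot
  rw [← tsum_mul_left]
  congr 1
  funext j
  unfold trunc
  by_cases hj : j < k
  · rw [if_pos hj, if_pos hj, ← hcd j hj]; ring
  · rw [if_neg hj, if_neg hj]; ring

/-- **Pointwise decoupling**: for every configuration one of the `m` shifted grids works. -/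
theorem wt_le_wtCell {c d : ℕ → ℝ} (hc : Adm c) (hd : Adm d) (k : ℕ) {w : ℝ} (hw : 0 < w) {m : ℕ}
    (hm : 4 ≤ m) (hk : ∀ j < k, 2 * Rk j ≤ w)
    (hcd : ∀ j < k, (1 + 3 / ((m : ℝ) - 3)) * d j = c j) (μ : ℝ) (l : List E3) :
    ∃ o ∈ Finset.range m, wt (phiC d) μ l ≤
      wtCell (trunc k c) (Gam k d ((m : ℝ) * w)) ((m : ℝ) * w) (((o : ℝ) + 1 / 2) * w) μ l := by
  have hm0 : (0 : ℝ) < (m : ℝ) := by
    have : (4 : ℝ) ≤ (m : ℝ) := by exact_mod_cast hm
    linarith
  have hℓ : 0 < (m : ℝ) * w := mul_pos hm0 hw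
  set ℓ := (m : ℝ) * w with hℓdef
  set a := (1 + 3 / ((m : ℝ) - 3)) with ha
  obtain ⟨o, ho, hoff⟩ := exists_offset hw hm
    (v := fun x y => vpot (trunc k d) (dist x y))
    (fun x y => vpot_nonneg (hd.trunc k) _)
    (fun x y hxy => vpot_trunc_eq_zero (w := w / 2)
      (fun j hj => by linarith [hk j hj]) hxy) l
  refine ⟨o, ho, ?_⟩
  set p := ((o : ℝ) + 1 / 2) * w with hp
  obtain ⟨-, htail⟩ := pairSum_vpot_tail_le hd k hℓ p l
  set G := Gam k d ℓ with hG
  have htail' : pairSum (fun x y => vpot (tail k d) (dist x y)) l ≤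
      G / ℓ ^ 3 * (pairSum (sameK ℓ p) l + (l.length : ℝ) / 2) := htail
  -- the short scales
  have hshort : pairSum (fun x y => vpot (trunc k d) (dist x y)) l ≤
      pairSum (fun x y => sameK ℓ p x y * vpot (trunc k c) (dist x y)) l := by
    refine hoff.trans (le_of_eq ?_)
    rw [← pairSum_const_mul]
    apply pairSum_congr
    intro x _ y _
    rw [← vpot_trunc_scale k a hcd (dist x y)]
    ring
  -- the core
  have hcore : pairSum (fun x y => sameK ℓ p x y * (if dist x y < 2 then Acore else 0)) l ≤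
      pairSum (fun x y => (if dist x y < 2 then Acore else 0)) l := by
    apply pairSum_mono
    intro x _ y _
    have h0 : (0 : ℝ) ≤ (if dist x y < 2 then Acore else 0) := by
      split_ifs
      · norm_num [Acore]
      · exact le_rfl
    unfold sameK
    split_ifs <;> simp_all
  -- decomposition of the energy
  have hdec : pairSum (fun x y => phiC d (dist x y)) l =
      pairSum (fun x y => (if dist x y < 2 then Acore else 0)) l -
        pairSum (fun x y => vpot (trunc k d) (dist x y)) l -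
        pairSum (fun x y => vpot (tail k d) (dist x y)) l := by
    rw [← pairSum_sub, ← pairSum_sub]
    apply pairSum_congr
    intro x _ y _
    unfold phiC
    rw [vpot_trunc_add_tail hd k]
    ring
  have hdec2 : pairSum (fun x y => sameK ℓ p x y * (phiC (trunc k c) (dist x y) - G / ℓ ^ 3)) l =
      pairSum (fun x y => sameK ℓ p x y * (if dist x y < 2 then Acore else 0)) l -
        pairSum (fun x y => sameK ℓ p x y * vpot (trunc k c) (dist x y)) l -
        G / ℓ ^ 3 * pairSum (sameK ℓ p) l := by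
    rw [← pairSum_const_mul, ← pairSum_sub, ← pairSum_sub]
    apply pairSum_congr
    intro x _ y _
    unfold phiC
    ring
  unfold wt wtCell
  apply ENNReal.ofReal_le_ofReal
  apply Real.exp_le_exp.mpr
  rw [hdec, hdec2]
  have e1 : G / ℓ ^ 3 * (pairSum (sameK ℓ p) l + (l.length : ℝ) / 2) =
      G / ℓ ^ 3 * pairSum (sameK ℓ p) l + G / (2 * ℓ ^ 3) * (l.length : ℝ) := by
    field_simp
  rw [e1] at htail'
  linarith

end Vale.Agent.P171
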