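import Vale.Agent.P171.UpperA

/-!
# P171: the upper bound in finite volume
-/

namespace Vale.Agent.P171

open MeasureTheory Set Filter Topology
open scoped ENNReal

theorem sameK_comm (ℓ p : ℝ) (x y : E3) : sameK ℓ p x y = sameK ℓ p y x := by
  unfold sameK
  by_cases h : cellIdx ℓ p x = cellIdx ℓ p y
  · rw [if_pos h, if_pos h.symm]
  · rw [if_neg h, if_neg (fun h' => h h'.symm)]

theorem measurable_sameK (ℓ p : ℝ) : Measurable (fun q : E3 × E3 => sameK ℓ p q.1 q.2) := by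
  unfold sameK
  refine Measurable.ite ?_ measurable_const measurable_const
  exact measurableSet_eq_fun ((measurable_cellIdx ℓ p).comp measurable_fst)
    ((measurable_cellIdx ℓ p).comp measurable_snd)

theorem wtCell_cmeas {c : ℕ → ℝ} (hc : Adm c) (G ℓ p μ : ℝ) : CMeas (wtCell c G ℓ p μ) := by
  intro N
  unfold wtCell
  refine ENNReal.measurable_ofReal.comp (Real.measurable_exp.comp ?_)
  refine Measurable.sub ?_ ?_
  · simp only [List.length_ofFn]
    exact measurable_const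
  · apply measurable_pairSum_ofFn
    refine (measurable_sameK ℓ p).mul ?_
    exact ((measurable_phiC hc).comp measurable_dist).sub measurable_const

theorem wtCell_perm (c : ℕ → ℝ) (G ℓ p μ : ℝ) : PermInv (wtCell c G ℓ p μ) := by
  intro l l' h
  unfold wtCell
  rw [h.length_eq, pairSum_perm (l := l) (l' := l') ?_ h]
  intro x y
  rw [sameK_comm, dist_comm]

theorem wtCell_nil (c : ℕ → ℝ) (G ℓ p μ : ℝ) : wtCell c G ℓ p μ [] = 1 := by
  simp [wtCell]

theorem wtCell_append (c : ℕ → ℝ) (G ℓ p μ : ℝ) {l₁ l₂ : List E3}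
    (h : ∀ x ∈ l₁, ∀ y ∈ l₂, cellIdx ℓ p x ≠ cellIdx ℓ p y) :
    wtCell c G ℓ p μ (l₁ ++ l₂) = wtCell c G ℓ p μ l₁ * wtCell c G ℓ p μ l₂ := by
  unfold wtCell
  rw [← ENNReal.ofReal_mul (Real.exp_pos _).le, ← Real.exp_add, pairSum_append,
    crossSum_eq_zero (l₁ := l₁) (l₂ := l₂), List.length_append]
  · congr 2
    push_cast
    ring
  · intro x hx y hy
    unfold sameK
    rw [if_neg (h x hx y hy), zero_mul]

theorem wtCell_eq_of_cell (c : ℕ → ℝ) (G ℓ p μ : ℝ) (a : Fin 3 → ℤ) {l : List E3}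
    (h : ∀ x ∈ l, x ∈ cellSet ℓ p a) :
    wtCell c G ℓ p μ l =
      ENNReal.ofReal (Real.exp (μ * (l.length : ℝ) + (l.length : ℝ) ^ 2 / (2 * ℓ ^ 3) * G)) *
        wt (phiC c) 0 l := by
  unfold wtCell wt
  rw [← ENNReal.ofReal_mul (Real.exp_pos _).le, ← Real.exp_add]
  have h1 : pairSum (fun x y => sameK ℓ p x y * (phiC c (dist x y) - G / ℓ ^ 3)) l =
      pairSum (fun x y => phiC c (dist x y) - G / ℓ ^ 3) l := by
    apply pairSum_congr
    intro x hx y hy
    have hx' : cellIdx ℓ p x = a := h x hx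
    have hy' : cellIdx ℓ p y = a := h y hy
    unfold sameK
    rw [if_pos (hx'.trans hy'.symm), one_mul]
  rw [h1, pairSum_sub, pairSum_const]
  congr 2
  ring

/-- one cell -/
theorem cI_cellSet_wtCell_le {c : ℕ → ℝ} (hc : Adm c) {G ℓ : ℝ} (hℓ : 0 < ℓ) (p μ : ℝ)
    (a : Fin 3 → ℤ) : cI (cellSet ℓ p a) (wtCell c G ℓ p μ) ≤ Ycell c G ℓ μ := by
  set g : ℕ → ℝ≥0∞ := fun n =>
    ENNReal.ofReal (Real.exp (μ * (n : ℝ) + (n : ℝ) ^ 2 / (2 * ℓ ^ 3) * G)) with hg
  calc cI (cellSet ℓ p a) (wtCell c G ℓ p μ)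
      ≤ cI (cellSet ℓ p a) (fun l => g l.length * wt (phiC c) 0 l) := by
        apply cI_mono (measurableSet_cellSet ℓ p a)
        intro l hl
        exact (wtCell_eq_of_cell c G ℓ p μ a hl).le
    _ ≤ cI (tbox ℓ p ℓ a) (fun l => g l.length * wt (phiC c) 0 l) :=
        cI_mono_set (cellSet_subset_tbox hℓ p a) _
    _ = cI (box ℓ) (fun l => g l.length * wt (phiC c) 0 l) := by
        unfold tbox
        rw [cI_translate]
        congr 1
        funext l
        rw [List.length_map, wt_translate]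
    _ = Ycell c G ℓ μ := by
        unfold cI Ycell
        apply tsum_congr
        intro N
        rw [cTerm_length_mul _ _ _ (wt_cmeas (measurable_phiC hc) 0)]

/-- all the cells meeting a cube -/
theorem cI_box_wtCell_le {c : ℕ → ℝ} (hc : Adm c) {G ℓ : ℝ} (hℓ : 0 < ℓ) (p μ L : ℝ) :
    cI (box L) (wtCell c G ℓ p μ) ≤ Ycell c G ℓ μ ^ (cellsOf ℓ p L).card := by
  classical
  calc cI (box L) (wtCell c G ℓ p μ)
      ≤ cI (⋃ a ∈ cellsOf ℓ p L, cellSet ℓ p a) (wtCell c G ℓ p μ) :=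
        cI_mono_set (box_subset_cells hℓ p L) _
    _ ≤ ∏ a ∈ cellsOf ℓ p L, cI (cellSet ℓ p a) (wtCell c G ℓ p μ) := by
        apply cI_biUnion_le _ _ (fun a _ => measurableSet_cellSet ℓ p a)
          (fun a _ b _ hab => cellSet_disjoint ℓ p hab) (wtCell_cmeas hc G ℓ p μ)
          (wtCell_perm c G ℓ p μ) (wtCell_nil c G ℓ p μ).le
        intro a _ l₁ l₂ h₁ h₂
        apply le_of_eq
        apply wtCell_append
        intro x hx y hy
        obtain ⟨b, _, hba, hyb⟩ := h₂ y hy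
        have hx' : cellIdx ℓ p x = a := h₁ x hx
        have hy' : cellIdx ℓ p y = b := hyb
        rw [hx', hy']
        exact fun h => hba h.symm
    _ ≤ ∏ _a ∈ cellsOf ℓ p L, Ycell c G ℓ μ :=
        Finset.prod_le_prod' fun a _ => cI_cellSet_wtCell_le hc hℓ p μ a
    _ = Ycell c G ℓ μ ^ (cellsOf ℓ p L).card := by rw [Finset.prod_const]

/-- **Finite volume upper bound.** -/
theorem Xi_upper {c d : ℕ → ℝ} (hc : Adm c) (hd : Adm d) (k : ℕ) {w : ℝ} (hw : 0 < w) {m : ℕ}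
    (hm : 4 ≤ m) (hk : ∀ j < k, 2 * Rk j ≤ w)
    (hcd : ∀ j < k, (1 + 3 / ((m : ℝ) - 3)) * d j = c j) (μ L : ℝ) :
    Xi (phiC d) (box L) μ ≤ ∑ o ∈ Finset.range m,
      Ycell (trunc k c) (Gam k d ((m : ℝ) * w)) ((m : ℝ) * w) μ ^
        (cellsOf ((m : ℝ) * w) (((o : ℝ) + 1 / 2) * w) L).card := by
  have hmw : 0 < (m : ℝ) * w := by
    have : (0 : ℝ) < m := by
      have : 0 < m := by omega
      exact_mod_cast this
    positivity
  unfold Xi
  calc cI (box L) (wt (phiC d) μ)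
      ≤ cI (box L) (fun l => ∑ o ∈ Finset.range m,
          wtCell (trunc k c) (Gam k d ((m : ℝ) * w)) ((m : ℝ) * w) (((o : ℝ) + 1 / 2) * w) μ l) := by
        apply cI_mono (measurableSet_box L)
        intro l _
        obtain ⟨o, ho, hle⟩ := wt_le_wtCell hc hd k hw hm hk hcd μ l
        refine hle.trans ?_
        exact Finset.single_le_sum (f := fun o : ℕ =>
          wtCell (trunc k c) (Gam k d ((m : ℝ) * w)) ((m : ℝ) * w) (((o : ℝ) + 1 / 2) * w) μ l)
          (fun _ _ => zero_le) ho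
    _ = ∑ o ∈ Finset.range m, cI (box L)
          (wtCell (trunc k c) (Gam k d ((m : ℝ) * w)) ((m : ℝ) * w) (((o : ℝ) + 1 / 2) * w) μ) :=
        cI_finset_sum _ _ fun o _ => wtCell_cmeas (hc.trunc k) _ _ _ _
    _ ≤ _ := Finset.sum_le_sum fun o _ => cI_box_wtCell_le (hc.trunc k) hmw _ μ L

end Vale.Agent.P171
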