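import Vale.Agent.P171.UpperB

/-!
# P171: the upper bound for the pressure
-/

namespace Vale.Agent.P171

open MeasureTheory Set Filter Topology
open scoped ENNReal

theorem one_le_Ycell (c : ℕ → ℝ) (G ℓ μ : ℝ) : 1 ≤ Ycell c G ℓ μ := by
  unfold Ycell
  refine le_trans ?_ (ENNReal.le_tsum 0)
  rw [cTerm_zero, wt_nil]
  simp

/-- the finite volume bound, after taking logarithms -/
theorem logXi_le_of_Ycell {c d : ℕ → ℝ} (hc : Adm c) (hd : Adm d) (k : ℕ) {w : ℝ} (hw : 0 < w)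
    {m : ℕ} (hm : 4 ≤ m) (hk : ∀ j < k, 2 * Rk j ≤ w)
    (hcd : ∀ j < k, (1 + 3 / ((m : ℝ) - 3)) * d j = c j) (μ : ℝ)
    (hY : Ycell (trunc k c) (Gam k d ((m : ℝ) * w)) ((m : ℝ) * w) μ ≠ ∞) {L : ℝ} (hL : 0 ≤ L) :
    logXi (phiC d) L μ ≤ Real.log m + (L / ((m : ℝ) * w) + 2) ^ 3 *
      Real.log (Ycell (trunc k c) (Gam k d ((m : ℝ) * w)) ((m : ℝ) * w) μ).toReal := by
  have hm0 : (0 : ℝ) < m := by
    have : 0 < m := by omega
    exact_mod_cast this
  have hmw : 0 < (m : ℝ) * w := by positivity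
  set Y := Ycell (trunc k c) (Gam k d ((m : ℝ) * w)) ((m : ℝ) * w) μ with hYdef
  have h1 : 1 ≤ Y := one_le_Ycell _ _ _ _
  have hy1 : 1 ≤ Y.toReal := by
    rw [← ENNReal.toReal_one]
    exact ENNReal.toReal_mono hY h1
  have hy0 : 0 < Y.toReal := by linarith
  have hlog : 0 ≤ Real.log Y.toReal := Real.log_nonneg hy1
  have hYe : Y = ENNReal.ofReal (Real.exp (Real.log Y.toReal)) := by
    rw [Real.exp_log hy0, ENNReal.ofReal_toReal hY]
  have hup := Xi_upper hc hd k hw hm hk hcd μ L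
  rw [← hYdef] at hup
  have hterm : ∀ o ∈ Finset.range m,
      Y ^ (cellsOf ((m : ℝ) * w) (((o : ℝ) + 1 / 2) * w) L).card ≤
        ENNReal.ofReal (Real.exp ((L / ((m : ℝ) * w) + 2) ^ 3 * Real.log Y.toReal)) := by
    intro o _
    have hcard := card_cellsOf_le hmw (((o : ℝ) + 1 / 2) * w) hL
    conv_lhs => rw [hYe]
    rw [← ENNReal.ofReal_pow (Real.exp_pos _).le, ← Real.exp_nat_mul]
    apply ENNReal.ofReal_le_ofReal
    rw [Real.exp_le_exp]
    exact mul_le_mul_of_nonneg_right hcard hlog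
  have h2 := hup.trans (Finset.sum_le_sum hterm)
  rw [Finset.sum_const, Finset.card_range, nsmul_eq_mul, ← ofReal_exp_logXi (good_phiC hd) L μ,
    ← ENNReal.ofReal_natCast, ← ENNReal.ofReal_mul hm0.le,
    ENNReal.ofReal_le_ofReal_iff (by positivity)] at h2
  have h3 := Real.log_le_log (Real.exp_pos _) h2
  rwa [Real.log_exp, Real.log_mul hm0.ne' (Real.exp_pos _).ne', Real.log_exp] at h3

/-- **Upper bound for the pressure.** -/
theorem upper_bound {c d : ℕ → ℝ} (hc : Adm c) (hd : Adm d) (k : ℕ) {w : ℝ} (hw : 0 < w) {m : ℕ}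
    (hm : 4 ≤ m) (hk : ∀ j < k, 2 * Rk j ≤ w)
    (hcd : ∀ j < k, (1 + 3 / ((m : ℝ) - 3)) * d j = c j) (μ : ℝ) :
    ENNReal.ofReal (Real.exp (((m : ℝ) * w) ^ 3 * press (phiC d) μ)) ≤
      Ycell (trunc k c) (Gam k d ((m : ℝ) * w)) ((m : ℝ) * w) μ := by
  by_cases hY : Ycell (trunc k c) (Gam k d ((m : ℝ) * w)) ((m : ℝ) * w) μ = ∞
  · rw [hY]
    exact le_top
  have hm0 : (0 : ℝ) < m := by
    have : 0 < m := by omega
    exact_mod_cast this
  have hmw : 0 < (m : ℝ) * w := by positivity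
  have hfin := fun (L : ℝ) (hL : 0 ≤ L) => logXi_le_of_Ycell hc hd k hw hm hk hcd μ hY hL
  set Y := Ycell (trunc k c) (Gam k d ((m : ℝ) * w)) ((m : ℝ) * w) μ with hYdef
  set ℓ : ℝ := (m : ℝ) * w with hℓ
  have h1 : 1 ≤ Y := one_le_Ycell _ _ _ _
  have hy1 : 1 ≤ Y.toReal := by
    rw [← ENNReal.toReal_one]
    exact ENNReal.toReal_mono hY h1
  have hy0 : 0 < Y.toReal := by linarith
  have ht1 := tendsto_press (good_phiC hd) μ
  have ht2 : Tendsto (fun L : ℝ => Real.log m / L ^ 3 + (1 / ℓ + 2 / L) ^ 3 * Real.log Y.toReal)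
      atTop (𝓝 (0 + (1 / ℓ + 0) ^ 3 * Real.log Y.toReal)) := by
    apply Tendsto.add
    · exact tendsto_const_nhds.div_atTop (tendsto_pow_atTop (by norm_num))
    · apply Tendsto.mul_const
      apply Tendsto.pow
      apply Tendsto.const_add
      exact tendsto_const_nhds.div_atTop tendsto_id
  have hle : press (phiC d) μ ≤ 0 + (1 / ℓ + 0) ^ 3 * Real.log Y.toReal := by
    apply le_of_tendsto_of_tendsto ht1 ht2
    filter_upwards [eventually_gt_atTop 0] with L hL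
    rw [div_le_iff₀ (by positivity)]
    calc logXi (phiC d) L μ ≤ Real.log m + (L / ℓ + 2) ^ 3 * Real.log Y.toReal := hfin L hL.le
      _ = (Real.log m / L ^ 3 + (1 / ℓ + 2 / L) ^ 3 * Real.log Y.toReal) * L ^ 3 := by
        field_simp
  have hle2 : ℓ ^ 3 * press (phiC d) μ ≤ Real.log Y.toReal := by
    calc ℓ ^ 3 * press (phiC d) μ ≤ ℓ ^ 3 * (0 + (1 / ℓ + 0) ^ 3 * Real.log Y.toReal) :=
          mul_le_mul_of_nonneg_left hle (by positivity)
      _ = Real.log Y.toReal := by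
        field_simp
        ring
  calc ENNReal.ofReal (Real.exp (ℓ ^ 3 * press (phiC d) μ))
      ≤ ENNReal.ofReal (Real.exp (Real.log Y.toReal)) :=
        ENNReal.ofReal_le_ofReal (Real.exp_le_exp.mpr hle2)
    _ = Y := by rw [Real.exp_log hy0, ENNReal.ofReal_toReal hY]

end Vale.Agent.P171
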