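import Vale.Agent.P171.Family

/-!
# P171: the upper bound (decoupling of cells): definitions
-/

namespace Vale.Agent.P171

open MeasureTheory Set Filter Topology
open scoped ENNReal

/-- the total strength of the long scales, in the diagonal bound -/
noncomputable def Gam (k : ℕ) (d : ℕ → ℝ) (ℓ : ℝ) : ℝ := ∑' j, tail k d j * kap j ℓ

/-- the weight in which different cells of the grid `(ℓ, p)` are decoupled -/
noncomputable def wtCell (c : ℕ → ℝ) (G ℓ p μ : ℝ) (l : List E3) : ℝ≥0∞ :=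
  ENNReal.ofReal (Real.exp ((μ + G / (2 * ℓ ^ 3)) * (l.length : ℝ) -
    pairSum (fun x y => sameK ℓ p x y * (phiC c (dist x y) - G / ℓ ^ 3)) l))

/-- the partition function of one cell -/
noncomputable def Ycell (c : ℕ → ℝ) (G ℓ μ : ℝ) : ℝ≥0∞ :=
  ∑' n : ℕ, ENNReal.ofReal (Real.exp (μ * (n : ℝ) + (n : ℝ) ^ 2 / (2 * ℓ ^ 3) * G)) *
    cTerm (box ℓ) (wt (phiC c) 0) n

end Vale.Agent.P171
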